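import Vale.Agent.P233.Gig.IfA
import Vale.Agent.P233.H169.Grad

/-! P233, part A: strong convergence of the gradients with integrable weights (helper715). -/

set_option linter.all false

open MeasureTheory Filter Topology Set
open scoped ENNReal NNReal

universe u

namespace Vale.Agent.P233.H715

variable {M : Type u} [MeasurableSpace M] {m : Measure M}

/-- From cut-off weights to integrable weights. -/
theorem tendsto_weight {ι : Type*} {l : Filter ι} {F : ι → M →ₘ[m] ℝ} {L : ℝ}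
    (hF : ∀ᶠ i in l, ∀ᵐ x ∂m, 0 ≤ F i x ∧ F i x ≤ L) {ζ : ℕ → M →ₘ[m] ℝ}
    (hζ : ∀ k, MemLp (ζ k) 2 m) (hex : ∀ᵐ x ∂m, ∀ᶠ k in atTop, 1 ≤ ζ k x ^ 2)
    (h0 : ∀ k, Tendsto (fun i => I (ζ k ^ 2 * F i)) l (𝓝 0)) {w : M →ₘ[m] ℝ}
    (hw0 : 0 ≤ w) (hw : MemLp w 1 m) : Tendsto (fun i => I (w * F i)) l (𝓝 0) := by
  have hwi := int_of_mem hw
  have w0 := nonneg_iff_ae.1 hw0
  -- replace `L` by a nonnegative bound
  wlog hL : 0 ≤ L generalizing L
  · refine this (L := |L|) ?_ (abs_nonneg _)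
    filter_upwards [hF] with i hi
    filter_upwards [hi] with x hx
    exact ⟨hx.1, hx.2.trans (le_abs_self _)⟩
  -- the good sets
  set A : ℕ → Set M := fun k => {x | 1 ≤ ζ k x ^ 2 ∧ w x ≤ k} with hA
  have hAm : ∀ k, MeasurableSet (A k) := fun k => by
    refine MeasurableSet.inter ?_ ?_
    · exact measurableSet_le measurable_const ((AEEqFun.measurable (ζ k)).pow_const 2)
    · exact measurableSet_le (AEEqFun.measurable w) measurable_const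
  have hlim : Tendsto (fun k : ℕ => ∫ x, (A k)ᶜ.indicator (fun x => w x) x ∂m) atTop (𝓝 0) := by
    have h1 : Tendsto (fun k : ℕ => ∫ x, (A k)ᶜ.indicator (fun x => w x) x ∂m) atTop
        (𝓝 (∫ x, (0 : ℝ) ∂m)) := by
      refine tendsto_integral_of_dominated_convergence (fun x => w x) ?_ hwi ?_ ?_
      · intro k
        exact (hwi.aestronglyMeasurable.indicator (hAm k).compl)
      · intro k
        filter_upwards [w0] with x hx
        by_cases hxk : x ∈ (A k)ᶜ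
        · rw [indicator_of_mem hxk, Real.norm_of_nonneg hx]
        · rw [indicator_of_notMem hxk, norm_zero]; exact hx
      · filter_upwards [hex] with x hx
        obtain ⟨k0, hk0⟩ := exists_nat_ge (w x)
        refine tendsto_const_nhds.congr' ?_
        filter_upwards [hx, eventually_ge_atTop k0] with k hk hk1
        rw [indicator_of_notMem]
        rw [mem_compl_iff, not_not]
        exact ⟨hk, hk0.trans (by exact_mod_cast hk1)⟩
    simpa using h1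
  rw [tendsto_order]
  constructor
  · intro a ha
    filter_upwards [hF] with i hi
    refine ha.trans_le (I_nonneg ?_)
    rw [nonneg_iff_ae]
    filter_upwards [hi, w0, mul_ae w (F i)] with x a1 a2 a3
    rw [a3]; exact mul_nonneg a2 a1.1
  · intro a ha
    obtain ⟨k, hk⟩ : ∃ k : ℕ, L * ∫ x, (A k)ᶜ.indicator (fun x => w x) x ∂m < a / 2 := by
      have h1 := (hlim.const_mul L)
      rw [mul_zero] at h1
      exact ((tendsto_order.1 h1).2 _ (half_pos ha)).exists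
    have h2 := ((h0 k).const_mul (k : ℝ))
    rw [mul_zero] at h2
    filter_upwards [hF, (tendsto_order.1 h2).2 _ (half_pos ha)] with i hi hi2
    have hFt : MemLp (F i) ∞ m := mem_top_iff.2 ⟨L, by
      filter_upwards [hi] with x hx
      rw [abs_of_nonneg hx.1]; exact hx.2⟩
    have m1 : MemLp (w * F i : M →ₘ[m] ℝ) 1 m := mem_top_mul hw hFt
    have m2 : MemLp (ζ k ^ 2 * F i : M →ₘ[m] ℝ) 1 m := mem_top_mul (mem_sq (hζ k)) hFt
    have i1 : Integrable (fun x => (k : ℝ) * (ζ k ^ 2 * F i : M →ₘ[m] ℝ) x) m :=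
      (int_of_mem m2).const_mul _
    have i2 : Integrable (fun x => L * (A k)ᶜ.indicator (fun x => w x) x) m :=
      (hwi.indicator (hAm k).compl).const_mul _
    have h3 : I (w * F i) ≤ (k : ℝ) * I (ζ k ^ 2 * F i)
        + L * ∫ x, (A k)ᶜ.indicator (fun x => w x) x ∂m := by
      unfold I
      rw [← integral_const_mul, ← integral_const_mul, ← integral_add i1 i2]
      refine integral_mono_ae (int_of_mem m1) (i1.add i2) ?_
      filter_upwards [hi, w0, mul_ae w (F i), mul_ae (ζ k ^ 2) (F i), sq_ae (ζ k)]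
        with x a1 a2 a3 a4 a5
      show (w * F i : M →ₘ[m] ℝ) x ≤ (k : ℝ) * (ζ k ^ 2 * F i : M →ₘ[m] ℝ) x
        + L * (A k)ᶜ.indicator (fun x => w x) x
      rw [a3, a4, a5]
      by_cases hx : x ∈ A k
      · rw [indicator_of_notMem (by simpa using hx), mul_zero, add_zero]
        have b1 : w x * F i x ≤ k * F i x := mul_le_mul_of_nonneg_right hx.2 a1.1
        have b2 : (k : ℝ) * F i x ≤ k * (ζ k x ^ 2 * F i x) := by
          refine mul_le_mul_of_nonneg_left ?_ (Nat.cast_nonneg k)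
          have := mul_le_mul_of_nonneg_right hx.1 a1.1
          linarith
        linarith
      · rw [indicator_of_mem (by simpa using hx)]
        have b1 : w x * F i x ≤ w x * L := mul_le_mul_of_nonneg_left a1.2 a2
        have b2 : 0 ≤ (k : ℝ) * (ζ k x ^ 2 * F i x) :=
          mul_nonneg (Nat.cast_nonneg k) (mul_nonneg (sq_nonneg _) a1.1)
        linarith
    linarith

variable {C : Calc m}

/-- cut-offs `ζ k ∈ A` with `ζ k ^ 2 ≥ 1` eventually, a.e. -/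
theorem exists_cuts (hC : IsGamma C) : ∃ ζ : ℕ → M →ₘ[m] ℝ, (∀ k, ζ k ∈ C.A ∧
    MemLp (C.Γ (ζ k) (ζ k)) ∞ m) ∧ ∀ᵐ x ∂m, ∀ᶠ k in atTop, 1 ≤ ζ k x ^ 2 := by
  obtain ⟨η, h1, -, h3⟩ := hC.cutoff
  refine ⟨fun k => (2 : ℝ) • η k, fun k => ?_, ?_⟩
  · obtain ⟨a1, a2, a3, a4⟩ := h1 k
    have hA : η k ∈ C.A := ⟨a1, mem_top_iff.2 ⟨1, by
      filter_upwards [nonneg_iff_ae.1 a2, le_iff_ae.1 a3, one_ae (M := M) (m := m)] with x b1 b2 b3
      rw [abs_of_nonneg b1, ← b3]; exact b2⟩⟩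
    refine ⟨hC.toIsDir.A_smul 2 hA, ?_⟩
    rw [hC.smul_left _ _ a1 _ (hC.smul_mem _ _ a1), hC.Γ_smul_right 2 a1 a1]
    refine mem_smul _ (mem_smul _ (mem_top_iff.2 ⟨((k : ℝ) + 1)⁻¹, ?_⟩))
    filter_upwards [hC.Γ_nonneg_ae a1, le_iff_ae.1 a4, smul_ae (1 : M →ₘ[m] ℝ) ((k : ℝ) + 1)⁻¹,
      one_ae (M := M) (m := m)] with x b1 b2 b3 b4
    rw [abs_of_nonneg b1]
    rw [b3, b4, mul_one] at b2
    exact b2
  · have h4 : ∀ᵐ x ∂m, ∀ k, ((2 : ℝ) • η k : M →ₘ[m] ℝ) x = 2 * η k x :=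
      ae_all_iff.2 fun k => smul_ae (η k) 2
    filter_upwards [h3, h4] with x b1 b2
    filter_upwards [(tendsto_order.1 b1).1 (1 / 2) (by norm_num)] with k hk
    rw [b2 k]
    nlinarith

/-- from global to weighted `L²` convergence, for bounded functions -/
theorem tendsto_weight_sq {ι : Type*} {l : Filter ι} {f : ι → M →ₘ[m] ℝ} {L : ℝ}
    (hC : IsGamma C) (hf : ∀ᶠ i in l, MemLp (f i) 2 m ∧ ∀ᵐ x ∂m, |f i x| ≤ L)
    (h0 : Tendsto (fun i => I (f i ^ 2)) l (𝓝 0)) {w : M →ₘ[m] ℝ} (hw0 : 0 ≤ w)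
    (hw : MemLp w 1 m) : Tendsto (fun i => I (w * f i ^ 2)) l (𝓝 0) := by
  obtain ⟨ζ, hζ, hex⟩ := exists_cuts hC
  refine tendsto_weight (L := L ^ 2) (ζ := ζ) ?_ (fun k => hC.memLp _ (hζ k).1.1) hex ?_ hw0 hw
  · filter_upwards [hf] with i hi
    filter_upwards [hi.2, sq_ae (f i)] with x a1 a2
    rw [a2]
    exact ⟨sq_nonneg _, sq_le_sq' (abs_le.1 a1).1 (abs_le.1 a1).2⟩
  · intro k
    obtain ⟨B, hB⟩ := mem_top_iff.1 (hζ k).1.2
    have h1 := h0.const_mul (B ^ 2)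
    rw [mul_zero] at h1
    refine squeeze_zero' ?_ ?_ h1
    · filter_upwards with i
      exact I_nonneg (mul_nonneg (sq_nonneg' _) (sq_nonneg' _))
    · filter_upwards [hf] with i hi
      rw [← I_smul]
      have m1 := mem_sq hi.1
      have hζt : MemLp (ζ k ^ 2 : M →ₘ[m] ℝ) ∞ m := by
        rw [sq]; exact mem_mul_top (hζ k).1.2 (hζ k).1.2
      refine I_mono (mem_mul_top hζt m1) (mem_smul _ m1) ?_
      rw [le_iff_ae]
      filter_upwards [hB, mul_ae (ζ k ^ 2) (f i ^ 2), sq_ae (ζ k), sq_ae (f i),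
        smul_ae (f i ^ 2) (B ^ 2)] with x a1 a2 a3 a4 a5
      rw [a2, a5, a3, a4]
      exact mul_le_mul_of_nonneg_right (sq_le_sq' (abs_le.1 a1).1 (abs_le.1 a1).2) (sq_nonneg _)

/-- **A5(i)** with integrable weights, Laplacians bounded from above. -/
theorem grad_w (hC : IsGamma C) {ι : Type*} {l : Filter ι} {u : ι → M →ₘ[m] ℝ}
    {v : M →ₘ[m] ℝ} {L Lam : ℝ} (hv : v ∈ C.W) (hvL : ∀ᵐ x ∂m, C.Γ v v x ≤ L ^ 2)
    (hu : ∀ᶠ n in l, u n ∈ C.W ∧ (∀ᵐ x ∂m, C.Γ (u n) (u n) x ≤ L ^ 2) ∧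
      ∀ g ∈ C.A, 0 ≤ g → MemLp g 1 m → -I (C.Γ (u n) g) ≤ Lam * I g)
    (h0 : ∀ w : M →ₘ[m] ℝ, 0 ≤ w → MemLp w 1 m →
      Tendsto (fun n => I (w * (u n - v) ^ 2)) l (𝓝 0)) {w : M →ₘ[m] ℝ} (hw0 : 0 ≤ w)
    (hw : MemLp w 1 m) :
    Tendsto (fun n => I (w * C.Γ (u n - v) (u n - v))) l (𝓝 0) := by
  obtain ⟨ζ, hζ, hex⟩ := exists_cuts hC
  have hu' : ∀ᶠ n in l, u n ∈ C.W ∧ (∀ᵐ x ∂m, C.Γ (u n) (u n) x ≤ |L| ^ 2) ∧
      ∀ g ∈ C.A, 0 ≤ g → MemLp g 1 m → -I (C.Γ (u n) g) ≤ |Lam| * I g := by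
    filter_upwards [hu] with n hn
    refine ⟨hn.1, by rw [sq_abs]; exact hn.2.1, fun g hg g0 g1 => (hn.2.2 g hg g0 g1).trans
      (mul_le_mul_of_nonneg_right (le_abs_self _) (I_nonneg g0))⟩
  refine tendsto_weight (L := 4 * |L| ^ 2) (ζ := ζ) ?_ (fun k => hC.memLp _ (hζ k).1.1) hex ?_
    hw0 hw
  · filter_upwards [hu'] with n hn
    filter_upwards [hC.grad_sub_bd hn.1 hv hn.2.1 (by rw [sq_abs]; exact hvL),
      hC.Γ_nonneg_ae (hC.sub_mem hn.1 hv)] with x a1 a2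
    exact ⟨a2, a1⟩
  · intro k
    refine hC.tendsto_grad' (L := |L|) (Lam := |Lam|) (abs_nonneg _) (abs_nonneg _) hv
      (by rw [sq_abs]; exact hvL) hu' (hζ k).1 (hζ k).2 ?_
    have h1 := h0 (ζ k ^ 2) (sq_nonneg' _) (mem_sq (hC.memLp _ (hζ k).1.1))
    refine h1.congr fun n => ?_
    rw [mul_pow]

/-- **A5(i)** with integrable weights, Laplacians bounded from below. -/
theorem grad_w_of_ge (hC : IsGamma C) {ι : Type*} {l : Filter ι} {u : ι → M →ₘ[m] ℝ}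
    {v : M →ₘ[m] ℝ} {L Lam : ℝ} (hv : v ∈ C.W) (hvL : ∀ᵐ x ∂m, C.Γ v v x ≤ L ^ 2)
    (hu : ∀ᶠ n in l, u n ∈ C.W ∧ (∀ᵐ x ∂m, C.Γ (u n) (u n) x ≤ L ^ 2) ∧
      ∀ g ∈ C.A, 0 ≤ g → MemLp g 1 m → I (C.Γ (u n) g) ≤ Lam * I g)
    (h0 : ∀ w : M →ₘ[m] ℝ, 0 ≤ w → MemLp w 1 m →
      Tendsto (fun n => I (w * (u n - v) ^ 2)) l (𝓝 0)) {w : M →ₘ[m] ℝ} (hw0 : 0 ≤ w)
    (hw : MemLp w 1 m) :
    Tendsto (fun n => I (w * C.Γ (u n - v) (u n - v))) l (𝓝 0) := by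
  have e1 : ∀ n, -u n - -v = -(u n - v) := fun n => by abel
  have e2 : ∀ a ∈ C.W, C.Γ (-a) (-a) = C.Γ a a := fun a ha => by
    rw [hC.Γ_neg_left ha (hC.neg_mem ha), hC.Γ_neg_right ha ha, neg_neg]
  have h1 := grad_w hC (l := l) (u := fun n => -u n) (v := -v) (L := L) (Lam := Lam)
    (hC.neg_mem hv) (by rw [e2 _ hv]; exact hvL) (by
      filter_upwards [hu] with n hn
      refine ⟨hC.neg_mem hn.1, by rw [e2 _ hn.1]; exact hn.2.1, fun g hg g0 g1 => ?_⟩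
      rw [hC.Γ_neg_left hn.1 hg.1, I_neg, neg_neg]; exact hn.2.2 g hg g0 g1)
    (fun w w0 w1 => (h0 w w0 w1).congr fun n => by rw [e1, neg_sq]) hw0 hw
  have hu2 : ∀ᶠ n in l, I (w * C.Γ (-u n - -v) (-u n - -v)) = I (w * C.Γ (u n - v) (u n - v)) := by
    filter_upwards [hu] with n hn
    rw [e1, e2 _ (hC.sub_mem hn.1 hv)]
  exact h1.congr' hu2

/-- one-sided Laplacian bound, from the pointwise to the weak form -/
theorem weak_le (hC : IsGamma C) {f : M →ₘ[m] ℝ} (hf : f ∈ C.Test) {c : ℝ}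
    (h : ∀ᵐ x ∂m, C.lap f x ≤ c) {g : M →ₘ[m] ℝ} (hg : g ∈ C.W) (g0 : 0 ≤ g)
    (g1 : MemLp g 1 m) : -I (C.Γ f g) ≤ c * I g := by
  have hL := hC.test_isLap hf
  have e : I (C.Γ f g) = -I (C.lap f * g) := hL.2.2 g hg
  rw [e, neg_neg, ← I_smul]
  refine I_mono (mem_mul_22 hL.2.1 (hC.memLp _ hg)) (mem_smul _ g1) ?_
  rw [le_iff_ae]
  filter_upwards [h, nonneg_iff_ae.1 g0, mul_ae (C.lap f) g, smul_ae g c] with x a1 a2 a3 a4
  rw [a3, a4]
  exact mul_le_mul_of_nonneg_right a1 a2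

/-- one-sided Laplacian bound, from the pointwise to the weak form -/
theorem weak_ge (hC : IsGamma C) {f : M →ₘ[m] ℝ} (hf : f ∈ C.Test) {c : ℝ}
    (h : ∀ᵐ x ∂m, -c ≤ C.lap f x) {g : M →ₘ[m] ℝ} (hg : g ∈ C.W) (g0 : 0 ≤ g)
    (g1 : MemLp g 1 m) : I (C.Γ f g) ≤ c * I g := by
  have hL := hC.test_isLap hf
  have e : I (C.Γ f g) = -I (C.lap f * g) := hL.2.2 g hg
  rw [e, ← I_smul, ← I_neg]
  refine I_mono (mem_neg (mem_mul_22 hL.2.1 (hC.memLp _ hg))) (mem_smul _ g1) ?_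
  rw [le_iff_ae]
  filter_upwards [h, nonneg_iff_ae.1 g0, mul_ae (C.lap f) g, smul_ae g c,
    neg_ae (C.lap f * g)] with x a1 a2 a3 a4 a5
  rw [a5, a3, a4]
  nlinarith

/-- the field `grad` of `PA.ULim` -/
theorem ulim_grad {M : Type u} [MetricSpace M] [MeasurableSpace M] {m : Measure M}
    (hC : IsGamma (sob m)) {K N : ℝ} {p : M} {s₀ C₀ D : ℝ} {D' : ℝ → ℝ} {u : ℕ → ℝ → M →ₘ[m] ℝ}
    (hN : 0 ≤ N) (hC₀ : 0 ≤ C₀)
    (hmem : ∀ t ∈ Icc (0 : ℝ) 1, cl m (zr p s₀ C₀ t) ∈ (sob m).A ∧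
      MemLp ((sob m).Γ (cl m (zr p s₀ C₀ t)) (cl m (zr p s₀ C₀ t))) ∞ m)
    (hT : ∀ᶠ n in atTop, ∀ t ∈ Icc (0 : ℝ) 1, u n t ∈ (sob m).TestI)
    (hU : ∀ᶠ n in atTop, PA.LevU (sob m) K N (PA.en n) C₀ D D' (u n))
    (hconv : ∀ t ∈ Icc (0 : ℝ) 1,
      Tendsto (fun n => I ((u n t - cl m (zr p s₀ C₀ t)) ^ 2)) atTop (𝓝 0)) :
    ∀ t ∈ Ioc (0 : ℝ) 1, ∀ w : M →ₘ[m] ℝ, 0 ≤ w → MemLp w 1 m →
    Tendsto (fun n => I (w * (sob m).Γ (u n t - cl m (zr p s₀ C₀ t)) (u n t - cl m (zr p s₀ C₀ t))))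
      atTop (𝓝 0) := by
  intro t ht w hw0 hw
  have ht' : t ∈ Icc (0 : ℝ) 1 := ⟨ht.1.le, ht.2⟩
  obtain ⟨hz, hzt⟩ := hmem t ht'
  obtain ⟨G, hG⟩ := mem_top_iff.1 hzt
  set z := cl m (zr p s₀ C₀ t) with hzd
  set L : ℝ := |D| + √|G| with hL
  have hLD : D ^ 2 ≤ L ^ 2 := by
    rw [← sq_abs D]
    exact pow_le_pow_left₀ (abs_nonneg _) (by have := Real.sqrt_nonneg |G|; linarith) 2
  have hLG : G ≤ L ^ 2 := by
    have h1 : |G| ≤ L ^ 2 := by
      rw [← Real.sq_sqrt (abs_nonneg G)]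
      exact pow_le_pow_left₀ (Real.sqrt_nonneg _) (by have := abs_nonneg D; linarith) 2
    exact (le_abs_self G).trans h1
  set Lam : ℝ := N / t + (1 + |K|) * |K| * C₀ with hLam
  refine grad_w hC (L := L) (Lam := Lam) hz.1 ?_ ?_ ?_ hw0 hw
  · filter_upwards [hG] with x hx
    exact ((le_abs_self _).trans hx).trans hLG
  · filter_upwards [hT, hU] with n h1 h2
    refine ⟨(hC.test_A (h1 t ht').1).1, ?_, fun g hg g0 g1 => ?_⟩
    · filter_upwards [h2.lip t ht'] with x hx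
      exact hx.trans hLD
    · refine weak_le hC (h1 t ht').1 ?_ hg.1 g0 g1
      filter_upwards [h2.lap t ht] with x hx
      refine hx.trans ?_
      have he0 : 0 ≤ PA.en n := by unfold PA.en; positivity
      have he1 : PA.en n ≤ 1 := by
        unfold PA.en
        exact inv_le_one_of_one_le₀ (by have := Nat.cast_nonneg (α := ℝ) n; linarith)
      have : PA.c1 K (PA.en n) C₀ ≤ (1 + |K|) * |K| * C₀ := by
        unfold PA.c1
        have hK := abs_nonneg K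
        have : PA.en n * |K| ≤ |K| := by nlinarith
        gcongr
      rw [hLam]; linarith
  · -- weights from the global convergence
    intro w' w0 w1
    obtain ⟨B, hB⟩ := mem_top_iff.1 hz.2
    refine tendsto_weight_sq (L := C₀ + B) hC ?_ (hconv t ht') w0 w1
    filter_upwards [hT, hU] with n h1 h2
    refine ⟨mem_sub (hC.memLp _ (hC.test_A (h1 t ht').1).1) (hC.memLp _ hz.1), ?_⟩
    filter_upwards [h2.lo t ht', h2.hi t ht', hB, sub_ae (u n t) z] with x a1 a2 a3 a4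
    rw [a4]
    have b1 := abs_le.1 a3
    exact abs_le.2 ⟨by linarith, by linarith⟩

end Vale.Agent.P233.H715
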