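import Vale.Agent.P233.H616.Model

/-! P233, RCDA, block G1 (helper715): the two-sided comparison
`sn|oz| sn|ow| (md|xy| - md(|ox|-|oy|)) ≤ sn|ox| sn|oy| (md|zw| - md(|oz|-|ow|))`
for `z ∈ [o,x]`, `w ∈ [o,y]`, and the real analysis of `sn`, `md`. -/

set_option linter.all false

open Real Set Filter Topology

namespace Vale.Agent.P233.H715.RG

open Vale.Agent.P233.H616

/-! ### comparison in terms of `md` -/

theorem sn_cs_id (κ A s t : ℝ) :
    sn κ (s + t) * cs κ (A - s) - sn κ s * cs κ (A - (s + t)) = sn κ t * cs κ A := by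
  have e1 : A - (s + t) = (A - s) + (-t) := by ring
  have e2 : A = (A - s) + s := by ring
  have h1 := cs_add κ (A - s) (-t)
  have h2 := cs_add κ (A - s) s
  rw [← e1, sn_neg, cs_neg] at h1
  rw [← e2] at h2
  rw [h1, h2, sn_add]
  ring

/-- `Cmp` with `md` : `A = |q o|`, `b = |q x|`, `r = |q z|`, `z ∈ [o,x]`, `s = |o z|`, `t = |z x|` -/
theorem cmp_md {κ A b s t r : ℝ} (h : T.Cmp κ A b s t r) :
    sn κ s * (md κ b - md κ (A - (s + t))) ≤ sn κ (s + t) * (md κ r - md κ (A - s)) := by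
  obtain ⟨h0, h1, h2⟩ := h
  rcases lt_trichotomy κ 0 with hk | hk | hk
  · have hs : 0 < √(-κ) := Real.sqrt_pos.2 (by linarith)
    have h3 : sn κ t * cs κ A + sn κ s * cs κ b ≤ sn κ (s + t) * cs κ r := by
      simp only [sn_neg' hk, cs_neg' hk]
      have e : sinh (√(-κ) * t) / √(-κ) * cosh (√(-κ) * A)
          + sinh (√(-κ) * s) / √(-κ) * cosh (√(-κ) * b)
          = (sinh (√(-κ) * t) * cosh (√(-κ) * A) + sinh (√(-κ) * s) * cosh (√(-κ) * b))
            / √(-κ) := by ring
      rw [e, div_mul_eq_mul_div]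
      exact div_le_div_of_nonneg_right (h2 hk) hs.le
    rw [← sn_cs_id κ A s t] at h3
    simp only [cs_eq] at h3
    have h4 : κ * (sn κ (s + t) * (md κ r - md κ (A - s)))
        ≤ κ * (sn κ s * (md κ b - md κ (A - (s + t)))) := by linarith
    exact (mul_le_mul_left_of_neg hk).1 h4
  · subst hk
    have h3 := h0 rfl
    simp only [sn_zero', md_zero']
    nlinarith
  · have hs : 0 < √κ := Real.sqrt_pos.2 hk
    have h3 : sn κ (s + t) * cs κ r ≤ sn κ t * cs κ A + sn κ s * cs κ b := by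
      simp only [sn_pos' hk, cs_pos hk]
      have e : sin (√κ * t) / √κ * cos (√κ * A) + sin (√κ * s) / √κ * cos (√κ * b)
          = (sin (√κ * t) * cos (√κ * A) + sin (√κ * s) * cos (√κ * b)) / √κ := by ring
      rw [e, div_mul_eq_mul_div]
      exact div_le_div_of_nonneg_right (h1 hk) hs.le
    rw [← sn_cs_id κ A s t] at h3
    simp only [cs_eq] at h3
    have h4 : κ * (sn κ s * (md κ b - md κ (A - (s + t))))
        ≤ κ * (sn κ (s + t) * (md κ r - md κ (A - s))) := by linarith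
    exact le_of_mul_le_mul_left h4 hk

/-! ### the metric inequality -/

section metric

variable {M : Type*} [MetricSpace M] {κ : ℝ}

theorem half_perim {o x y : M} (hp : √κ * (dist o x + dist o y + dist x y) < 2 * π) :
    √κ * dist o x < π := by
  have h1 := dist_triangle_right o x y
  have h2 : 0 ≤ √κ := Real.sqrt_nonneg _
  have h3 : √κ * (2 * dist o x) ≤ √κ * (dist o x + dist o y + dist x y) :=
    mul_le_mul_of_nonneg_left (by linarith) h2
  linarith

theorem sn_nonneg' {κ t : ℝ} (ht : 0 ≤ t) (h : √κ * t ≤ π) : 0 ≤ sn κ t :=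
  sn_nonneg ht fun _ => h

/-- **G1** -/
theorem two_side (hA : T.IsAlexandrov M κ) {o x y z w : M}
    (hz : dist o z + dist z x = dist o x) (hw : dist o w + dist w y = dist o y)
    (hp : √κ * (dist o x + dist o y + dist x y) < 2 * π) :
    sn κ (dist o z) * sn κ (dist o w) * (md κ (dist x y) - md κ (dist o x - dist o y)) ≤
      sn κ (dist o x) * sn κ (dist o y) * (md κ (dist z w) - md κ (dist o z - dist o w)) := by
  have hsq : 0 ≤ √κ := Real.sqrt_nonneg _
  have hzx : 0 ≤ dist z x := dist_nonneg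
  have hwy : 0 ≤ dist w y := dist_nonneg
  -- step 1
  have c1 := cmp_md (hA.comparison y o x z hz (by
    rw [dist_comm y o, dist_comm y x]
    have e : dist o y + dist x y + dist o x = dist o x + dist o y + dist x y := by ring
    rw [e]; exact hp))
  -- step 2
  have c2 := cmp_md (hA.comparison z o y w hw (by
    refine lt_of_le_of_lt (mul_le_mul_of_nonneg_left ?_ hsq) hp
    have h1 := dist_triangle z x y
    rw [dist_comm z o]
    linarith))
  rw [hz] at c1
  rw [hw] at c2
  rw [dist_comm y o, dist_comm y x, dist_comm y z] at c1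
  rw [dist_comm z o] at c2
  have e1 : md κ (dist o y - dist o x) = md κ (dist o x - dist o y) := by
    rw [← md_neg]; congr 1; ring
  have e2 : md κ (dist o y - dist o z) = md κ (dist o z - dist o y) := by
    rw [← md_neg]; congr 1; ring
  rw [e1, e2] at c1
  have hx0 : √κ * dist o x < π := half_perim hp
  have hy0 : √κ * dist o y < π := by
    have h3 : √κ * (dist o y + dist o x + dist y x) < 2 * π := by
      rw [dist_comm y x]
      have e : dist o y + dist o x + dist x y = dist o x + dist o y + dist x y := by ring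
      rw [e]; exact hp
    exact half_perim h3
  have p1 : 0 ≤ sn κ (dist o x) := sn_nonneg' dist_nonneg hx0.le
  have p2 : 0 ≤ sn κ (dist o w) := sn_nonneg' dist_nonneg
    ((mul_le_mul_of_nonneg_left (by linarith) hsq).trans hy0.le)
  have k1 := mul_le_mul_of_nonneg_left c1 p2
  have k2 := mul_le_mul_of_nonneg_left c2 p1
  linarith

end metric

/-! ### real analysis of `sn` and `md` -/

theorem abs_cs_le {κ t T : ℝ} (h : |t| ≤ T) : |cs κ t| ≤ cosh (√|κ| * T) := by
  have hs : 0 ≤ √|κ| := Real.sqrt_nonneg _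
  have hT : 0 ≤ T := (abs_nonneg t).trans h
  have h1 : 1 ≤ cosh (√|κ| * T) := Real.one_le_cosh _
  rcases lt_trichotomy κ 0 with hk | hk | hk
  · rw [cs_neg' hk, abs_of_pos (Real.cosh_pos _), Real.cosh_le_cosh, abs_mul, abs_mul,
      abs_of_nonneg (Real.sqrt_nonneg (-κ)), abs_of_nonneg (Real.sqrt_nonneg |κ|), abs_of_neg hk,
      abs_of_nonneg hT]
    exact mul_le_mul_of_nonneg_left h (Real.sqrt_nonneg _)
  · subst hk
    rw [cs_zero', abs_one]; exact h1
  · rw [cs_pos hk]
    exact (Real.abs_cos_le_one _).trans h1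

theorem abs_sn_le {κ t T : ℝ} (h : |t| ≤ T) : |sn κ t| ≤ cosh (√|κ| * T) * |t| := by
  have h1 : ∀ x ∈ uIcc 0 t, ‖cs κ x‖ ≤ cosh (√|κ| * T) := fun x hx => by
    rw [Real.norm_eq_abs]
    refine abs_cs_le (le_trans ?_ h)
    rcases le_total 0 t with h0 | h0
    · rw [uIcc_of_le h0] at hx
      rw [abs_of_nonneg hx.1, abs_of_nonneg h0]; exact hx.2
    · rw [uIcc_of_ge h0] at hx
      rw [abs_of_nonpos hx.2, abs_of_nonpos h0]; linarith [hx.1]
  have h2 := (convex_uIcc 0 t).norm_image_sub_le_of_norm_hasDerivWithin_le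
    (f := sn κ) (f' := cs κ) (fun x _ => (hasDerivAt_sn κ x).hasDerivWithinAt) h1
    left_mem_uIcc right_mem_uIcc
  simpa using h2

/-- `|md h - h²/2| ≤ C h⁴` -/
theorem md_quad {κ h T : ℝ} (hT : |h| ≤ T) :
    |md κ h - h ^ 2 / 2| ≤ |κ| * cosh (√|κ| * T) * h ^ 4 := by
  set c := cosh (√|κ| * T) with hc
  have hc1 : 1 ≤ c := Real.one_le_cosh _
  -- `|cs x - 1| ≤ |κ| c x²`
  have aux : ∀ {f f' : ℝ → ℝ} {g : ℝ}, (∀ x, HasDerivAt f (f' x) x) → f 0 = 0 →
      ∀ y, |y| ≤ T → (∀ x, |x| ≤ |y| → |f' x| ≤ g) → |f y| ≤ g * |y| := by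
    intro f f' g hf h0 y hy hb
    have h2 := (convex_uIcc 0 y).norm_image_sub_le_of_norm_hasDerivWithin_le
      (f := f) (f' := f') (C := g) (fun x _ => (hf x).hasDerivWithinAt) (fun x hx => by
        rw [Real.norm_eq_abs]
        refine hb x ?_
        rcases le_total 0 y with h0 | h0
        · rw [uIcc_of_le h0] at hx
          rw [abs_of_nonneg hx.1, abs_of_nonneg h0]; exact hx.2
        · rw [uIcc_of_ge h0] at hx
          rw [abs_of_nonpos hx.2, abs_of_nonpos h0]; linarith [hx.1])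
      left_mem_uIcc right_mem_uIcc
    simpa [h0] using h2
  have a1 : ∀ y, |y| ≤ T → |cs κ y - 1| ≤ |κ| * c * |y| ^ 2 := by
    intro y hy
    have := aux (f := fun x => cs κ x - 1) (f' := fun x => -(κ * sn κ x)) (g := |κ| * (c * |y|))
      (fun x => (hasDerivAt_cs κ x).sub_const 1) (by simp) y hy (fun x hx => by
        rw [abs_neg, abs_mul]
        refine mul_le_mul_of_nonneg_left ?_ (abs_nonneg _)
        refine (abs_sn_le (hx.trans hy)).trans ?_
        exact mul_le_mul_of_nonneg_left hx (by linarith))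
    calc |cs κ y - 1| ≤ |κ| * (c * |y|) * |y| := this
      _ = |κ| * c * |y| ^ 2 := by ring
  have a2 : ∀ y, |y| ≤ T → |sn κ y - y| ≤ |κ| * c * |y| ^ 3 := by
    intro y hy
    have := aux (f := fun x => sn κ x - x) (f' := fun x => cs κ x - 1) (g := |κ| * c * |y| ^ 2)
      (fun x => (hasDerivAt_sn κ x).sub (hasDerivAt_id x)) (by simp) y hy (fun x hx => by
        refine (a1 x (hx.trans hy)).trans ?_
        exact mul_le_mul_of_nonneg_left (pow_le_pow_left₀ (abs_nonneg _) hx 2)
          (mul_nonneg (abs_nonneg _) (by linarith)))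
    calc |sn κ y - y| ≤ |κ| * c * |y| ^ 2 * |y| := this
      _ = |κ| * c * |y| ^ 3 := by ring
  have a3 := aux (f := fun x => md κ x - x ^ 2 / 2) (f' := fun x => sn κ x - x)
    (g := |κ| * c * |h| ^ 3)
    (fun x => by
      have h1 := (hasDerivAt_md κ x).sub ((hasDerivAt_pow 2 x).div_const 2)
      refine h1.congr_deriv ?_
      push_cast; ring) (by simp) h hT (fun x hx => by
        refine (a2 x (hx.trans hT)).trans ?_
        exact mul_le_mul_of_nonneg_left (pow_le_pow_left₀ (abs_nonneg _) hx 3)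
          (mul_nonneg (abs_nonneg _) (by linarith)))
  calc |md κ h - h ^ 2 / 2| ≤ |κ| * c * |h| ^ 3 * |h| := a3
    _ = |κ| * c * h ^ 4 := by
      have : |h| ^ 3 * |h| = h ^ 4 := by
        rw [← pow_succ]
        exact Even.pow_abs ⟨2, rfl⟩ h
      rw [← this]; ring

theorem cs_quad {κ h T : ℝ} (hT : |h| ≤ T) :
    |cs κ h - 1| ≤ κ ^ 2 * cosh (√|κ| * T) * h ^ 4 + |κ| * h ^ 2 / 2 := by
  have h1 := md_quad (κ := κ) hT
  have e : cs κ h - 1 = -(κ * (md κ h - h ^ 2 / 2)) - κ * (h ^ 2 / 2) := by rw [cs_eq]; ring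
  rw [e]
  calc |-(κ * (md κ h - h ^ 2 / 2)) - κ * (h ^ 2 / 2)|
      ≤ |-(κ * (md κ h - h ^ 2 / 2))| + |κ * (h ^ 2 / 2)| := abs_sub _ _
    _ = |κ| * |md κ h - h ^ 2 / 2| + |κ| * (h ^ 2 / 2) := by
        rw [abs_neg, abs_mul, abs_mul, abs_of_nonneg (by positivity : 0 ≤ h ^ 2 / 2)]
    _ ≤ |κ| * (|κ| * cosh (√|κ| * T) * h ^ 4) + |κ| * (h ^ 2 / 2) :=
        add_le_add (mul_le_mul_of_nonneg_left h1 (abs_nonneg _)) le_rfl
    _ = _ := by rw [← sq_abs κ]; ring

end Vale.Agent.P233.H715.RG
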