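import Vale.Agent.P233.H715.RG1
import Mathlib.MeasureTheory.Measure.Hausdorff
import Mathlib.Topology.MetricSpace.HausdorffDimension

/-! P233, RCDA, block G2 (helper715): the radial contraction on small balls and Hausdorff
measures. -/

set_option linter.all false

open Real Set Filter Topology MeasureTheory
open scoped ENNReal NNReal MeasureTheory

namespace Vale.Agent.P233.H715.RG

open Vale.Agent.P233.H616

/-! ### elementary bounds -/

theorem sn_ge_half {κ t : ℝ} (ht : 0 ≤ t) (h : √κ * t ≤ π / 2) : t / 2 ≤ sn κ t := by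
  rcases lt_trichotomy κ 0 with hk | hk | hk
  · rw [sn_neg' hk]
    have hs : 0 < √(-κ) := Real.sqrt_pos.2 (by linarith)
    rw [le_div_iff₀ hs]
    have h1 : √(-κ) * t ≤ sinh (√(-κ) * t) := Real.self_le_sinh_iff.2 (by positivity)
    nlinarith
  · subst hk
    rw [sn_zero']; linarith
  · rw [sn_pos' hk]
    have hs : 0 < √κ := Real.sqrt_pos.2 hk
    rw [le_div_iff₀ hs]
    have h1 := Real.mul_le_sin (by positivity : 0 ≤ √κ * t) h
    have h2 : 1 / 2 ≤ 2 / π := by
      rw [div_le_div_iff₀ (by norm_num) Real.pi_pos]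
      linarith [Real.pi_le_four]
    have h3 : 1 / 2 * (√κ * t) ≤ 2 / π * (√κ * t) := mul_le_mul_of_nonneg_right h2 (by positivity)
    linarith

theorem md_diff {κ u v : ℝ} (hu : 0 ≤ u) (huv : u ≤ v) (h : √κ * v ≤ π / 2) :
    (v ^ 2 - u ^ 2) / 4 ≤ md κ v - md κ u := by
  have hm : MonotoneOn (fun t => md κ t - t ^ 2 / 4) (Icc 0 v) := by
    refine monotoneOn_of_deriv_nonneg (convex_Icc 0 v) ?_ ?_ ?_
    · exact ((continuous_md κ).sub (by fun_prop)).continuousOn
    · intro t _
      exact (((hasDerivAt_md κ t).sub ((hasDerivAt_pow 2 t).div_const 4)).differentiableAt).differentiableWithinAt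
    · intro t ht
      rw [interior_Icc] at ht
      have hd : HasDerivAt (fun t => md κ t - t ^ 2 / 4) (sn κ t - ((2 : ℕ) : ℝ) * t ^ (2 - 1) / 4) t :=
        (hasDerivAt_md κ t).sub ((hasDerivAt_pow 2 t).div_const 4)
      rw [hd.deriv]
      have h1 := sn_ge_half ht.1.le
        ((mul_le_mul_of_nonneg_left ht.2.le (Real.sqrt_nonneg κ)).trans h)
      have e : ((2 : ℕ) : ℝ) * t ^ (2 - 1) / 4 = t / 2 := by norm_num; ring
      rw [e]; linarith
  have := hm ⟨hu, huv⟩ ⟨hu.trans huv, le_rfl⟩ huv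
  simp only at this
  linarith

theorem md_le_sq {κ t T : ℝ} (h : |t| ≤ T) : |md κ t| ≤ cosh (√|κ| * T) * t ^ 2 := by
  have h2 := (convex_uIcc 0 t).norm_image_sub_le_of_norm_hasDerivWithin_le
    (f := md κ) (f' := sn κ) (C := cosh (√|κ| * T) * |t|)
    (fun x _ => (hasDerivAt_md κ x).hasDerivWithinAt) (fun x hx => by
      have hxt : |x| ≤ |t| := by
        rcases le_total 0 t with h0 | h0
        · rw [uIcc_of_le h0] at hx
          rw [abs_of_nonneg hx.1, abs_of_nonneg h0]; exact hx.2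
        · rw [uIcc_of_ge h0] at hx
          rw [abs_of_nonpos hx.2, abs_of_nonpos h0]; linarith [hx.1]
      rw [Real.norm_eq_abs]
      refine (abs_sn_le (hxt.trans h)).trans ?_
      exact mul_le_mul_of_nonneg_left hxt (Real.cosh_pos _).le)
    left_mem_uIcc right_mem_uIcc
  have h3 : |md κ t| ≤ cosh (√|κ| * T) * |t| * |t| := by simpa using h2
  rwa [mul_assoc, abs_mul_abs_self, ← sq] at h3

theorem md_nonneg {κ t : ℝ} (h : √κ * |t| ≤ π / 2) : 0 ≤ md κ t := by
  have h1 := md_diff (κ := κ) le_rfl (abs_nonneg t) h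
  have e : md κ |t| = md κ t := by
    rcases abs_cases t with h | h
    · rw [h.1]
    · rw [h.1, md_neg]
  rw [e, md_at_zero] at h1
  have : 0 ≤ |t| ^ 2 := by positivity
  linarith

/-! ### the radial contraction -/

section metric

variable {M : Type*} [MetricSpace M] {κ : ℝ}

theorem exists_pt (hA : T.IsAlexandrov M κ) (o x : M) {l : ℝ} (h0 : 0 ≤ l) (h1 : l ≤ 1) :
    ∃ z, dist o z + dist z x = dist o x ∧ dist o z = l * dist o x := by
  obtain ⟨z, h2, h3⟩ := hA.geodesic o x (l * dist o x) ((1 - l) * dist o x)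
    (mul_nonneg h0 dist_nonneg) (mul_nonneg (by linarith) dist_nonneg) (by ring)
  exact ⟨z, by rw [h2, h3]; ring, h2⟩

/-- constant of the contraction -/
noncomputable def cR (κ R : ℝ) : ℝ := 6 * cosh (√|κ| * (2 * R)) ^ 2

theorem cR_ge (κ R : ℝ) : 6 ≤ cR κ R := by
  unfold cR
  have := Real.one_le_cosh (√|κ| * (2 * R))
  nlinarith

theorem alg_end {a b l d c r : ℝ} (hab : 0 < a * b) (hc1 : 1 ≤ c) (hl : 0 ≤ l) (hd : 0 ≤ d)
    (hr : 0 ≤ r) (key : l ^ 2 * a * b / 4 * (d ^ 2 / 8) ≤ c ^ 2 * a * b * (c * r ^ 2)) :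
    l * d ≤ 6 * c ^ 2 * r := by
  have key2 : l ^ 2 * d ^ 2 ≤ 32 * c ^ 3 * r ^ 2 := by
    have e1 : l ^ 2 * a * b / 4 * (d ^ 2 / 8) = a * b * (l ^ 2 * d ^ 2 / 32) := by ring
    have e2 : c ^ 2 * a * b * (c * r ^ 2) = a * b * (c ^ 3 * r ^ 2) := by ring
    rw [e1, e2] at key
    have := le_of_mul_le_mul_left key hab
    linarith
  have h1 : c ^ 3 ≤ c ^ 4 := pow_le_pow_right₀ hc1 (by norm_num)
  have h2 : 0 ≤ r ^ 2 := by positivity
  have h3 := mul_le_mul_of_nonneg_right h1 h2
  have h4 : 0 ≤ c ^ 4 * r ^ 2 := by positivity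
  have key3 : (l * d) ^ 2 ≤ (6 * c ^ 2 * r) ^ 2 := by
    have e3 : (l * d) ^ 2 = l ^ 2 * d ^ 2 := by ring
    have e4 : (6 * c ^ 2 * r) ^ 2 = 36 * (c ^ 4 * r ^ 2) := by ring
    rw [e3, e4]; linarith
  exact (abs_le_of_sq_le_sq' key3 (by positivity)).2

/-- **G2**, Lipschitz bound of the inverse of the radial contraction with ratio `l`. -/
theorem contr_lip (hA : T.IsAlexandrov M κ) {R l : ℝ} (hR : √κ * R ≤ π / 4) (hl : 0 < l)
    (hl1 : l ≤ 1) {o x y z w : M} (hx : dist o x ≤ R) (hy : dist o y ≤ R)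
    (hz : dist o z + dist z x = dist o x) (hz' : dist o z = l * dist o x)
    (hw : dist o w + dist w y = dist o y) (hw' : dist o w = l * dist o y) :
    l * dist x y ≤ cR κ R * dist z w := by
  have hsq : 0 ≤ √κ := Real.sqrt_nonneg _
  have hc6 := cR_ge κ R
  set c := cosh (√|κ| * (2 * R)) with hc
  have hc1 : 1 ≤ c := Real.one_le_cosh _
  have hcR : cR κ R = 6 * c ^ 2 := rfl
  set a := dist o x with ha
  set b := dist o y with hb
  set d := dist x y with hd
  set r := dist z w with hr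
  have ha0 : 0 ≤ a := dist_nonneg
  have hb0 : 0 ≤ b := dist_nonneg
  have hd0 : 0 ≤ d := dist_nonneg
  have hr0 : 0 ≤ r := dist_nonneg
  have hR0 : 0 ≤ R := ha0.trans hx
  have hdab : d ≤ a + b := by
    rw [hd, ha, hb]; exact dist_triangle_left x y o
  have hrab : r ≤ l * (a + b) := by
    have := dist_triangle_left z w o
    rw [hz', hw'] at this
    rw [hr]; linarith
  -- first case
  have hlr : l * |a - b| ≤ r := by
    have h1 : |dist o z - dist o w| ≤ dist z w := by
      rw [dist_comm o z, dist_comm o w]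
      exact abs_dist_sub_le z w o
    rw [hz', hw', ← mul_sub, abs_mul, abs_of_pos hl] at h1
    exact h1
  rcases le_or_gt d (2 * |a - b|) with hcase | hcase
  · have h1 : l * d ≤ l * (2 * |a - b|) := mul_le_mul_of_nonneg_left hcase hl.le
    have h2 : 2 * r ≤ cR κ R * r := mul_le_mul_of_nonneg_right (by linarith) hr0
    linarith
  -- second case
  have hapos : 0 < a := by
    rcases ha0.eq_or_lt with h | h
    · exfalso
      rw [← h, zero_sub, abs_neg, abs_of_nonneg hb0] at hcase
      rw [← h] at hdab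
      linarith
    · exact h
  have hbpos : 0 < b := by
    rcases hb0.eq_or_lt with h | h
    · exfalso
      rw [← h, sub_zero, abs_of_nonneg ha0] at hcase
      rw [← h] at hdab
      linarith
    · exact h
  have hpi := Real.pi_pos
  have hp : √κ * (a + b + d) < 2 * π := by
    have : √κ * (a + b + d) ≤ √κ * (4 * R) := mul_le_mul_of_nonneg_left (by linarith) hsq
    linarith
  have hG := two_side hA hz hw hp
  rw [hz', hw'] at hG
  change sn κ (l * a) * sn κ (l * b) * (md κ d - md κ (a - b)) ≤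
    sn κ a * sn κ b * (md κ r - md κ (l * a - l * b)) at hG
  have hla : l * a ≤ R := (mul_le_of_le_one_left ha0 hl1).trans hx
  have hlb : l * b ≤ R := (mul_le_of_le_one_left hb0 hl1).trans hy
  have hRR : √κ * R ≤ π / 2 := by linarith
  have s1 : l * a / 2 ≤ sn κ (l * a) :=
    sn_ge_half (by positivity) ((mul_le_mul_of_nonneg_left hla hsq).trans hRR)
  have s2 : l * b / 2 ≤ sn κ (l * b) :=
    sn_ge_half (by positivity) ((mul_le_mul_of_nonneg_left hlb hsq).trans hRR)
  have s3 : sn κ a ≤ c * a := by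
    have := (le_abs_self _).trans (abs_sn_le (κ := κ) (t := a) (T := 2 * R)
      (by rw [abs_of_nonneg ha0]; linarith))
    rwa [abs_of_nonneg ha0] at this
  have s4 : sn κ b ≤ c * b := by
    have := (le_abs_self _).trans (abs_sn_le (κ := κ) (t := b) (T := 2 * R)
      (by rw [abs_of_nonneg hb0]; linarith))
    rwa [abs_of_nonneg hb0] at this
  have s3' : 0 ≤ sn κ a := (by positivity : (0 : ℝ) ≤ a / 2).trans
    (sn_ge_half ha0 ((mul_le_mul_of_nonneg_left hx hsq).trans hRR))
  have s4' : 0 ≤ sn κ b := (by positivity : (0 : ℝ) ≤ b / 2).trans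
    (sn_ge_half hb0 ((mul_le_mul_of_nonneg_left hy hsq).trans hRR))
  -- `md d - md (a - b) ≥ d²/8`
  have habs : md κ (a - b) = md κ |a - b| := by
    rcases abs_cases (a - b) with h | h
    · rw [h.1]
    · rw [h.1, md_neg]
  have hd2 : √κ * d ≤ π / 2 := by
    have : √κ * d ≤ √κ * (2 * R) := mul_le_mul_of_nonneg_left (by linarith) hsq
    linarith
  have m1 : d ^ 2 / 8 ≤ md κ d - md κ (a - b) := by
    rw [habs]
    have h1 := md_diff (κ := κ) (abs_nonneg (a - b)) (by linarith [abs_nonneg (a - b)]) hd2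
    have h2 : |a - b| ^ 2 ≤ (d / 2) ^ 2 := pow_le_pow_left₀ (abs_nonneg _) (by linarith) 2
    have h3 : (d / 2) ^ 2 = d ^ 2 / 4 := by ring
    have h4 := sq_nonneg d
    linarith
  have m2 : 0 ≤ md κ (l * a - l * b) := by
    refine md_nonneg ?_
    have : |l * a - l * b| ≤ R := by
      rw [← mul_sub, abs_mul, abs_of_pos hl]
      have h1 : |a - b| ≤ R := abs_le.2 ⟨by linarith, by linarith⟩
      have h2 : l * |a - b| ≤ 1 * |a - b| := mul_le_mul_of_nonneg_right hl1 (abs_nonneg _)
      linarith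
    exact (mul_le_mul_of_nonneg_left this hsq).trans hRR
  have m3 : md κ r ≤ c * r ^ 2 := by
    refine (le_abs_self _).trans (md_le_sq ?_)
    rw [abs_of_nonneg hr0]
    have h2 : l * (a + b) ≤ 1 * (a + b) := mul_le_mul_of_nonneg_right hl1 (by linarith)
    linarith
  have hmd0 : 0 ≤ md κ d - md κ (a - b) := (by positivity : (0 : ℝ) ≤ d ^ 2 / 8).trans m1
  have key : l ^ 2 * a * b / 4 * (d ^ 2 / 8) ≤ c ^ 2 * a * b * (c * r ^ 2) := by
    calc l ^ 2 * a * b / 4 * (d ^ 2 / 8) = (l * a / 2) * (l * b / 2) * (d ^ 2 / 8) := by ring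
      _ ≤ sn κ (l * a) * sn κ (l * b) * (md κ d - md κ (a - b)) := by
          refine mul_le_mul (mul_le_mul s1 s2 (by positivity) ?_) m1 (by positivity) ?_
          · exact (by positivity : (0 : ℝ) ≤ l * a / 2).trans s1
          · exact mul_nonneg ((by positivity : (0 : ℝ) ≤ l * a / 2).trans s1)
              ((by positivity : (0 : ℝ) ≤ l * b / 2).trans s2)
      _ ≤ sn κ a * sn κ b * (md κ r - md κ (l * a - l * b)) := hG
      _ ≤ sn κ a * sn κ b * (c * r ^ 2) :=
          mul_le_mul_of_nonneg_left (by linarith) (mul_nonneg s3' s4')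
      _ ≤ (c * a) * (c * b) * (c * r ^ 2) := by
          refine mul_le_mul_of_nonneg_right (mul_le_mul s3 s4 s4' (by positivity)) (by positivity)
      _ = c ^ 2 * a * b * (c * r ^ 2) := by ring
  rw [hcR]
  exact alg_end (mul_pos hapos hbpos) hc1 hl.le hd0 hr0 key

end metric

/-! ### Hausdorff measures -/

section haus

variable {X : Type*} [MetricSpace X] [MeasurableSpace X] [BorelSpace X]

/-- A map that does not contract too much, on a set. -/
theorem haus_le_image {A : Set X} {G : X → X} {K : ℝ≥0} {a : ℝ} (ha : 0 ≤ a)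
    (h : ∀ x ∈ A, ∀ y ∈ A, dist x y ≤ K * dist (G x) (G y)) :
    μH[a] A ≤ (K : ℝ≥0∞) ^ a * μH[a] (G '' A) := by
  classical
  rcases A.eq_empty_or_nonempty with hA | ⟨x₀, hx₀⟩
  · simp [hA]
  haveI : Nonempty X := ⟨x₀⟩
  have hinj : InjOn G A := fun x hx y hy hxy => by
    have := h x hx y hy
    rw [hxy, dist_self, mul_zero] at this
    exact dist_le_zero.1 this
  set F := Function.invFunOn G A with hF
  have hFG : ∀ x ∈ A, F (G x) = x := fun x hx => hinj.leftInvOn_invFunOn hx
  have hlip : LipschitzOnWith K F (G '' A) := by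
    refine LipschitzOnWith.of_dist_le_mul ?_
    rintro _ ⟨x, hx, rfl⟩ _ ⟨y, hy, rfl⟩
    rw [hFG x hx, hFG y hy]
    exact h x hx y hy
  have himg : F '' (G '' A) = A := by
    rw [image_image]
    ext x
    constructor
    · rintro ⟨y, hy, rfl⟩
      simp only [hFG y hy]; exact hy
    · intro hx
      exact ⟨x, hx, hFG x hx⟩
  calc μH[a] A = μH[a] (F '' (G '' A)) := by rw [himg]
    _ ≤ (K : ℝ≥0∞) ^ a * μH[a] (G '' A) := hlip.hausdorffMeasure_image_le ha

variable {κ : ℝ}

/-- **G2**: comparison of the Hausdorff measures of concentric balls; the constant does not depend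
on the centre. -/
theorem haus_ball (hA : T.IsAlexandrov X κ) {R s a : ℝ} (hR : √κ * R ≤ π / 4) (hs : 0 < s)
    (hsR : s ≤ R) (ha : 0 ≤ a) (p : X) :
    μH[a] (Metric.ball p R) ≤
      ((cR κ R * (R / s)).toNNReal : ℝ≥0∞) ^ a * μH[a] (Metric.ball p s) := by
  have hR0 : 0 < R := hs.trans_le hsR
  have hl : 0 < s / R := div_pos hs hR0
  have hl1 : s / R ≤ 1 := (div_le_one hR0).2 hsR
  choose G hG1 hG2 using fun x => exists_pt hA p x hl.le hl1
  have hcR : 0 ≤ cR κ R := by linarith [cR_ge κ R]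
  have hK : ((cR κ R * (R / s)).toNNReal : ℝ) = cR κ R * (R / s) :=
    Real.coe_toNNReal _ (by positivity)
  refine (haus_le_image (G := G) (K := (cR κ R * (R / s)).toNNReal) ha ?_).trans ?_
  · intro x hx y hy
    rw [hK]
    rw [Metric.mem_ball'] at hx hy
    have h1 := contr_lip hA hR hl hl1 hx.le hy.le (hG1 x) (hG2 x) (hG1 y) (hG2 y)
    have e : dist x y = (R / s) * (s / R * dist x y) := by field_simp
    rw [e]
    calc R / s * (s / R * dist x y) ≤ R / s * (cR κ R * dist (G x) (G y)) :=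
          mul_le_mul_of_nonneg_left h1 (by positivity)
      _ = cR κ R * (R / s) * dist (G x) (G y) := by ring
  · refine mul_le_mul_right (measure_mono ?_) _
    rintro _ ⟨x, hx, rfl⟩
    rw [Metric.mem_ball'] at hx ⊢
    rw [hG2 x]
    calc s / R * dist p x < s / R * R := mul_lt_mul_of_pos_left hx hl
      _ = s := by field_simp

/-- the same for the dimension -/
theorem dimH_ball (hA : T.IsAlexandrov X κ) {R s : ℝ} (hR : √κ * R ≤ π / 4) (hs : 0 < s)
    (hsR : s ≤ R) (p : X) : dimH (Metric.ball p R) = dimH (Metric.ball p s) := by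
  refine le_antisymm ?_ (dimH_mono (Metric.ball_subset_ball hsR))
  refine dimH_le fun d hd => ?_
  by_contra hcon
  rw [not_le] at hcon
  have h1 : μH[(d : ℝ)] (Metric.ball p s) = 0 := hausdorffMeasure_of_dimH_lt hcon
  have h2 := haus_ball hA hR hs hsR (a := (d : ℝ)) d.coe_nonneg p
  rw [h1, mul_zero, nonpos_iff_eq_zero] at h2
  rw [h2] at hd
  exact ENNReal.zero_ne_top hd

end haus

end Vale.Agent.P233.H715.RG
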