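import Vale.Agent.P233.RA.IfG

/-! P233, stage 3a (Alexandrov ==> CD(K,n) verbatim), pointwise inequality at an intermediate point:
definitions and statements (helper715). -/

set_option linter.all false

open MeasureTheory Filter Topology Set Metric
open scoped ENNReal NNReal MeasureTheory RealInnerProductSpace

universe u

namespace Vale.Agent.P233.CDc

open Vale.Agent.P233.RG

section

variable {M : Type u} [MetricSpace M]

/-- `L` is an exact logarithm at `z`: `L v` has norm `|zv|` and the direction of a geodesic from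
`z` to `v`, in an isometric copy of the space of directions in the unit sphere of `ℝⁿ`. -/
structure Lg (κ : ℝ) (n : ℕ) (z : M) (L : M → E n) : Prop where
  norm : ∀ v, ‖L v‖ = dist z v
  /-- hinge comparison -/
  hinge : ∀ x v, √κ * (dist z x + dist z v + dist x v) < 2 * Real.pi →
    md κ (dist x v) ≤ md κ (dist z x - dist z v)
      + sn κ (dist z x) * sn κ (dist z v) * (1 - ⟪L x, L v⟫ / (dist z x * dist z v))
  /-- opposite directions at an interior point of a geodesic -/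
  opp : ∀ x y, dist x z + dist z y = dist x y → dist z y • L x = -(dist z x • L y)

variable [MeasurableSpace M] [BorelSpace M]

/-- regular point: exact logarithm with values in `ℝⁿ` and Euclidean density -/
structure Reg (κ : ℝ) (n : ℕ) (z : M) (L : M → E n) : Prop extends Lg κ n z L where
  dens : Tendsto (fun r : ℝ => (μH[n] (ball z r)).toReal / r ^ n) (𝓝[>] 0)
    (𝓝 (μH[n] (ball (0 : E n) 1)).toReal)

/-- `sn_κ(b) / sn_κ(θ)` etc.: the coefficients `τ^n` of `CD((n-1)κ, n)` -/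
noncomputable def tn (κ : ℝ) (n : ℕ) (t θ : ℝ) : ℝ := t * (sn κ (t * θ) / sn κ θ) ^ (n - 1)

/-- Data at the intermediate point `z`, at time `s`: `X w`, `Y w` are the end points of the
geodesic through `w ∈ S`, `u`, `u'` the values of the Kantorovich potentials at `X w`, `Y w`,
`Jm = ρ_s(z)/ρ_0(X z)`, `Jp = ρ_s(z)/ρ_1(Y z)`. -/
structure Pt (κ : ℝ) (n : ℕ) (s : ℝ) (z : M) (L : M → E n) (S : Set M) (X Y : M → M)
    (u u' : M → ℝ) (Jm Jp : ℝ) : Prop where
  n_pos : 1 ≤ n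
  s_pos : 0 < s
  s_lt : s < 1
  reg : Reg κ n z L
  zS : z ∈ S
  pos : 0 < dist (X z) (Y z)
  lt : √κ * dist (X z) (Y z) < Real.pi
  gx : ∀ w ∈ S, dist (X w) w = s * dist (X w) (Y w)
  gy : ∀ w ∈ S, dist w (Y w) = (1 - s) * dist (X w) (Y w)
  mono : ∀ w ∈ S, ∀ w' ∈ S, u w + u' w' ≤ dist (X w) (Y w') ^ 2 / 2
  eq : ∀ w ∈ S, u w + u' w = dist (X w) (Y w) ^ 2 / 2
  lip : ∃ C : ℝ, ∀ w ∈ S, dist z w ≤ 1 → dist (X z) (X w) ≤ C * dist z w ∧
    dist (Y z) (Y w) ≤ C * dist z w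
  meas : MeasurableSet S
  meas_x : ∀ c : ℝ, MeasurableSet {w | w ∈ S ∧ dist (X w) z ^ 2 / (2 * s) - u w ≤ c}
  meas_y : ∀ c : ℝ, MeasurableSet {w | w ∈ S ∧ dist z (Y w) ^ 2 / (2 * (1 - s)) - u' w ≤ c}
  dens : ∀ η > 0, ∀ R > 0, ∀ᶠ r : ℝ in 𝓝[>] 0,
    μH[n] (ball z (R * r) \ S) ≤ ENNReal.ofReal (η * r ^ n)
  Jm_nonneg : 0 ≤ Jm
  Jp_nonneg : 0 ≤ Jp
  jm : ∀ η > 0, ∀ R > 0, ∀ᶠ r : ℝ in 𝓝[>] 0, ∀ A ⊆ S ∩ ball z (R * r), MeasurableSet A →
    ENNReal.ofReal Jm * μH[n] A ≤ μH[n] (X '' A) + ENNReal.ofReal (η * r ^ n)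
  jp : ∀ η > 0, ∀ R > 0, ∀ᶠ r : ℝ in 𝓝[>] 0, ∀ A ⊆ S ∩ ball z (R * r), MeasurableSet A →
    ENNReal.ofReal Jp * μH[n] A ≤ μH[n] (Y '' A) + ENNReal.ofReal (η * r ^ n)

end

/-- the pointwise inequality at an intermediate point (helper715) -/
def Blk_Point : Prop :=
  ∀ (M : Type u) [MetricSpace M] [CompleteSpace M] [SecondCountableTopology M]
    [MeasurableSpace M] [BorelSpace M] (κ : ℝ) (n : ℕ) (s : ℝ) (z : M) (L : M → E n) (S : Set M)
    (X Y : M → M) (u u' : M → ℝ) (Jm Jp : ℝ), T.IsAlexandrov M κ →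
    Pt κ n s z L S X Y u u' Jm Jp →
    (tn κ n (1 - s) (dist (X z) (Y z)) * Jm) ^ ((1 : ℝ) / n)
      + (tn κ n s (dist (X z) (Y z)) * Jp) ^ ((1 : ℝ) / n) ≤ 1

/-- almost every point is regular -/
def Blk_Reg : Prop :=
  ∀ (M : Type u) [MetricSpace M] [CompleteSpace M] [SecondCountableTopology M]
    [MeasurableSpace M] [BorelSpace M] (n : ℕ) (κ : ℝ), Alex M n κ →
    GeoN (μH[n] : Measure M) n → (∀ τ > 0, SRect (μH[n] : Measure M) n τ) →
    ∀ᵐ z ∂(μH[n] : Measure M), ∃ L : M → E n, Reg κ n z L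

end Vale.Agent.P233.CDc
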