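import Vale.Agent.P233.H715.CDPEe
import Vale.Agent.P233.H416.RegVol4
import Vale.Agent.P233.H992.CDHS
import Vale.Agent.P233.H992.CDEX

/-! P233, stage 3a, pointwise inequality (helper715): geometry at an intermediate point, part 6:
the two inequalities at the blow-up scale `r`, in the form used by the assembly. -/

set_option linter.all false

open MeasureTheory Filter Topology Set Metric
open scoped ENNReal NNReal MeasureTheory RealInnerProductSpace

universe u

namespace Vale.Agent.P233.CDc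

open Vale.Agent.P233.RG

section

variable {M : Type u} [MetricSpace M]
variable {κ s : ℝ} {n : ℕ} {z : M} {L : M → E n} {S : Set M} {X Y : M → M} {u u' : M → ℝ}

theorem Pt.toG [MeasurableSpace M] [BorelSpace M] {Jm Jp : ℝ}
    (h : Pt κ n s z L S X Y u u' Jm Jp) : PtG κ n s z L S X Y u u' where
  s_pos := h.s_pos
  s_lt := h.s_lt
  lg := h.reg.toLg
  zS := h.zS
  pos := h.pos
  lt := h.lt
  gx := h.gx
  gy := h.gy
  mono := h.mono
  eq := h.eq
  lip := h.lip

theorem PtG.sn_x (h : PtG κ n s z L S X Y u u') : 0 < sn κ (s * dist (X z) (Y z)) := by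
  have hs := h.s_pos
  have hθ := h.pos
  refine H616.sn_pos (by positivity) fun _ => lt_of_le_of_lt (mul_le_mul_of_nonneg_left ?_
    (Real.sqrt_nonneg _)) h.lt
  exact mul_le_of_le_one_left hθ.le h.s_lt.le

theorem PtG.sn_y (h : PtG κ n s z L S X Y u u') : 0 < sn κ ((1 - s) * dist (X z) (Y z)) := by
  have hs' : 0 < 1 - s := by linarith [h.s_lt]
  have hθ := h.pos
  refine H616.sn_pos (by positivity) fun _ => lt_of_le_of_lt (mul_le_mul_of_nonneg_left ?_
    (Real.sqrt_nonneg _)) h.lt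
  exact mul_le_of_le_one_left hθ.le (by linarith [h.s_pos])

theorem PtG.sn_θ (h : PtG κ n s z L S X Y u u') : 0 < sn κ (dist (X z) (Y z)) :=
  H616.sn_pos h.pos fun _ => h.lt

theorem PtG.D1_pos (h : PtG κ n s z L S X Y u u') : 0 < cD1 s := by
  have hs := h.s_pos
  have hs' : 0 < 1 - s := by linarith [h.s_lt]
  unfold cD1; positivity

theorem PtG.D2_pos (h : PtG κ n s z L S X Y u u') : 0 < cD2 κ s (dist (X z) (Y z)) := by
  have h1 := h.sn_x
  have h2 := h.sn_y
  have h3 := h.sn_θ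
  have h4 := h.pos
  unfold cD2; positivity

/-- **(PE)**: the two quadratic inequalities at the scale `r` -/
theorem PtG.pe [MeasurableSpace M] [BorelSpace M] (hA : T.IsAlexandrov M κ)
    (hReg : Reg κ n z L) (h : PtG κ n s z L S X Y u u') :
    ∀ R > 0, ∀ ε > 0, ∀ᶠ r : ℝ in 𝓝[>] 0,
      (∀ w ∈ S, dist z w ≤ R * r → ka s z X u w + kb s z Y u' w ≤
        (cD1 s * ⟪L w, ee z L Y⟫ ^ 2
          + cD2 κ s (dist (X z) (Y z)) * (‖L w‖ ^ 2 - ⟪L w, ee z L Y⟫ ^ 2)) / 2 + ε * r ^ 2) ∧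
      (∀ w ∈ S, ∀ w' ∈ S, dist z w ≤ R * r → dist z w' ≤ R * r →
        (⟪-(s⁻¹ • L (X w)) + -((1 - s)⁻¹ • L (Y w')), ee z L Y⟫ ^ 2 / cD1 s
          + (‖-(s⁻¹ • L (X w)) + -((1 - s)⁻¹ • L (Y w'))‖ ^ 2
            - ⟪-(s⁻¹ • L (X w)) + -((1 - s)⁻¹ • L (Y w')), ee z L Y⟫ ^ 2)
              / cD2 κ s (dist (X z) (Y z))) / 2
          ≤ ka s z X u w + kb s z Y u' w' + ε * r ^ 2) := by
  intro R hR ε hε
  obtain ⟨ρ, hρ, hU⟩ := h.upper hA H992.CDHS.HS H992.CDEX.EX (ε := ε / R ^ 2) (by positivity)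
  have hD : LDense z L := H416.Reg.dense hReg
  have hLo := h.lower hA H992.CDHS.HS H992.CDEX.EX hD (ε := ε / R ^ 2) (by positivity)
  have ht : Tendsto (fun r : ℝ => R * r) (𝓝[>] 0) (𝓝[>] 0) := by
    refine tendsto_nhdsWithin_iff.2 ⟨?_, ?_⟩
    · have hc : Continuous fun r : ℝ => R * r := by fun_prop
      have := (hc.tendsto 0).mono_left (nhdsWithin_le_nhds (s := Ioi (0 : ℝ)))
      simpa using this
    · filter_upwards [self_mem_nhdsWithin] with r hr
      exact mul_pos hR hr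
  have hρe : ∀ᶠ r : ℝ in 𝓝[>] 0, R * r ≤ ρ := by
    have := ht.eventually ((eventually_le_nhds hρ).filter_mono nhdsWithin_le_nhds)
    exact this
  filter_upwards [ht.eventually hLo, hρe] with r hr hrρ
  refine ⟨fun w hw hwr => ?_, fun w hw w' hw' hwr hwr' => ?_⟩
  · have h1 := hU w hw (hwr.trans hrρ)
    rw [real_inner_comm]
    have h2 : ε / R ^ 2 * dist z w ^ 2 ≤ ε * r ^ 2 := by
      have h3 : dist z w ^ 2 ≤ (R * r) ^ 2 := pow_le_pow_left₀ dist_nonneg hwr 2
      calc ε / R ^ 2 * dist z w ^ 2 ≤ ε / R ^ 2 * (R * r) ^ 2 :=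
            mul_le_mul_of_nonneg_left h3 (by positivity)
        _ = ε * r ^ 2 := by field_simp
    unfold QQ at h1
    linarith
  · have h1 := hr w hw w' hw' hwr hwr'
    have h2 : ε / R ^ 2 * (R * r) ^ 2 = ε * r ^ 2 := by field_simp
    rw [h2] at h1
    unfold QQ at h1
    rw [← sub_eq_add_neg, real_inner_comm]
    refine le_trans (le_of_eq ?_) h1
    ring

end

end Vale.Agent.P233.CDc
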