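import Vale.Agent.P233.H715.RG6

/-! P233, RCDA (helper715): block `StarE`, end. -/

set_option linter.all false

open Real Set Filter Topology MeasureTheory
open scoped ENNReal NNReal MeasureTheory

universe u

namespace Vale.Agent.P233.H715.RG

open Vale.Agent.P233.H616

/-! ### real analysis of `ρ(r) = r - s sn r` -/

section real

variable {κ T : ℝ}

/-- `K = |κ| cosh(√|κ| T) T` -/
noncomputable def kK (κ T : ℝ) : ℝ := |κ| * (cosh (√|κ| * T) * T)

theorem kK_nonneg (hT : 0 ≤ T) : 0 ≤ kK κ T := by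
  unfold kK
  have := Real.cosh_pos (√|κ| * T)
  positivity

theorem cs_lip (hT : 0 ≤ T) {r r' : ℝ} (hr : r ∈ Icc 0 T) (hr' : r' ∈ Icc 0 T) :
    |H616.cs κ r - H616.cs κ r'| ≤ kK κ T * |r - r'| := by
  have h := (convex_Icc 0 T).norm_image_sub_le_of_norm_hasDerivWithin_le
    (f := H616.cs κ) (f' := fun x => -(κ * H616.sn κ x)) (C := kK κ T)
    (fun x _ => (hasDerivAt_cs κ x).hasDerivWithinAt) (fun x hx => by
      rw [Real.norm_eq_abs, abs_neg, abs_mul]
      unfold kK
      refine mul_le_mul_of_nonneg_left ?_ (abs_nonneg _)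
      refine (abs_sn_le (κ := κ) (t := x) (T := T) (by rw [abs_of_nonneg hx.1]; exact hx.2)).trans ?_
      refine mul_le_mul_of_nonneg_left ?_ (Real.cosh_pos _).le
      rw [abs_of_nonneg hx.1]; exact hx.2) hr' hr
  simpa only [Real.norm_eq_abs] using h

/-- `sn(r - v) ≥ sn r - v cs r - K v²` -/
theorem sn_taylor (hT : 0 ≤ T) {r v : ℝ} (hv : 0 ≤ v) (hvr : v ≤ r) (hr : r ≤ T) :
    H616.sn κ r - v * H616.cs κ r - kK κ T * v ^ 2 ≤ H616.sn κ (r - v) := by
  have hr0 : 0 ≤ r := hv.trans hvr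
  have h := (convex_Icc 0 v).norm_image_sub_le_of_norm_hasDerivWithin_le
    (f := fun u => H616.sn κ (r - u) + u * H616.cs κ r)
    (f' := fun u => -H616.cs κ (r - u) + H616.cs κ r) (C := kK κ T * v)
    (fun x hx => by
      have h1 : HasDerivAt (fun u => H616.sn κ (r - u)) (H616.cs κ (r - x) * (-1)) x :=
        (hasDerivAt_sn κ (r - x)).comp x (by simpa using (hasDerivAt_id x).const_sub r)
      have h2 : HasDerivAt (fun u : ℝ => u * H616.cs κ r) (1 * H616.cs κ r) x :=
        (hasDerivAt_id x).mul_const _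
      have h3 : HasDerivAt (fun u => H616.sn κ (r - u) + u * H616.cs κ r)
          (H616.cs κ (r - x) * (-1) + 1 * H616.cs κ r) x := h1.add h2
      have e : -H616.cs κ (r - x) + H616.cs κ r
          = H616.cs κ (r - x) * (-1) + 1 * H616.cs κ r := by ring
      rw [e]
      exact h3.hasDerivWithinAt) (fun x hx => by
      rw [Real.norm_eq_abs, neg_add_eq_sub]
      have h1 := cs_lip (κ := κ) hT (r := r) (r' := r - x) ⟨hr0, hr⟩
        ⟨by linarith [hx.2], by linarith [hx.1]⟩
      have e : r - (r - x) = x := by ring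
      rw [e, abs_of_nonneg hx.1] at h1
      exact h1.trans (mul_le_mul_of_nonneg_left hx.2 (kK_nonneg hT)))
    (x := 0) (y := v) ⟨le_rfl, hv⟩ ⟨hv, le_rfl⟩
  simp only [Real.norm_eq_abs, sub_zero, zero_mul, add_zero, abs_of_nonneg hv] at h
  have h2 := neg_le_of_abs_le h
  have e : kK κ T * v ^ 2 = kK κ T * v * v := by ring
  rw [e]; linarith

/-- monotonicity of `ρ` with slope at least `q` -/
theorem rho_slope {q s a b : ℝ} (hab : a ≤ b) (h : ∀ x ∈ Icc a b, q ≤ 1 - s * H616.cs κ x) :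
    q * (b - a) ≤ (b - s * H616.sn κ b) - (a - s * H616.sn κ a) := by
  have hm : MonotoneOn (fun x => (x - s * H616.sn κ x) - q * x) (Icc a b) := by
    have hd : ∀ x, HasDerivAt (fun x => (x - s * H616.sn κ x) - q * x)
        ((1 - s * H616.cs κ x) - q * 1) x := fun x =>
      ((hasDerivAt_id x).sub ((hasDerivAt_sn κ x).const_mul s)).sub
        ((hasDerivAt_id x).const_mul q)
    refine monotoneOn_of_deriv_nonneg (convex_Icc a b) ?_ ?_ ?_
    · exact fun x _ => (hd x).continuousAt.continuousWithinAt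
    · exact fun x _ => (hd x).differentiableAt.differentiableWithinAt
    · intro x hx
      rw [(hd x).deriv]
      have := h x (interior_subset hx)
      linarith
  have := hm (left_mem_Icc.2 hab) (right_mem_Icc.2 hab) hab
  simp only at this
  linarith

end real

section metric

variable {M : Type u} [MetricSpace M] {κ : ℝ}
variable [SecondCountableTopology M] [MeasurableSpace M] [BorelSpace M]

/-- **StarE** -/
theorem starE (hA : T.IsAlexandrov M κ) (n : ℕ) : Vale.Agent.P233.RG.StarE M κ n := by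
  intro R hR
  set T := R + 1 with hT
  have hT0 : 0 ≤ T := by rw [hT]; linarith
  set c := cosh (√|κ| * T) with hc
  have hc1 : 1 ≤ c := Real.one_le_cosh _
  set K := kK κ T with hK
  have hK0 : 0 ≤ K := kK_nonneg hT0
  set C₁ := K * (c * T) + K with hC₁
  have hC₁0 : 0 ≤ C₁ := by positivity
  have hKC : K ≤ C₁ := by
    have : 0 ≤ K * (c * T) := by positivity
    rw [hC₁]; linarith
  refine ⟨min 1 (1 / (4 * (c + C₁))), lt_min one_pos (by positivity), C₁ + K, by positivity, ?_⟩
  intro p s hs hs0 B G hBm hBR hBπ hG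
  have hs1 : s ≤ 1 := hs0.trans (min_le_left _ _)
  have hs2 : s * (c + C₁) ≤ 1 / 4 := by
    have h1 := hs0.trans (min_le_right _ _)
    rw [le_div_iff₀ (by positivity)] at h1
    linarith
  have hsc : s * c ≤ 1 / 4 := by
    have : 0 ≤ s * C₁ := by positivity
    linarith
  have hsC : s * C₁ ≤ 1 / 4 := by
    have : 0 ≤ s * c := by positivity
    linarith
  have hs22 : s ^ 2 ≤ s := by
    have := mul_le_mul_of_nonneg_left hs1 hs.le
    linarith [sq s]
  have hs23 : s ^ 2 ≤ 1 := hs22.trans hs1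
  have hs20 : 0 < s ^ 2 := by positivity
  -- bounds of `cs`
  have hcs : ∀ r ∈ Icc 0 T, |H616.cs κ r| ≤ c := fun r hr =>
    abs_cs_le (by rw [abs_of_nonneg hr.1]; exact hr.2)
  have hscs : ∀ r ∈ Icc 0 T, |s * H616.cs κ r| ≤ 1 / 4 := fun r hr => by
    rw [abs_mul, abs_of_pos hs]
    exact (mul_le_mul_of_nonneg_left (hcs r hr) hs.le).trans hsc
  choose! f hfG hf2 hf3 using hG
  change ∀ x ∈ B, dist p (f x) = dist p x - s * H616.sn κ (dist p x) at hf2
  change ∀ x ∈ B, dist (f x) x = s * H616.sn κ (dist p x) at hf3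
  change ∫⁻ x in B, ENNReal.ofReal (1 - s * H616.cs κ (dist p x) - (C₁ + K) * s ^ 2) ^ n ∂μH[n]
    ≤ μH[n] G
  have hBR' : ∀ x ∈ B, dist p x < R := fun x hx => Metric.mem_ball'.1 (hBR hx)
  -- the shells
  set ρ : ℝ → ℝ := fun r => r - s * H616.sn κ r with hρ
  set Bj : ℕ → Set M := fun j => B ∩ {x | j * s ^ 2 ≤ dist p x ∧ dist p x < (j + 1) * s ^ 2}
    with hBj
  set Dj : ℕ → Set M := fun j => {z | ρ (j * s ^ 2) ≤ dist p z ∧ dist p z < ρ ((j + 1) * s ^ 2) ∧
    (j + 1) * s ^ 2 ≤ T} with hDj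
  have hmono : ∀ a b, 0 ≤ a → a ≤ b → b ≤ T → 1 / 2 * (b - a) ≤ ρ b - ρ a := by
    intro a b ha hab hb
    refine rho_slope hab fun x hx => ?_
    have := (abs_le.1 (hscs x ⟨ha.trans hx.1, hx.2.trans hb⟩)).2
    linarith
  have hdist : Measurable fun x : M => dist p x := (continuous_const.dist continuous_id).measurable
  have hBjm : ∀ j, MeasurableSet (Bj j) := fun j =>
    hBm.inter ((measurableSet_le measurable_const hdist).inter
      (measurableSet_lt hdist measurable_const))
  have hDjm : ∀ j, MeasurableSet (Dj j) := fun j =>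
    (measurableSet_le measurable_const hdist).inter
      ((measurableSet_lt hdist measurable_const).inter (MeasurableSet.const _))
  have hBjd : Pairwise (Function.onFun Disjoint Bj) := by
    intro i j hij
    rw [Function.onFun, Set.disjoint_left]
    rintro x ⟨_, h1, h2⟩ ⟨_, h3, h4⟩
    apply hij
    have h5 : (i : ℝ) * s ^ 2 < (j + 1) * s ^ 2 := h1.trans_lt h4
    have h6 : (j : ℝ) * s ^ 2 < (i + 1) * s ^ 2 := h3.trans_lt h2
    have h7 : (i : ℝ) < j + 1 := lt_of_mul_lt_mul_right h5 hs20.le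
    have h8 : (j : ℝ) < i + 1 := lt_of_mul_lt_mul_right h6 hs20.le
    have h9 : i < j + 1 := by exact_mod_cast h7
    have h10 : j < i + 1 := by exact_mod_cast h8
    omega
  have hDjd : Pairwise (Function.onFun Disjoint Dj) := by
    have key : ∀ i j : ℕ, i < j → Disjoint (Dj i) (Dj j) := by
      intro i j hij
      rw [Set.disjoint_left]
      rintro z ⟨h1, h2, h3⟩ ⟨h4, h5, h6⟩
      have h7 : (i : ℝ) + 1 ≤ j := by exact_mod_cast hij
      have h8 : ((i : ℝ) + 1) * s ^ 2 ≤ j * s ^ 2 := mul_le_mul_of_nonneg_right h7 hs20.le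
      have h9 : (j : ℝ) * s ^ 2 ≤ T := by
        refine le_trans (mul_le_mul_of_nonneg_right ?_ hs20.le) h6
        linarith
      have h10 := hmono _ _ (by positivity) h8 h9
      linarith
    intro i j hij
    rcases lt_or_gt_of_ne hij with h | h
    · exact key i j h
    · exact (key j i h).symm
  have hBU : B = ⋃ j, Bj j := by
    refine Subset.antisymm (fun x hx => ?_) (iUnion_subset fun j => inter_subset_left)
    refine mem_iUnion.2 ⟨⌊dist p x / s ^ 2⌋₊, hx, ?_, ?_⟩
    · have := Nat.floor_le (a := dist p x / s ^ 2) (by positivity)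
      rwa [le_div_iff₀ hs20] at this
    · have := Nat.lt_floor_add_one (dist p x / s ^ 2)
      rwa [div_lt_iff₀ hs20] at this
  -- one shell
  have hone : ∀ j, ∫⁻ x in Bj j, ENNReal.ofReal (1 - s * H616.cs κ (dist p x)
      - (C₁ + K) * s ^ 2) ^ n ∂μH[n] ≤ μH[n] (G ∩ Dj j) := by
    intro j
    rcases (Bj j).eq_empty_or_nonempty with he | ⟨x₀, hx₀⟩
    · rw [he]; simp
    set a := (j : ℝ) * s ^ 2 with ha
    have ha0 : 0 ≤ a := by positivity
    have haT : a + s ^ 2 ≤ T := by
      have h1 := hx₀.2.1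
      have h2 := hBR' x₀ hx₀.1
      rw [hT]; linarith
    have ha1 : ((j : ℝ) + 1) * s ^ 2 = a + s ^ 2 := by rw [ha]; ring
    set q := 1 - s * H616.cs κ a - C₁ * s ^ 2 with hq
    have haI : a ∈ Icc 0 T := ⟨ha0, by linarith⟩
    have hsa := abs_le.1 (hscs a haI)
    have hC1s : C₁ * s ^ 2 ≤ 1 / 4 := by
      have : C₁ * s ^ 2 ≤ C₁ * s := mul_le_mul_of_nonneg_left hs22 hC₁0
      linarith
    have hC1s0 : 0 ≤ C₁ * s ^ 2 := by positivity
    have hq0 : 0 < q := by rw [hq]; linarith [hsa.2]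
    have hq2 : q ≤ 2 := by rw [hq]; linarith [hsa.1]
    -- variation of `cs` in the shell
    have hvar : ∀ r ∈ Icc a (a + s ^ 2), |s * H616.cs κ r - s * H616.cs κ a| ≤ K * s ^ 2 := by
      intro r hr
      have hrI : r ∈ Icc 0 T := ⟨ha0.trans hr.1, hr.2.trans haT⟩
      rw [← mul_sub, abs_mul, abs_of_pos hs]
      have h1 := cs_lip (κ := κ) hT0 hrI haI
      rw [abs_of_nonneg (a := r - a) (by linarith [hr.1])] at h1
      have h2 : K * (r - a) ≤ K * s ^ 2 := mul_le_mul_of_nonneg_left (by linarith [hr.2]) hK0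
      calc s * |H616.cs κ r - H616.cs κ a| ≤ 1 * (K * s ^ 2) :=
            mul_le_mul hs1 (h1.trans h2) (abs_nonneg _) (by norm_num)
        _ = _ := one_mul _
    have hmem : ∀ x ∈ Bj j, dist p x ∈ Icc a (a + s ^ 2) := by
      rintro x ⟨_, h1, h2⟩
      rw [ha1] at h2
      exact ⟨h1, h2.le⟩
    have hKs0 : 0 ≤ K * s ^ 2 := by positivity
    have hupper : ∫⁻ x in Bj j, ENNReal.ofReal (1 - s * H616.cs κ (dist p x)
        - (C₁ + K) * s ^ 2) ^ n ∂μH[n] ≤ ENNReal.ofReal q ^ n * μH[n] (Bj j) := by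
      rw [← setLIntegral_const]
      refine setLIntegral_mono measurable_const fun x hx => ?_
      refine pow_le_pow_left' (ENNReal.ofReal_le_ofReal ?_) n
      have := (abs_le.1 (hvar _ (hmem x hx))).1
      rw [hq]; linarith
    refine hupper.trans ?_
    have hlow : ∀ r ∈ Icc a (a + s ^ 2), q ≤ 1 - s * H616.cs κ r := by
      intro r hr
      have := (abs_le.1 (hvar r hr)).2
      have h2 : K * s ^ 2 ≤ C₁ * s ^ 2 := mul_le_mul_of_nonneg_right hKC hs20.le
      rw [hq]; linarith
    have hqr : ∀ r ∈ Icc a (a + s ^ 2), ∀ r' ∈ Icc a (a + s ^ 2), q * |r - r'| ≤ |ρ r - ρ r'| := by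
      have key : ∀ r ∈ Icc a (a + s ^ 2), ∀ r' ∈ Icc a (a + s ^ 2), r' ≤ r →
          q * |r - r'| ≤ |ρ r - ρ r'| := by
        intro r hr r' hr' h
        have := rho_slope (κ := κ) (q := q) (s := s) h fun x hx =>
          hlow x ⟨hr'.1.trans hx.1, hx.2.trans hr.2⟩
        rw [abs_of_nonneg (by linarith)]
        exact this.trans (le_abs_self _)
      intro r hr r' hr'
      rcases le_total r' r with h | h
      · exact key r hr r' hr' h
      · rw [abs_sub_comm r r', abs_sub_comm (ρ r) (ρ r')]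
        exact key r' hr' r hr h
    refine shell hA n hq0 hq2 (by norm_num : (0 : ℝ) < 1 / 2) (R := R) (f := f) (p := p)
      (fun x hx => (hBR' x hx.1).le) (fun x hx => hBπ x hx.1) ?_ ?_ ?_ ?_ ?_
    · -- the image
      rintro x ⟨hx, h1, h2⟩
      have hxT : dist p x ≤ T := by rw [hT]; linarith [hBR' x hx]
      refine ⟨hfG x hx, ?_, ?_, ?_⟩
      · rw [hf2 x hx]
        have := hmono _ _ ha0 h1 hxT
        have h3 : ρ (dist p x) = dist p x - s * H616.sn κ (dist p x) := rfl
        rw [← h3]; linarith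
      · rw [hf2 x hx]
        have := hmono _ _ dist_nonneg h2.le (by rw [ha1]; exact haT)
        have h3 : ρ (dist p x) = dist p x - s * H616.sn κ (dist p x) := rfl
        rw [← h3]; linarith
      · rw [ha1]; exact haT
    · intro x hx
      rw [hf2 x hx.1, hf3 x hx.1]; ring
    · intro x hx
      have hxT : dist p x ≤ T := by rw [hT]; linarith [hBR' x hx.1]
      rw [hf2 x hx.1]
      have h1 : H616.sn κ (dist p x) ≤ c * dist p x := sn_le_cosh dist_nonneg hxT
      have h2 : s * H616.sn κ (dist p x) ≤ s * (c * dist p x) := mul_le_mul_of_nonneg_left h1 hs.le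
      have h3 : s * (c * dist p x) = (s * c) * dist p x := by ring
      have h4 : (s * c) * dist p x ≤ 1 / 4 * dist p x :=
        mul_le_mul_of_nonneg_right hsc dist_nonneg
      have h5 : 0 ≤ dist p x := dist_nonneg
      linarith
    · intro x hx
      have hxT : dist p x ≤ T := by rw [hT]; linarith [hBR' x hx.1]
      have hx0 : 0 ≤ dist p x := dist_nonneg
      have hsn0 : 0 ≤ H616.sn κ (dist p x) := sn_nonneg' hx0 (hBπ x hx.1).le
      rw [hf2 x hx.1]
      have h1 : H616.sn κ (dist p x) ≤ c * dist p x := sn_le_cosh dist_nonneg hxT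
      have hv : s * H616.sn κ (dist p x) ≤ dist p x := by
        have h2 : s * H616.sn κ (dist p x) ≤ s * (c * dist p x) :=
          mul_le_mul_of_nonneg_left h1 hs.le
        have h3 : s * (c * dist p x) = (s * c) * dist p x := by ring
        have h4 : (s * c) * dist p x ≤ 1 / 4 * dist p x :=
          mul_le_mul_of_nonneg_right hsc dist_nonneg
        linarith
      have ht := sn_taylor (κ := κ) hT0 (mul_nonneg hs.le hsn0) hv hxT
      refine le_trans ?_ ht
      have hcT : H616.sn κ (dist p x) ≤ c * T := h1.trans (mul_le_mul_of_nonneg_left hxT (by linarith))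
      have h6 := (abs_le.1 (hvar _ (hmem x hx))).2
      -- `q sn ≤ sn - s sn cs - K s² sn²`
      have h7 : K * (s * H616.sn κ (dist p x)) ^ 2
          ≤ K * (c * T) * s ^ 2 * H616.sn κ (dist p x) := by
        have e : K * (s * H616.sn κ (dist p x)) ^ 2
          = (K * s ^ 2 * H616.sn κ (dist p x)) * H616.sn κ (dist p x) := by ring
        rw [e]
        calc (K * s ^ 2 * H616.sn κ (dist p x)) * H616.sn κ (dist p x)
            ≤ (K * s ^ 2 * H616.sn κ (dist p x)) * (c * T) :=
              mul_le_mul_of_nonneg_left hcT (by positivity)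
          _ = _ := by ring
      have h8 : q ≤ 1 - s * H616.cs κ (dist p x) - K * (c * T) * s ^ 2 := by
        have e : C₁ * s ^ 2 = K * (c * T) * s ^ 2 + K * s ^ 2 := by rw [hC₁]; ring
        rw [hq, e]; linarith
      have h9 := mul_le_mul_of_nonneg_right h8 hsn0
      have e2 : (1 - s * H616.cs κ (dist p x) - K * (c * T) * s ^ 2) * H616.sn κ (dist p x)
        = H616.sn κ (dist p x) - s * H616.sn κ (dist p x) * H616.cs κ (dist p x)
          - K * (c * T) * s ^ 2 * H616.sn κ (dist p x) := by ring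
      rw [e2] at h9
      linarith
    · intro x hx y hy
      rw [hf2 x hx.1, hf2 y hy.1]
      exact hqr _ (hmem x hx) _ (hmem y hy)
  calc ∫⁻ x in B, ENNReal.ofReal (1 - s * H616.cs κ (dist p x) - (C₁ + K) * s ^ 2) ^ n ∂μH[n]
      = ∫⁻ x in ⋃ j, Bj j, ENNReal.ofReal (1 - s * H616.cs κ (dist p x)
          - (C₁ + K) * s ^ 2) ^ n ∂μH[n] := by rw [← hBU]
    _ = ∑' j, ∫⁻ x in Bj j, ENNReal.ofReal (1 - s * H616.cs κ (dist p x)
          - (C₁ + K) * s ^ 2) ^ n ∂μH[n] := lintegral_iUnion hBjm hBjd _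
    _ ≤ ∑' j, μH[n] (G ∩ Dj j) := ENNReal.tsum_le_tsum hone
    _ ≤ μH[n] G := tsum_inter_le hDjm hDjd G

end metric

theorem blk_StarE : Vale.Agent.P233.RG.Blk_StarE.{u} :=
  fun M _ _ _ _ _ n κ hA _ _ _ _ _ => starE hA.alex n

end Vale.Agent.P233.H715.RG
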