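import Vale.Agent.P233.H715.LevA
import Vale.Agent.P233.H715.GradW
import Vale.Agent.P233.H372.LevTime
import Vale.Agent.P233.H599.Conv

/-! P233, part A: the families of all levels, and the assembly of the output of part A
(helper715). -/

set_option linter.all false

open MeasureTheory Filter Topology Set
open scoped ENNReal NNReal

universe u

namespace Vale.Agent.P233.H715

theorem en_pos (n : ℕ) : 0 < PA.en n := by unfold PA.en; positivity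

theorem en_le (n : ℕ) : PA.en n ≤ 1 := by
  unfold PA.en
  exact inv_le_one_of_one_le₀ (by have := Nat.cast_nonneg (α := ℝ) n; linarith)

theorem en_lim : Tendsto PA.en atTop (𝓝 0) := by
  unfold PA.en
  have := tendsto_one_div_add_atTop_nhds_zero_nat (𝕜 := ℝ)
  simpa [one_div] using this

theorem en_small (K : ℝ) {c : ℝ} (hc : 0 < c) : ∀ᶠ n in atTop, 8 * PA.en n ^ 2 * |K| ≤ c := by
  have h1 : Tendsto (fun n => 8 * PA.en n ^ 2 * |K|) atTop (𝓝 (8 * 0 ^ 2 * |K|)) :=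
    ((en_lim.pow 2).const_mul 8).mul_const _
  simp only [ne_eq, OfNat.ofNat_ne_zero, not_false_eq_true, zero_pow, mul_zero, zero_mul] at h1
  exact (h1.eventually (gt_mem_nhds hc)).mono fun n h => h.le

section abstract

variable {M : Type u} [MeasurableSpace M] {m : Measure M} {C : Calc m} {K : ℝ}
  {P : ℝ → (M →ₘ[m] ℝ) → (M →ₘ[m] ℝ)}

/-- the forward potential of a family is determined by `ε` and `a` -/
theorem Fam_u_eq {ε : ℝ} {a l l' : M →ₘ[m] ℝ} {φ u φ' u' : ℝ → M →ₘ[m] ℝ}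
    (h : Fam C P ε a l φ u) (h' : Fam C P ε a l' φ' u') : ∀ t ∈ Icc (0 : ℝ) 1, u t = u' t := by
  intro t ht
  have hε := h.pair.hε
  have e1 := h.pair.g_eq t ht
  have e2 := h'.pair.g_eq t ht
  rw [h.init] at e1
  rw [h'.init] at e2
  rw [← e2] at e1
  have e3 : ex (-(ε⁻¹ • u t)) = ex (-(ε⁻¹ • u' t)) := by
    have := congrArg (fun f => f + 1) e1
    simpa using this
  have e4 := neg_injective (ex_inj e3)
  have e5 := congrArg (fun f => ε • f) e4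
  simpa [smul_smul, mul_inv_cancel₀ hε.ne'] using e5

theorem Fam_congr {ε : ℝ} {a l : M →ₘ[m] ℝ} {φ u u' : ℝ → M →ₘ[m] ℝ}
    (h : Fam C P ε a l φ u) (hu : ∀ t ∈ Icc (0 : ℝ) 1, u t = u' t) : Fam C P ε a l φ u' := by
  have h0 : (0 : ℝ) ∈ Icc (0 : ℝ) 1 := ⟨le_rfl, zero_le_one⟩
  have h1 : (1 : ℝ) ∈ Icc (0 : ℝ) 1 := ⟨zero_le_one, le_rfl⟩
  refine ⟨⟨h.pair.hε, h.pair.hab, h.pair.φ_mem, fun t ht => ?_, h.pair.f_mem, fun t ht => ?_,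
    h.pair.f_eq, fun t ht => ?_⟩, ?_, ?_⟩
  · rw [← hu t ht]; exact h.pair.u_mem t ht
  · rw [← hu t ht]; exact h.pair.g_mem t ht
  · rw [← hu t ht, ← hu 0 h0]; exact h.pair.g_eq t ht
  · rw [← hu 0 h0]; exact h.init
  · rw [← hu 1 h1]; exact h.fin

/-- one level, all final densities -/
theorem exists_level [SigmaFinite m] (hP : Heat C K P) (hC : IsGamma C) {κ : ℝ} (hB : C.BEi κ)
    {ε : ℝ} (hε : 0 < ε) (hε2 : 0 < 1 + 2 * ε ^ 2 * κ) {a : M →ₘ[m] ℝ} (ha : a ∈ C.A)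
    (ha' : MemLp (C.Γ a a) ∞ m) :
    ∃ (u : ℝ → M →ₘ[m] ℝ) (φ : (M →ₘ[m] ℝ) → ℝ → M →ₘ[m] ℝ),
      ∀ l ∈ C.TestI, Fam C P ε a l (φ l) u := by
  classical
  obtain ⟨φ0, u, h0⟩ := H788.exists_fam hP hC hB hε hε2 ha ha' (hC.testI_zero hB)
  refine ⟨u, fun l => if hl : l ∈ C.TestI then
    (H788.exists_fam hP hC hB hε hε2 ha ha' hl).choose else 0, fun l hl => ?_⟩
  simp only [hl, dite_true]
  obtain ⟨u', h'⟩ := (H788.exists_fam hP hC hB hε hε2 ha ha' hl).choose_spec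
  exact Fam_congr h' (Fam_u_eq h' h0)

/-- all levels -/
theorem exists_levels [SigmaFinite m] (hP : Heat C K P) (hC : IsGamma C) {κ : ℝ} (hB : C.BEi κ)
    {a : M →ₘ[m] ℝ} (ha : a ∈ C.A) (ha' : MemLp (C.Γ a a) ∞ m) :
    ∃ (u : ℕ → ℝ → M →ₘ[m] ℝ) (φ : (M →ₘ[m] ℝ) → ℕ → ℝ → M →ₘ[m] ℝ),
      ∀ᶠ n in atTop, ∀ l ∈ C.TestI, Fam C P (PA.en n) a l (φ l n) (u n) := by
  classical
  have hs : ∀ᶠ n in atTop, 0 < 1 + 2 * PA.en n ^ 2 * κ := by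
    filter_upwards [en_small κ zero_lt_one] with n hn
    have h2 : 0 ≤ PA.en n ^ 2 := sq_nonneg _
    nlinarith [neg_abs_le κ, abs_nonneg κ]
  refine ⟨fun n => if h : 0 < 1 + 2 * PA.en n ^ 2 * κ then
      (exists_level hP hC hB (en_pos n) h ha ha').choose else 0,
    fun l n => if h : 0 < 1 + 2 * PA.en n ^ 2 * κ then
      (exists_level hP hC hB (en_pos n) h ha ha').choose_spec.choose l else 0, ?_⟩
  filter_upwards [hs] with n hn l hl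
  simp only [hn, dite_true]
  exact (exists_level hP hC hB (en_pos n) hn ha ha').choose_spec.choose_spec l hl

/-- combination of the bounds of the forward potentials -/
theorem levU_of [SigmaFinite m] (hC : IsGamma C) {N : ℝ} (hN : 0 < N) (hB : C.BE K N)
    (hP : Heat C K P) {a : M →ₘ[m] ℝ} {C₀ L : ℝ} (hC₀ : 0 ≤ C₀) (hL : 0 ≤ L) (ha : a ∈ C.A)
    (hlo : ∀ᵐ x ∂m, -C₀ ≤ a x) (hhi : ∀ᵐ x ∂m, a x ≤ 0) (haL : ∀ᵐ x ∂m, C.Γ a a x ≤ L ^ 2)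
    {l : ℕ → M →ₘ[m] ℝ} {φ u : ℕ → ℝ → M →ₘ[m] ℝ}
    (hF : ∀ᶠ n in atTop, Fam C P (PA.en n) a (l n) (φ n) (u n))
    {D₁ D₂ : ℝ} {D' : ℝ → ℝ}
    (hlip : ∀ᶠ n in atTop, ∀ t ∈ Icc (0 : ℝ) 1, ∀ᵐ x ∂m, C.Γ (u n t) (u n t) x ≤ D₁ ^ 2)
    (hham : ∀ᶠ n in atTop, ∀ t ∈ Ioc (0 : ℝ) 1, ∀ᵐ x ∂m,
      t * C.Γ (u n t) (u n t) x ≤ 2 * (1 + PA.en n * |K|) * C₀)
    (hlap : ∀ᶠ n in atTop, ∀ t ∈ Ioc (0 : ℝ) 1, ∀ᵐ x ∂m,
      C.lap (u n t) x ≤ N / t + PA.c1 K (PA.en n) C₀)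
    (hu2 : ∀ᶠ n in atTop, ∀ t ∈ Icc (0 : ℝ) 1, I (u n t ^ 2) ≤ D₂)
    (hen : ∀ᶠ n in atTop, ∀ s ∈ Ioc (0 : ℝ) 1, ∀ t ∈ Icc s 1, I (C.Γ (u n t) (u n t)) ≤ D' s) :
    ∃ D, 0 ≤ D ∧ ∀ᶠ n in atTop, PA.LevU C K N (PA.en n) C₀ D D' (u n) := by
  have hc := H372.cA_nonneg (N := N) hL
  have a1 := abs_nonneg D₁
  have a2 := abs_nonneg D₂
  set D : ℝ := |D₁| + (H372.cA N L + D₁ ^ 2) + |D₂| with hD
  have hD0 : 0 ≤ D := by positivity
  refine ⟨D, hD0, ?_⟩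
  filter_upwards [hF, hlip, hham, hlap, hu2, hen, en_small K zero_lt_one]
    with n h1 h2 h3 h4 h5 h6 h7
  obtain ⟨t1, t2⟩ := H372.LevU_time hC hN hB hP h1 ha hL haL h7 h2
    (D := D) (by rw [hD]; linarith)
  have hb := Fam_u_bdd hC hP hC₀ h1 ha.1 hlo hhi
  refine ⟨fun t ht => ?_, fun t ht => ?_, fun t ht => ?_, h3, h4, t1, t2, fun t ht => ?_, h6⟩
  · filter_upwards [hb t ht] with x hx using hx.1
  · filter_upwards [hb t ht] with x hx using hx.2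
  · filter_upwards [h2 t ht] with x hx
    refine hx.trans ?_
    rw [← sq_abs D₁]
    exact pow_le_pow_left₀ a1 (by rw [hD]; nlinarith [sq_nonneg D₁]) 2
  · refine (h5 t ht).trans ((le_abs_self _).trans ?_)
    rw [hD]; nlinarith [sq_nonneg D₁]

/-- combination of the bounds of the backward potentials -/
theorem levF_of [SigmaFinite m] (hC : IsGamma C) {N : ℝ} (hN : 0 < N) (hB : C.BE K N)
    (hP : Heat C K P) {a : M →ₘ[m] ℝ} {C₀ L : ℝ} (hC₀ : 0 ≤ C₀) (hL : 0 ≤ L) (ha : a ∈ C.A)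
    (hlo : ∀ᵐ x ∂m, -C₀ ≤ a x) (hhi : ∀ᵐ x ∂m, a x ≤ 0) (haL : ∀ᵐ x ∂m, C.Γ a a x ≤ L ^ 2)
    {l : M →ₘ[m] ℝ} (hl : l ∈ C.TestI) {φ u : ℕ → ℝ → M →ₘ[m] ℝ}
    (hF : ∀ᶠ n in atTop, Fam C P (PA.en n) a l (φ n) (u n))
    {R D₀ D₁ D₂ D₃ : ℝ} {D' : ℝ → ℝ}
    (hulip : ∀ᶠ n in atTop, ∀ t ∈ Icc (0 : ℝ) 1, ∀ᵐ x ∂m, C.Γ (u n t) (u n t) x ≤ D₀ ^ 2)
    (hlip : ∀ᶠ n in atTop, ∀ t ∈ Icc (0 : ℝ) 1, ∀ᵐ x ∂m, C.Γ (φ n t) (φ n t) x ≤ D₁ ^ 2)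
    (hlap : ∀ᶠ n in atTop, ∀ t ∈ Ico (0 : ℝ) 1, ∀ᵐ x ∂m, -(N / (1 - t) + D₂) ≤ C.lap (φ n t) x)
    (hdens : ∀ᶠ n in atTop, ∀ t ∈ Ioc (0 : ℝ) 1, ∀ᵐ x ∂m, rh (PA.en n) (φ n) (u n) t x ≤
      t ^ (-N) * Real.exp (PA.c1 K (PA.en n) C₀ * (1 - t)) * R)
    (hf2 : ∀ᶠ n in atTop, ∀ t ∈ Icc (0 : ℝ) 1, I ((ex ((PA.en n)⁻¹ • φ n t) - 1) ^ 2) ≤ D₃)
    (hφ2 : ∀ᶠ n in atTop, ∀ t ∈ Icc (0 : ℝ) 1, I (φ n t ^ 2) ≤ D₃)
    (hrho2 : ∀ᶠ n in atTop, ∀ s ∈ Ioc (0 : ℝ) 1, ∀ t ∈ Icc s 1,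
      I ((rh (PA.en n) (φ n) (u n) t - 1) ^ 2) ≤ D' s) :
    ∃ D, ∀ᶠ n in atTop, PA.LevF C K N (PA.en n) C₀ R D D' l (φ n) (u n) := by
  have hc := H372.cA_nonneg (N := N) hL
  obtain ⟨B₀, hB₀⟩ := mem_top_iff.1 (hC.test_A hl.1).2
  obtain ⟨B₁, hB₁⟩ := mem_top_iff.1 (hC.test_Γ_top hl.1)
  obtain ⟨B₂, hB₂⟩ := mem_top_iff.1 hl.2
  set G : ℝ := |D₀| + |D₁| with hG
  have g0 : D₀ ^ 2 ≤ G ^ 2 := by
    rw [← sq_abs D₀]
    exact pow_le_pow_left₀ (abs_nonneg _) (by rw [hG]; linarith [abs_nonneg D₁]) 2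
  have g1 : D₁ ^ 2 ≤ G ^ 2 := by
    rw [← sq_abs D₁]
    exact pow_le_pow_left₀ (abs_nonneg _) (by rw [hG]; linarith [abs_nonneg D₀]) 2
  have hGn : 0 ≤ G := by positivity
  set T : ℝ := H372.cA N L + 4 * G ^ 2 + 2 * |B₁| + |B₂| with hT
  have hTn : 0 ≤ T := by positivity
  set D : ℝ := (C₀ + |B₀|) + G + 2 * T + |D₂| * 2 + |D₃| + 2 * N with hD
  have hx0 := abs_nonneg B₀
  have hx2 := abs_nonneg D₂
  have hx3 := abs_nonneg D₃
  refine ⟨D, ?_⟩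
  filter_upwards [hF, hulip, hlip, hlap, hdens, hf2, hφ2, hrho2, en_small K zero_lt_one]
    with n h1 h2 h3 h4 h5 h6 h7 h8 h9
  have he0 := en_pos n
  have he1 := en_le n
  have hm1 : (1 : ℝ) ∈ Icc (0 : ℝ) 1 := ⟨zero_le_one, le_rfl⟩
  obtain ⟨t1, t2⟩ := H372.LevF_time hC hN hB hP h1 ha hL haL h9 he1 hl (D₀ := G) (B' := |B₁|)
    (B'' := |B₂|) (D := T) (abs_nonneg _) (abs_nonneg _)
    (by filter_upwards [h2 1 hm1] with x hx using hx.trans g0)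
    (fun t ht => by filter_upwards [h3 t ht] with x hx using hx.trans g1)
    (by filter_upwards [hB₁] with x hx using ((le_abs_self _).trans hx).trans (le_abs_self _))
    (by filter_upwards [hB₂] with x hx using hx.trans (le_abs_self _)) hT.symm.le
  have hb := Fam_φ_bdd hC hP hC₀ (abs_nonneg B₀) h1 ha.1 hlo hhi
    (by filter_upwards [hB₀] with x hx using hx.trans (le_abs_self _))
  have hTD : T ≤ D := by rw [hD]; nlinarith
  have hlap' := lap_φ' (C := C) (N := N) (D := T + |D₂|) hN.le (by positivity) he0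
    (φ := φ n) (fun t ht => by
      filter_upwards [h4 t ht] with x hx
      have := le_abs_self D₂
      linarith) (fun t ht => by
      filter_upwards [t2 t ht] with x hx
      linarith) he1
  refine ⟨fun t ht => ?_, fun t ht => ?_, fun t ht => ?_, fun t ht => ?_, fun s hs t ht => ?_,
    fun t ht => ?_, h5, fun t ht => ?_, fun t ht => ?_, h8⟩
  · filter_upwards [hb t ht] with x hx
    have e1 : PA.en n * |B₀| ≤ |B₀| := mul_le_of_le_one_left hx0 he1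
    refine abs_le.2 ⟨?_, ?_⟩
    · have := hx.1; rw [hD]; nlinarith
    · have := hx.2; rw [hD]; nlinarith
  · filter_upwards [h3 t ht] with x hx
    refine hx.trans (g1.trans (pow_le_pow_left₀ hGn ?_ 2))
    rw [hD]; nlinarith
  · filter_upwards [h4 t ht] with x hx
    have : D₂ ≤ D := by have := le_abs_self D₂; rw [hD]; nlinarith
    linarith
  · filter_upwards [hlap' t ht] with x hx
    have hp : 0 < 1 - t + PA.en n := by linarith [ht.2]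
    refine le_trans (neg_le_neg ?_) hx
    refine div_le_div_of_nonneg_right ?_ hp.le
    rw [hD]; nlinarith
  · filter_upwards [t1 s hs t ht] with x hx
    exact hx.trans (mul_le_mul_of_nonneg_right hTD (abs_nonneg _))
  · filter_upwards [t2 t ht] with x hx
    exact hx.trans hTD
  · refine (h6 t ht).trans ((le_abs_self _).trans ?_)
    rw [hD]; nlinarith
  · refine (h7 t ht).trans ((le_abs_self _).trans ?_)
    rw [hD]; nlinarith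

end abstract

end Vale.Agent.P233.H715
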