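import Vale.Agent.P233.H715.BlkA0
import Vale.Agent.P233.H748.BlkB0
import Vale.Agent.P233.H769.PlimA
import Vale.Agent.P233.H391.Lev

/-! P233, part A: the theorem `PA.Blk_A` (helper715). -/

set_option linter.all false

open MeasureTheory Filter Topology Set
open scoped ENNReal NNReal

universe u

namespace Vale.Agent.P233.H715

/-- **PART A** -/
theorem blk_A : PA.Blk_A.{u} := by
  intro M _ _ _ _ _ m K N hS P hP p s₀ C₀ hs _ hC₀
  have hC : IsGamma (sob m) := H599.std_gamma hS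
  haveI : SigmaFinite m := H599.std_sf hS
  have hB : (sob m).BE K N := hS.rcd.bochner
  obtain ⟨ha, ha', hlo, hhi, haL⟩ := zr_init hS p hs hC₀.le
  have hI : Ins m K N P p s₀ C₀ := by
    refine ⟨fun ε l φ u h => ?_, fun l hl R hR hlR => ?_⟩
    · exact H748.blk_B0 M m (sob m) K P hC (hC.bei hS.hN hB) hP ε 0 1 φ u h.pair
    · refine Filter.Eventually.of_forall fun n φ u h => ?_
      exact H391.dens hC hS.hN hB hP h hC₀.le ha.1 hlo hhi hR hlR
  obtain ⟨u, φ, h1, h2, h3, h5, h6⟩ := outA_pre hS hP hs hC₀ hI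
  have h0T : (0 : M →ₘ[m] ℝ) ∈ (sob m).TestI := hC.testI_zero (hC.bei hS.hN hB)
  refine ⟨u, φ, h1, h2, h3, h5, ?_, h6⟩
  refine H769.plim hS hP p hs hC₀.le (h1.mono fun n h => h 0 h0T) h2 (h3 0 h0T 1 le_rfl ?_) h5
  filter_upwards [zero_ae (M := M) (m := m)] with x hx
  rw [hx, Real.log_one]

end Vale.Agent.P233.H715
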