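import Vale.Agent.P233.H715.TestI
import Vale.Agent.P233.Gig.IfA
import Vale.Agent.P233.H599.Low

/-! P233, part A: the block `PA.Blk_A1`, existence of the heat semigroup (helper103, helper715). -/

open MeasureTheory
open scoped ENNReal NNReal

universe u

namespace Vale.Agent.P233.H715

/-- **`PA.Blk_A1`** -/
theorem blk_A1 : PA.Blk_A1.{u} := by
  intro M _ _ _ _ _ m K N hS
  have := H599.std_sf hS
  exact ⟨_, heat_exists (H599.std_gamma hS) hS.hN hS.rcd.bochner⟩

end Vale.Agent.P233.H715
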