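import Vale.Agent.P233.H715.CDDef

/-! P233, stage 3a, pointwise inequality: sub-blocks of `Blk_Point` (helper715). -/

set_option linter.all false

open MeasureTheory Filter Topology Set Metric
open scoped ENNReal NNReal MeasureTheory RealInnerProductSpace

universe u

namespace Vale.Agent.P233.CDc

open Vale.Agent.P233.RG

/-- HS (real analysis): the hinge comparison in terms of `d²/2`, second order -/
def Blk_HS : Prop :=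
  ∀ κ a₀ a₁ : ℝ, 0 < a₀ → a₀ ≤ a₁ → √κ * a₁ < Real.pi → ∃ K ≥ 0, ∃ ρ₀ > 0,
    ∀ a ∈ Icc a₀ a₁, ∀ ρ ∈ Icc 0 ρ₀, ∀ c ∈ Icc (-1 : ℝ) 1, ∀ D : ℝ, |D - a| ≤ ρ →
      md κ D ≤ md κ (a - ρ) + sn κ a * sn κ ρ * (1 - c) →
      D ^ 2 / 2 ≤ a ^ 2 / 2 - a * ρ * c
        + ρ ^ 2 / 2 * (c ^ 2 + (1 - c ^ 2) * (a * cs κ a / sn κ a)) + K * ρ ^ 3

/-- EX (real analysis): the excess at an intermediate point, second order. `Dx = |x z|`,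
`Dy = |z y|`, `ρ = |z w|`, `w ∈ [x,y]`, `|x w| = s θ`. -/
def Blk_EX : Prop :=
  ∀ κ s θ₀ θ₁ : ℝ, 0 < s → s < 1 → 0 < θ₀ → θ₀ ≤ θ₁ → √κ * θ₁ < Real.pi →
    ∃ K ≥ 0, ∃ ρ₀ > 0, ∀ θ ∈ Icc θ₀ θ₁, ∀ ρ ∈ Icc 0 ρ₀, ∀ Dx Dy : ℝ, |Dx - s * θ| ≤ ρ →
      |Dy - (1 - s) * θ| ≤ ρ → θ ≤ Dx + Dy →
      sn κ (s * θ) * (md κ Dy - md κ (Dx - θ)) ≤ sn κ θ * (md κ ρ - md κ (Dx - s * θ)) →
      Dx + Dy - θ ≤ K * ρ ^ 2 ∧
      Dx ^ 2 / (2 * s) + Dy ^ 2 / (2 * (1 - s)) - θ ^ 2 / 2 ≤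
        (1 / (s * (1 - s)) * (Dx - s * θ) ^ 2
          + θ * sn κ θ / (sn κ (s * θ) * sn κ ((1 - s) * θ)) * (ρ ^ 2 - (Dx - s * θ) ^ 2)) / 2
          + K * ρ ^ 3

/-- V1: volume near `z` -/
def Blk_V1 : Prop :=
  ∀ (M : Type u) [MetricSpace M] [SecondCountableTopology M] [MeasurableSpace M] [BorelSpace M]
    (κ : ℝ) (n : ℕ) (z : M) (L : M → E n), Lg κ n z L → ∀ ε > 0, ∃ ρ > 0, ∀ A ⊆ ball z ρ,
      μH[n] A ≤ ENNReal.ofReal (1 + ε) * μH[n] (L '' A)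

/-- V2: volume near a point `x` far from `z`, in a narrow cone -/
def Blk_V2 : Prop :=
  ∀ (M : Type u) [MetricSpace M] [SecondCountableTopology M] [MeasurableSpace M] [BorelSpace M]
    (κ : ℝ) (n : ℕ) (z : M) (L : M → E n), 1 ≤ n → Lg κ n z L → ∀ x : M, 0 < dist z x →
    √κ * dist z x < Real.pi → ∀ ε > 0, ∃ ρ > 0, ∀ A ⊆ ball x ρ,
      (∀ y ∈ A, ‖(dist z y)⁻¹ • L y - (dist z x)⁻¹ • L x‖ ≤ ρ) →
      μH[n] A ≤ ENNReal.ofReal ((1 + ε) * (sn κ (dist z x) / dist z x) ^ (n - 1)) * μH[n] (L '' A)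

/-- PLH: Prékopa–Leindler for point clouds. `μ` is a multiple of Lebesgue measure. -/
def Blk_PLH : Prop :=
  ∀ (n : ℕ) (Ω : Type u) [MeasurableSpace Ω] (m : Measure Ω) [IsFiniteMeasure m] (a b : Ω → ℝ)
    (ξ η : Ω → E n) (N : E n → ℝ) (ε t J J' : ℝ), Measurable a → Measurable b → (∀ w, 0 ≤ a w) →
    (∀ w, 0 ≤ b w) → Continuous N → 0 ≤ ε → 0 < t → t < 1 → 0 ≤ J → 0 ≤ J' →
    (∀ w w', N (ξ w + η w') ≤ a w + b w' + ε) →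
    (∀ c : ℝ, ENNReal.ofReal J * m {w | a w ≤ c} ≤
      (μH[n] : Measure (E n)) (closure (ξ '' {w | a w ≤ c})) + ENNReal.ofReal ε) →
    (∀ c : ℝ, ENNReal.ofReal J' * m {w | b w ≤ c} ≤
      (μH[n] : Measure (E n)) (closure (η '' {w | b w ≤ c})) + ENNReal.ofReal ε) →
    (ENNReal.ofReal ((1 - t)⁻¹ ^ n)
        * (ENNReal.ofReal J * ∫⁻ w, ENNReal.ofReal (Real.exp (-(a w / (1 - t)))) ∂m
          - ENNReal.ofReal ε)) ^ (1 - t)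
      * (ENNReal.ofReal (t⁻¹ ^ n)
        * (ENNReal.ofReal J' * ∫⁻ w, ENNReal.ofReal (Real.exp (-(b w / t))) ∂m
          - ENNReal.ofReal ε)) ^ t
      ≤ ENNReal.ofReal (Real.exp ε) * ∫⁻ v, ENNReal.ofReal (Real.exp (-N v)) ∂(μH[n] : Measure (E n))

end Vale.Agent.P233.CDc
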