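import Vale.Agent.P233.H715.OutA
import Vale.Agent.P233.H165.TailM
import Vale.Agent.P233.H790.UpF
import Vale.Agent.P233.H939.EnLev
import Vale.Agent.P233.H106.HJ
import Vale.Agent.P233.H391.MaxFin

/-! P233, part A: the output of part A from its last inputs (helper715). -/

set_option linter.all false

open MeasureTheory Filter Topology Set
open scoped ENNReal NNReal

universe u

namespace Vale.Agent.P233.H715

section abstract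

variable {M : Type u} [MeasurableSpace M] {m : Measure M} {C : Calc m} {K N : ℝ}
  {P : ℝ → (M →ₘ[m] ℝ) → (M →ₘ[m] ℝ)} [SigmaFinite m] {ε : ℝ} {a l : M →ₘ[m] ℝ}
  {φ u : ℝ → M →ₘ[m] ℝ} {C₀ L : ℝ}

/-- A2 for `u` -/
theorem fam_ulip (hC : IsGamma C) (hB : C.BEi K) (hR : C.Reg ε 0 1 φ u) (hL : 0 ≤ L)
    (haL : ∀ᵐ x ∂m, C.Γ (u 0) (u 0) x ≤ L) (hε1 : ε ≤ 1) :
    ∀ t ∈ Icc (0 : ℝ) 1, ∀ᵐ x ∂m, C.Γ (u t) (u t) x ≤ (Real.sqrt (L * Real.exp |K|)) ^ 2 := by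
  intro t ht
  have hε := hR.hε
  filter_upwards [hR.u_grad hC hB hL haL t ht] with x hx
  rw [Real.sq_sqrt (by positivity)]
  refine hx.trans (mul_le_mul_of_nonneg_left (Real.exp_le_exp.2 ?_) hL)
  have h1 : ε * |K| ≤ |K| := mul_le_of_le_one_left (abs_nonneg _) hε1
  have h2 : 0 ≤ ε * |K| := by positivity
  nlinarith [ht.1, ht.2]

/-- A2H for `u` -/
theorem fam_uham (hC : IsGamma C) (hB : C.BEi K) (hR : C.Reg ε 0 1 φ u) (hC₀ : 0 ≤ C₀)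
    (hb : ∀ t ∈ Icc (0 : ℝ) 1, ∀ᵐ x ∂m, -C₀ ≤ u t x ∧ u t x ≤ 0) :
    ∀ t ∈ Ioc (0 : ℝ) 1, ∀ᵐ x ∂m, t * C.Γ (u t) (u t) x ≤ 2 * (1 + ε * |K|) * C₀ := by
  intro t ht
  have hε := hR.hε
  have h0 : (0 : ℝ) ∈ Icc (0 : ℝ) 1 := ⟨le_rfl, zero_le_one⟩
  have ht' : t ∈ Icc (0 : ℝ) 1 := ⟨ht.1.le, ht.2⟩
  filter_upwards [hR.u_ham hC hB (c := 1 + ε * |K|) hC₀ (by simp)
    ((hb 0 h0).mono fun x hx => hx.1) t ht', hb t ht'] with x h1 h2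
  rw [sub_zero] at h1
  refine h1.trans (mul_le_mul_of_nonneg_left (by linarith [h2.2]) (by positivity))

/-- A3H for `u` -/
theorem fam_ulap (hC : IsGamma C) (hN : 0 < N) (hB : C.BE K N) (hR : C.Reg ε 0 1 φ u)
    (hC₀ : 0 ≤ C₀) (hb : ∀ t ∈ Icc (0 : ℝ) 1, ∀ᵐ x ∂m, -C₀ ≤ u t x ∧ u t x ≤ 0) :
    ∀ t ∈ Ioc (0 : ℝ) 1, ∀ᵐ x ∂m, C.lap (u t) x ≤ N / t + PA.c1 K ε C₀ := by
  intro t ht
  have h0 : (0 : ℝ) ∈ Icc (0 : ℝ) 1 := ⟨le_rfl, zero_le_one⟩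
  filter_upwards [hR.u_lap_ham hC hN hB (c := 1 + ε * |K|) hC₀ (by simp)
    ((hb 0 h0).mono fun x hx => hx.1) (fun t ht => (hb t ht).mono fun x hx => hx.2) t ht]
    with x h1
  rw [sub_zero] at h1
  exact h1

/-- A2 for `φ` -/
theorem fam_flip (hC : IsGamma C) (hB : C.BEi K) (hR : C.Reg ε 0 1 φ u) (hl : l ∈ C.TestI)
    (h1 : φ 1 = u 1 + ε • l) (hε1 : ε ≤ 1) {L B : ℝ} (hL : 0 ≤ L) (hB0 : 0 ≤ B)
    (huL : ∀ᵐ x ∂m, C.Γ (u 1) (u 1) x ≤ L) (hlB : ∀ᵐ x ∂m, C.Γ l l x ≤ B) :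
    ∀ t ∈ Icc (0 : ℝ) 1, ∀ᵐ x ∂m,
      C.Γ (φ t) (φ t) x ≤ (Real.sqrt ((2 * L + 2 * B) * Real.exp |K|)) ^ 2 := by
  intro t ht
  have hε := hR.hε
  have hD := hC.toIsDir
  have hm1 : (1 : ℝ) ∈ Icc (0 : ℝ) 1 := ⟨zero_le_one, le_rfl⟩
  have hu1 : u 1 ∈ C.W := (hC.test_A (hR.u_mem 1 hm1).1).1
  have hlW : l ∈ C.W := (hC.test_A hl.1).1
  have hel : ε • l ∈ C.W := hD.smul_mem _ _ hlW
  have e1 : C.Γ (ε • l) (ε • l) = (ε * ε) • C.Γ l l := by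
    rw [hD.smul_left _ _ hlW _ hel, hD.Γ_smul_right _ hlW hlW, smul_smul]
  have hf1 : ∀ᵐ x ∂m, C.Γ (φ 1) (φ 1) x ≤ 2 * L + 2 * B := by
    rw [h1]
    filter_upwards [huL, hlB, H788.Γ_add_le hD hu1 hel, smul_ae (C.Γ l l) (ε * ε),
      hD.Γ_nonneg_ae hlW] with x a1 a2 a3 a4 a5
    rw [e1] at a3
    rw [a4] at a3
    have : ε * ε * C.Γ l l x ≤ 1 * B := by
      refine mul_le_mul ?_ a2 a5 zero_le_one
      nlinarith
    linarith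
  filter_upwards [hR.φ_grad hC hB (by positivity) hf1 t ht] with x hx
  rw [Real.sq_sqrt (by positivity)]
  refine hx.trans (mul_le_mul_of_nonneg_left (Real.exp_le_exp.2 ?_) (by positivity))
  have h1 : ε * |K| ≤ |K| := mul_le_of_le_one_left (abs_nonneg _) hε1
  have h2 : 0 ≤ ε * |K| := by positivity
  nlinarith [ht.1, ht.2]

/-- A3 for `φ` -/
theorem fam_flap (hC : IsGamma C) (hN : 0 < N) (hB : C.BE K N) (hR : C.Reg ε 0 1 φ u) {D : ℝ}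
    (hG : ∀ t ∈ Icc (0 : ℝ) 1, ∀ᵐ x ∂m, C.Γ (φ t) (φ t) x ≤ D ^ 2) :
    ∀ t ∈ Ico (0 : ℝ) 1, ∀ᵐ x ∂m, -(N / (1 - t) + √(N * |K| * D ^ 2)) ≤ C.lap (φ t) x :=
  hR.φ_lap' hC hN hB (sq_nonneg D) hG

end abstract

section

variable {M : Type u} [MetricSpace M] [CompleteSpace M] [SecondCountableTopology M]
  [MeasurableSpace M] [BorelSpace M]

/-- The last inputs for the output of part A: regularity of pairs and the bound of the density. -/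
structure Ins (m : Measure M) (K N : ℝ) (P : ℝ → (M →ₘ[m] ℝ) → (M →ₘ[m] ℝ)) (p : M)
    (s₀ C₀ : ℝ) : Prop where
  reg : ∀ (ε : ℝ) (l : M →ₘ[m] ℝ) φ u, Fam (sob m) P ε (cl m (zr p s₀ C₀ 0)) l φ u →
    (sob m).Reg ε 0 1 φ u
  dens : ∀ l ∈ (sob m).TestI, ∀ R : ℝ, 1 ≤ R → (∀ᵐ x ∂m, l x ≤ Real.log R) →
    ∀ᶠ n in atTop, ∀ φ u, Fam (sob m) P (PA.en n) (cl m (zr p s₀ C₀ 0)) l φ u →
    ∀ t ∈ Ioc (0 : ℝ) 1, ∀ᵐ x ∂m, rh (PA.en n) φ u t x ≤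
      t ^ (-N) * Real.exp (PA.c1 K (PA.en n) C₀ * (1 - t)) * R

variable {m : Measure M} {K N : ℝ} {P : ℝ → (M →ₘ[m] ℝ) → (M →ₘ[m] ℝ)} {p : M} {s₀ C₀ : ℝ}

/-- the initial datum -/
theorem zr_init (hS : Std m K N) (p : M) (hs : 0 < s₀) (hC₀ : 0 ≤ C₀) :
    cl m (zr p s₀ C₀ 0) ∈ (sob m).A ∧
    MemLp ((sob m).Γ (cl m (zr p s₀ C₀ 0)) (cl m (zr p s₀ C₀ 0))) ∞ m ∧
    (∀ᵐ x ∂m, -C₀ ≤ cl m (zr p s₀ C₀ 0) x) ∧ (∀ᵐ x ∂m, cl m (zr p s₀ C₀ 0) x ≤ 0) ∧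
    ∀ᵐ x ∂m, (sob m).Γ (cl m (zr p s₀ C₀ 0)) (cl m (zr p s₀ C₀ 0)) x
      ≤ (Real.sqrt (2 * C₀ / s₀)) ^ 2 := by
  have h0 : (0 : ℝ) ∈ Icc (0 : ℝ) 1 := ⟨le_rfl, zero_le_one⟩
  have hτ : 0 < 0 + s₀ := by linarith
  obtain ⟨h1, h2⟩ := H599.ulim_mem (K := K) (N := N) hS p hs hC₀ 0 h0
  refine ⟨h1, h2, ?_, ?_, ?_⟩
  · filter_upwards [H599.zr_cl_ae (m := m) p s₀ C₀ 0] with x hx
    rw [hx]; exact H599.zr_ge hτ hC₀ x
  · filter_upwards [H599.zr_cl_ae (m := m) p s₀ C₀ 0] with x hx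
    rw [hx]; exact H599.zr_nonpos p s₀ C₀ 0 x
  · filter_upwards [H599.zr_Γ_le (p := p) hS.hfin hτ hC₀] with x hx
    rw [Real.sq_sqrt (by positivity)]
    exact hx.trans (H599.Gz_le hs le_rfl hC₀ x)

/-- the part of the output of part A without the limit `φ₀` -/
theorem outA_pre (hS : Std m K N) (hP : Heat (sob m) K P) (hs : 0 < s₀) (hC₀ : 0 < C₀)
    (hI : Ins m K N P p s₀ C₀) :
    ∃ (u : ℕ → ℝ → M →ₘ[m] ℝ) (φ : (M →ₘ[m] ℝ) → ℕ → ℝ → M →ₘ[m] ℝ),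
      (∀ᶠ n in atTop, ∀ l ∈ (sob m).TestI,
        Fam (sob m) P (PA.en n) (cl m (zr p s₀ C₀ 0)) l (φ l n) (u n)) ∧
      (∃ D D', ∀ᶠ n in atTop, PA.LevU (sob m) K N (PA.en n) C₀ D D' (u n)) ∧
      (∀ l ∈ (sob m).TestI, ∀ R : ℝ, 1 ≤ R → (∀ᵐ x ∂m, l x ≤ Real.log R) →
        ∃ D D', ∀ᶠ n in atTop, PA.LevF (sob m) K N (PA.en n) C₀ R D D' l (φ l n) (u n)) ∧
      PA.ULim m K N p s₀ C₀ u ∧
      (∀ l ∈ (sob m).TestI, ∀ B : ℝ, 0 ≤ B → (∀ᵐ x ∂m, |l x| ≤ B) → ∀ᶠ n in atTop,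
        ∀ t ∈ Icc (0 : ℝ) 1, ∀ᵐ x ∂m, |φ l n t x - φ 0 n t x| ≤ B * PA.en n) := by
  have hC : IsGamma (sob m) := H599.std_gamma hS
  haveI : SigmaFinite m := H599.std_sf hS
  have hN : 0 < N := hS.hN
  have hB : (sob m).BE K N := hS.rcd.bochner
  have hBi : (sob m).BEi K := hC.bei hN hB
  obtain ⟨ha, ha', hlo, hhi, haL⟩ := zr_init hS p hs hC₀.le
  obtain ⟨u, φ, hF⟩ := exists_levels hP hC hBi ha ha'
  have h0T : (0 : M →ₘ[m] ℝ) ∈ (sob m).TestI := hC.testI_zero hBi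
  have hF0 : ∀ᶠ n in atTop, Fam (sob m) P (PA.en n) (cl m (zr p s₀ C₀ 0)) 0 (φ 0 n) (u n) :=
    hF.mono fun n h => h 0 h0T
  have hL0 : 0 ≤ 2 * C₀ / s₀ := by positivity
  have haL' : ∀ᵐ x ∂m, (sob m).Γ (cl m (zr p s₀ C₀ 0)) (cl m (zr p s₀ C₀ 0)) x ≤ 2 * C₀ / s₀ := by
    filter_upwards [haL] with x hx
    rwa [Real.sq_sqrt hL0] at hx
  have hreg0 : ∀ᶠ n in atTop, (sob m).Reg (PA.en n) 0 1 (φ 0 n) (u n) :=
    hF0.mono fun n h => hI.reg _ _ _ _ h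
  have hbd0 : ∀ᶠ n in atTop, ∀ t ∈ Icc (0 : ℝ) 1, ∀ᵐ x ∂m, -C₀ ≤ u n t x ∧ u n t x ≤ 0 :=
    hF0.mono fun n h => Fam_u_bdd hC hP hC₀.le h ha.1 hlo hhi
  set D₁ : ℝ := Real.sqrt (2 * (2 * C₀ / s₀) * Real.exp |K|) with hD₁
  have hulip : ∀ᶠ n in atTop, ∀ t ∈ Icc (0 : ℝ) 1, ∀ᵐ x ∂m,
      (sob m).Γ (u n t) (u n t) x ≤ D₁ ^ 2 := by
    filter_upwards [hF0, hreg0, en_small K zero_lt_one] with n h1 h2 h3
    have hn := (H372.datum_bound hC hN hB ha (Real.sqrt_nonneg (2 * C₀ / s₀)) haL (en_pos n) h3).2.2.1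
    refine fam_ulip hC hBi h2 (by positivity) ?_ (en_le n)
    rw [h1.init]
    filter_upwards [hn] with x hx
    rwa [Real.sq_sqrt hL0] at hx
  obtain ⟨D₂, hD₂0, hD₂⟩ := H165.fam_u2 hS hP p hs hC₀.le
  obtain ⟨D', hD'⟩ := H939.levU_en hS hP p hs hC₀.le D₁
  obtain ⟨D, hD0, hU⟩ := levU_of (L := Real.sqrt (2 * C₀ / s₀)) hC hN hB hP hC₀.le
    (Real.sqrt_nonneg _) (a := cl m (zr p s₀ C₀ 0))
    ha hlo hhi haL hF0 hulip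
    (by filter_upwards [hreg0, hbd0] with n h1 h2 using fam_uham hC hBi h1 hC₀.le h2)
    (by filter_upwards [hreg0, hbd0] with n h1 h2 using fam_ulap hC hN hB h1 hC₀.le h2)
    (D₂ := D₂) (by filter_upwards [hF0] with n h1 using hD₂ _ (en_le n) 0 h0T _ _ h1)
    (D' := D') (by
      filter_upwards [hF0, hulip] with n h1 h2 using hD' _ _ (en_le n) h0T _ _ h1 h2)
  -- the limit of `u`
  have hmem := H599.ulim_mem hS p hs hC₀.le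
  have hT : ∀ᶠ n in atTop, ∀ t ∈ Icc (0 : ℝ) 1, u n t ∈ (sob m).TestI :=
    hF0.mono fun n h => h.pair.u_mem
  have hup := H790.ulim_up_final hS hP hs hC₀.le hF0 hU
  have htail : ∃ R₀ : ℝ, ∀ t ∈ Icc (0 : ℝ) 1,
      Tendsto (fun n => ∫ x in (Metric.ball p R₀)ᶜ, (u n t x) ^ 2 ∂m) atTop (𝓝 0) := by
    have hz : ∀ᵐ x ∂m, (0 : ℝ) ≤ dist p x → (0 : M →ₘ[m] ℝ) x = 0 := by
      filter_upwards [zero_ae (M := M) (m := m)] with x hx _ using hx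
    obtain ⟨T, hT0, hTT⟩ := H165.fam_tails hS hP p hs hC₀.le h0T hz
    refine ⟨H165.R1 s₀ C₀ 0 + 2, fun t ht => ?_⟩
    have hlim : Tendsto (fun n => T * Real.exp (-(PA.en n)⁻¹)) atTop (𝓝 0) := by
      have e1 : Tendsto (fun n => (PA.en n)⁻¹) atTop atTop := by
        have : (fun n => (PA.en n)⁻¹) = fun n : ℕ => (n : ℝ) + 1 := by
          funext n; unfold PA.en; rw [inv_inv]
        rw [this]
        exact tendsto_atTop_add_const_right _ _ tendsto_natCast_atTop_atTop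
      have e2 := (Real.tendsto_exp_neg_atTop_nhds_zero.comp e1).const_mul T
      simpa using e2
    refine squeeze_zero' ?_ ?_ hlim
    · exact Filter.Eventually.of_forall fun n => integral_nonneg fun x => sq_nonneg _
    · filter_upwards [hF0] with n h1
      exact (hTT _ (en_le n) _ _ h1 t ht).2.1
  have hconv := H599.ulim_conv hS hP p hs hC₀.le hF0 hU hup htail
  have hgrad := ulim_grad hC hN.le hC₀.le hmem hT hU hconv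
  refine ⟨u, φ, hF, ⟨D, D', hU⟩, fun l hl R hR hlR => ?_, ⟨hmem, hup, hconv, hgrad, ?_,
    H106.ulim_hj hS hs hC₀ hreg0 hulip hconv hgrad⟩, fun l hl B hB0 hlB => ?_⟩
  · obtain ⟨B₁, hB₁⟩ := mem_top_iff.1 (hC.test_Γ_top hl.1)
    have hm1 : (1 : ℝ) ∈ Icc (0 : ℝ) 1 := ⟨zero_le_one, le_rfl⟩
    set E₁ : ℝ := Real.sqrt ((2 * D₁ ^ 2 + 2 * |B₁|) * Real.exp |K|) with hE₁
    obtain ⟨E₃, hE₃0, hE₃⟩ := H165.fam_f2 hS hP p hs hC₀.le hl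
    obtain ⟨E', hE'⟩ := H165.fam_rho2 hS hP p hs hC₀.le hl (R := R) (by linarith)
    have hFl : ∀ᶠ n in atTop, Fam (sob m) P (PA.en n) (cl m (zr p s₀ C₀ 0)) l (φ l n) (u n) :=
      hF.mono fun n h => h l hl
    have hdens := hI.dens l hl R hR hlR
    have hregl : ∀ᶠ n in atTop, (sob m).Reg (PA.en n) 0 1 (φ l n) (u n) :=
      hFl.mono fun n h => hI.reg _ _ _ _ h
    have hflip : ∀ᶠ n in atTop, ∀ t ∈ Icc (0 : ℝ) 1, ∀ᵐ x ∂m,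
        (sob m).Γ (φ l n t) (φ l n t) x ≤ E₁ ^ 2 := by
      filter_upwards [hFl, hregl, hulip] with n h1 h2 h3
      exact fam_flip hC hBi h2 hl h1.fin (en_le n) (sq_nonneg _) (abs_nonneg _) (h3 1 hm1)
        (by filter_upwards [hB₁] with x hx using ((le_abs_self _).trans hx).trans (le_abs_self _))
    obtain ⟨E, hE⟩ := levF_of (L := Real.sqrt (2 * C₀ / s₀)) hC hN hB hP hC₀.le
      (Real.sqrt_nonneg _) (a := cl m (zr p s₀ C₀ 0)) ha hlo hhi haL hl hFl hulip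
      (D₁ := E₁) hflip
      (D₂ := √(N * |K| * E₁ ^ 2)) (by
        filter_upwards [hregl, hflip] with n h1 h2 using fam_flap hC hN hB h1 h2)
      (R := R) (by filter_upwards [hFl, hdens] with n h1 h2 using h2 _ _ h1)
      (D₃ := E₃)
      (by filter_upwards [hFl] with n h1 t ht using (hE₃ _ (en_le n) _ _ h1 t ht).2.1)
      (by filter_upwards [hFl] with n h1 t ht using (hE₃ _ (en_le n) _ _ h1 t ht).2.2)
      (D' := E')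
      (by filter_upwards [hFl, hdens] with n h1 h2 using hE' _ (en_le n) _ _ h1 (h2 _ _ h1))
    exact ⟨E, E', hE⟩
  · exact H599.ulim_lap hS p hs hC₀.le hT hU hconv
  · filter_upwards [hF] with n h1
    exact Fam_same hC hP hB0 (h1 l hl) (h1 0 h0T) hlB

end

end Vale.Agent.P233.H715
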