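import Vale.Agent.P233.H715.CDPEf
import Vale.Agent.P233.H416.RegVol5

/-! P233, stage 3a, pointwise inequality (helper715): volumes at the blow-up scale. -/

set_option linter.all false

open MeasureTheory Filter Topology Set Metric
open scoped ENNReal NNReal MeasureTheory RealInnerProductSpace Pointwise

universe u

namespace Vale.Agent.P233.CDc

open Vale.Agent.P233.RG

section

variable {M : Type u} [MetricSpace M] [MeasurableSpace M] [BorelSpace M]
variable {κ s : ℝ} {n : ℕ} {z : M} {L : M → E n} {S : Set M}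

theorem eventually_mul_le {R ρ : ℝ} (hρ : 0 < ρ) :
    ∀ᶠ r : ℝ in 𝓝[>] 0, R * r < ρ := by
  have hc : Continuous fun r : ℝ => R * r := by fun_prop
  have h1 : Tendsto (fun r : ℝ => R * r) (𝓝[>] 0) (𝓝 (R * 0)) :=
    (hc.tendsto 0).mono_left nhdsWithin_le_nhds
  rw [mul_zero] at h1
  exact h1.eventually_lt_const hρ

/-- volumes of images at the scale `r` -/
theorem scale_field {x₀ : M} {X : M → M} {J β σ : ℝ} (hJ : 0 ≤ J) (hβ : 0 < β) (hσ : σ ≠ 0)
    (hV : ∀ ε > 0, ∃ ρ > 0, ∀ A ⊆ ball x₀ ρ,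
      (μH[n] : Measure M) A ≤ ENNReal.ofReal ((1 + ε) * β) * (μH[n] : Measure (E n)) (L '' A))
    (hX : ∃ C ≥ 0, ∃ ρ₁ > 0, ∀ w ∈ S, dist z w ≤ ρ₁ → dist x₀ (X w) ≤ C * dist z w ∧
      ‖L (X w) - L x₀‖ ≤ C * dist z w)
    (hj : ∀ η > 0, ∀ R > 0, ∀ᶠ r : ℝ in 𝓝[>] 0, ∀ A ⊆ S ∩ ball z (R * r), MeasurableSet A →
      ENNReal.ofReal J * (μH[n] : Measure M) A ≤ (μH[n] : Measure M) (X '' A)
        + ENNReal.ofReal (η * r ^ n))
    {c : ℝ≥0} (hc : 0 < c) (hcv : (μH[n] : Measure (E n)) = c • (volume : Measure (E n))) :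
    ∀ R > 0, ∀ del > 0, ∀ᶠ r : ℝ in 𝓝[>] 0, ∀ A ⊆ S ∩ ball z (R * r), MeasurableSet A →
      ENNReal.ofReal (J * β⁻¹ * (|σ| ^ n)⁻¹) *
        (ENNReal.ofReal ((c * r ^ n)⁻¹) * (μH[n] : Measure M) A) ≤
      volume ((fun w => (r * σ)⁻¹ • L (X w)) '' A) + ENNReal.ofReal del := by
  intro R hR del hdel
  obtain ⟨C, hC, ρ₁, hρ₁, hX⟩ := hX
  have hσ' : 0 < |σ| := abs_pos.2 hσ
  have hc' : (0 : ℝ) < c := hc
  set VB := volume (closedBall (0 : E n) (C * R / |σ|)) with hVB
  have hVBt : VB ≠ ∞ := measure_closedBall_lt_top.ne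
  set V₀ := VB.toReal with hV₀
  have hV₀0 : 0 ≤ V₀ := ENNReal.toReal_nonneg
  obtain ⟨ρ, hρ, hV⟩ := hV (del / (2 * (V₀ + 1))) (by positivity)
  filter_upwards [self_mem_nhdsWithin, eventually_mul_le (R := C * R) hρ,
    eventually_mul_le (R := R) hρ₁,
    hj (del * (|σ| ^ n * c) * β / 2) (by positivity) R hR] with r hr hr1 hr2 hr3 A hA hAm
  have hr0 : 0 < r := hr
  set ε := del / (2 * (V₀ + 1)) with hε
  have hε0 : 0 < ε := by positivity
  have hXA : X '' A ⊆ ball x₀ ρ := by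
    rintro _ ⟨w, hw, rfl⟩
    have hw' := hA hw
    have h1 : dist z w ≤ R * r := by
      have := mem_ball.1 hw'.2
      rw [dist_comm]; exact this.le
    have h2 := (hX w hw'.1 (h1.trans hr2.le)).1
    have h3 : C * dist z w ≤ C * (R * r) := mul_le_mul_of_nonneg_left h1 hC
    rw [mem_ball, dist_comm]
    linarith
  have h1 := hr3 A hA hAm
  have h2 := hV _ hXA
  set G := L '' (X '' A) with hG
  have hpG : (fun w => (r * σ)⁻¹ • L (X w)) '' A = (r * σ)⁻¹ • G := by
    rw [hG, ← image_smul, image_image, image_image]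
  have hvol : volume ((r * σ)⁻¹ • G) = ENNReal.ofReal (((r * |σ|) ^ n)⁻¹) * volume G := by
    rw [Measure.addHaar_smul, finrank_euclideanSpace_fin]
    congr 2
    rw [inv_pow, abs_inv, abs_pow, abs_mul, abs_of_pos hr0]
  have hmG : (μH[n] : Measure (E n)) G = ENNReal.ofReal c * volume G := by
    rw [hcv, Measure.smul_apply, ENNReal.ofReal_coe_nnreal]; rfl
  have hbd : volume ((r * σ)⁻¹ • G) ≤ VB := by
    rw [← hpG, hVB, ← Measure.addHaar_closedBall_center volume ((r * σ)⁻¹ • L x₀)]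
    refine measure_mono ?_
    rintro _ ⟨w, hw, rfl⟩
    have hw' := hA hw
    have h1 : dist z w ≤ R * r := by
      have := mem_ball.1 hw'.2
      rw [dist_comm]; exact this.le
    have h2 := (hX w hw'.1 (h1.trans hr2.le)).2
    have h3 : C * dist z w ≤ C * (R * r) := mul_le_mul_of_nonneg_left h1 hC
    rw [mem_closedBall, dist_eq_norm, ← smul_sub, norm_smul, norm_inv, norm_mul,
      Real.norm_eq_abs, Real.norm_eq_abs, abs_of_pos hr0, inv_mul_le_iff₀ (by positivity)]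
    have e : r * |σ| * (C * R / |σ|) = C * (R * r) := by field_simp
    rw [e]; exact h2.trans h3
  rw [hpG]
  set P := β⁻¹ * (|σ| ^ n)⁻¹ * (c * r ^ n)⁻¹ with hP
  have hP0 : 0 ≤ P := by positivity
  have step1 : ENNReal.ofReal (J * β⁻¹ * (|σ| ^ n)⁻¹) *
      (ENNReal.ofReal ((c * r ^ n)⁻¹) * (μH[n] : Measure M) A)
      = ENNReal.ofReal P * (ENNReal.ofReal J * (μH[n] : Measure M) A) := by
    rw [← mul_assoc, ← mul_assoc, ← ENNReal.ofReal_mul (by positivity),
      ← ENNReal.ofReal_mul hP0]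
    congr 2
    rw [hP]; ring
  have step2 : ENNReal.ofReal P * (ENNReal.ofReal ((1 + ε) * β) * (ENNReal.ofReal c * volume G))
      = ENNReal.ofReal (1 + ε) * volume ((r * σ)⁻¹ • G) := by
    rw [hvol, ← mul_assoc, ← mul_assoc, ← mul_assoc, ← ENNReal.ofReal_mul hP0,
      ← ENNReal.ofReal_mul (by positivity), ← ENNReal.ofReal_mul (by positivity)]
    congr 2
    rw [hP, mul_pow]
    field_simp
  have step3 : ENNReal.ofReal P * ENNReal.ofReal (del * (|σ| ^ n * c) * β / 2 * r ^ n)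
      = ENNReal.ofReal (del / 2) := by
    rw [← ENNReal.ofReal_mul hP0]
    congr 1
    rw [hP]
    field_simp
  have step4 : ENNReal.ofReal (1 + ε) * volume ((r * σ)⁻¹ • G)
      ≤ volume ((r * σ)⁻¹ • G) + ENNReal.ofReal (del / 2) := by
    rw [ENNReal.ofReal_add zero_le_one hε0.le, ENNReal.ofReal_one, add_mul, one_mul]
    refine add_le_add le_rfl ?_
    calc ENNReal.ofReal ε * volume ((r * σ)⁻¹ • G) ≤ ENNReal.ofReal ε * VB :=
          mul_le_mul_right hbd _
      _ = ENNReal.ofReal (ε * V₀) := by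
          rw [ENNReal.ofReal_mul hε0.le, hV₀, ENNReal.ofReal_toReal hVBt]
      _ ≤ ENNReal.ofReal (del / 2) := by
          refine ENNReal.ofReal_le_ofReal ?_
          rw [hε, div_mul_eq_mul_div, div_le_div_iff₀ (by positivity) (by norm_num)]
          nlinarith
  calc ENNReal.ofReal (J * β⁻¹ * (|σ| ^ n)⁻¹) *
      (ENNReal.ofReal ((c * r ^ n)⁻¹) * (μH[n] : Measure M) A)
      = ENNReal.ofReal P * (ENNReal.ofReal J * (μH[n] : Measure M) A) := step1
    _ ≤ ENNReal.ofReal P * ((ENNReal.ofReal ((1 + ε) * β) * (ENNReal.ofReal c * volume G))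
          + ENNReal.ofReal (del * (|σ| ^ n * c) * β / 2 * r ^ n)) := by
        refine mul_le_mul_right (h1.trans (add_le_add ?_ le_rfl)) _
        rw [← hmG]; exact h2
    _ = ENNReal.ofReal (1 + ε) * volume ((r * σ)⁻¹ • G) + ENNReal.ofReal (del / 2) := by
        rw [mul_add, step2, step3]
    _ ≤ volume ((r * σ)⁻¹ • G) + ENNReal.ofReal (del / 2) + ENNReal.ofReal (del / 2) :=
        add_le_add step4 le_rfl
    _ = volume ((r * σ)⁻¹ • G) + ENNReal.ofReal del := by
        rw [add_assoc, ← ENNReal.ofReal_add (by positivity) (by positivity)]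
        congr 2; ring

end

end Vale.Agent.P233.CDc
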