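import Vale.Agent.P233.H715.RG3
import Vale.Agent.P233.RA.IfG
import Vale.Agent.P233.H616.Bridge

/-! P233, RCDA (helper715): block G1; coarse estimate of the inverse of a radial map, and the
discrete continuity argument for `0 < κ`. -/

set_option linter.all false

open Real Set Filter Topology MeasureTheory
open scoped ENNReal NNReal MeasureTheory

universe u

namespace Vale.Agent.P233.H715.RG

open Vale.Agent.P233.H616

/-! ### G1 -/

theorem twoSided {M : Type u} [MetricSpace M] {κ : ℝ} (hA : T.IsAlexandrov M κ) :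
    Vale.Agent.P233.RG.TwoSided M κ := by
  intro p x y z w hp hx hy hx0 hy0 hz hw
  simp only [← md_eq, ← sn_eq]
  have h := two_side hA hz hw hp
  have sx : 0 < H616.sn κ (dist p x) := sn_pos hx0 fun _ => hx
  have sy : 0 < H616.sn κ (dist p y) := sn_pos hy0 fun _ => hy
  have hs := mul_pos sx sy
  have h2 : H616.sn κ (dist p z) * H616.sn κ (dist p w)
      / (H616.sn κ (dist p x) * H616.sn κ (dist p y))
      * (H616.md κ (dist x y) - H616.md κ (dist p x - dist p y))
      ≤ H616.md κ (dist z w) - H616.md κ (dist p z - dist p w) := by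
    rw [div_mul_eq_mul_div, div_le_iff₀ hs]
    linarith
  linarith

theorem blk_G1 : Vale.Agent.P233.RG.Blk_G1.{u} := fun M _ κ hA => twoSided hA

/-! ### more real analysis -/

theorem md_nonneg' (κ t : ℝ) : 0 ≤ H616.md κ t := by
  rcases lt_trichotomy κ 0 with hk | hk | hk
  · rw [md_neg' hk]
    exact div_nonneg_of_nonpos (by linarith [Real.one_le_cosh (√(-κ) * t)]) hk.le
  · subst hk; rw [md_zero']; positivity
  · rw [md_pos' hk]
    exact div_nonneg (by linarith [Real.cos_le_one (√κ * t)]) hk.le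

theorem md_lower {κ t : ℝ} (ht : 0 ≤ t) (h : √κ * t ≤ π) : 2 / π ^ 2 * t ^ 2 ≤ H616.md κ t := by
  have hpi : 2 / π ^ 2 ≤ 1 / 2 := by
    rw [div_le_div_iff₀ (by positivity) (by norm_num)]
    nlinarith [Real.pi_gt_three]
  rcases lt_trichotomy κ 0 with hk | hk | hk
  · have h1 : MonotoneOn (fun t => H616.md κ t - t ^ 2 / 2) (Icc 0 t) := by
      refine monotoneOn_of_deriv_nonneg (convex_Icc 0 t) ?_ ?_ ?_
      · exact ((continuous_md κ).sub (by fun_prop)).continuousOn
      · intro t _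
        exact (((hasDerivAt_md κ t).sub
          ((hasDerivAt_pow 2 t).div_const 2)).differentiableAt).differentiableWithinAt
      · intro t ht
        rw [interior_Icc] at ht
        have hd : HasDerivAt (fun t => H616.md κ t - t ^ 2 / 2)
            (H616.sn κ t - ((2 : ℕ) : ℝ) * t ^ (2 - 1) / 2) t :=
          (hasDerivAt_md κ t).sub ((hasDerivAt_pow 2 t).div_const 2)
        rw [hd.deriv]
        have h1 := sn_ge_self hk.le ht.1.le
        have e : ((2 : ℕ) : ℝ) * t ^ (2 - 1) / 2 = t := by norm_num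
        rw [e]; linarith
    have h2 := h1 (left_mem_Icc.2 ht) (right_mem_Icc.2 ht) ht
    have h0 : H616.md κ 0 = 0 := by rw [md_neg' hk]; simp
    simp only [h0] at h2
    have h3 : 2 / π ^ 2 * t ^ 2 ≤ 1 / 2 * t ^ 2 := mul_le_mul_of_nonneg_right hpi (sq_nonneg t)
    linarith
  · subst hk
    rw [md_zero']
    have h3 : 2 / π ^ 2 * t ^ 2 ≤ 1 / 2 * t ^ 2 := mul_le_mul_of_nonneg_right hpi (sq_nonneg t)
    linarith
  · rw [md_pos' hk, le_div_iff₀ hk]
    have h1 := Real.cos_le_one_sub_mul_cos_sq (x := √κ * t) (by rw [abs_of_nonneg (by positivity)]; exact h)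
    have h2 : (√κ * t) ^ 2 = κ * t ^ 2 := by rw [mul_pow, Real.sq_sqrt hk.le]
    rw [h2] at h1
    linarith

/-- `sn r ≤ cosh(√|κ| T) r` -/
theorem sn_le_cosh {κ r T : ℝ} (hr : 0 ≤ r) (hT : r ≤ T) :
    H616.sn κ r ≤ cosh (√|κ| * T) * r := by
  have := (le_abs_self _).trans (abs_sn_le (κ := κ) (t := r) (T := T)
    (by rwa [abs_of_nonneg hr]))
  rwa [abs_of_nonneg hr] at this

/-- `sn(τ r) ≥ τ sn r / c` -/
theorem sn_frac {κ r v t R : ℝ} (hr0 : 0 ≤ r) (hr : r ≤ R) (hrπ : √κ * r ≤ π) (ht : 0 < t)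
    (hvt : t * r ≤ v) (hvr : v ≤ r) :
    t * H616.sn κ r ≤ cosh (√|κ| * R) * H616.sn κ v := by
  have hc1 : 1 ≤ cosh (√|κ| * R) := Real.one_le_cosh _
  have hv0 : 0 ≤ v := (mul_nonneg ht.le hr0).trans hvt
  have hsnv : 0 ≤ H616.sn κ v :=
    sn_nonneg' hv0 ((mul_le_mul_of_nonneg_left hvr (Real.sqrt_nonneg _)).trans hrπ)
  rcases le_or_gt κ 0 with hk | hk
  · have h1 : H616.sn κ r ≤ cosh (√|κ| * R) * r := sn_le_cosh hr0 hr
    have h2 := sn_ge_self hk hv0
    calc t * H616.sn κ r ≤ t * (cosh (√|κ| * R) * r) := mul_le_mul_of_nonneg_left h1 ht.le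
      _ = cosh (√|κ| * R) * (t * r) := by ring
      _ ≤ cosh (√|κ| * R) * v := mul_le_mul_of_nonneg_left hvt (by linarith)
      _ ≤ _ := mul_le_mul_of_nonneg_left h2 (by linarith)
  · have hs : 0 < √κ := Real.sqrt_pos.2 hk
    have h1 : t * H616.sn κ r ≤ H616.sn κ v := by
      rcases hr0.eq_or_lt with h0 | h0
      · have : v = 0 := le_antisymm (by linarith) hv0
        rw [this, ← h0, sn_pos' hk]; simp
      · -- concavity of `sin`
        have hv1 : v / r ≤ 1 := (div_le_one h0).2 hvr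
        have hv2 : 0 ≤ v / r := by positivity
        have m1 : (0 : ℝ) ∈ Icc 0 π := ⟨le_rfl, Real.pi_pos.le⟩
        have m2 : √κ * r ∈ Icc 0 π := ⟨by positivity, hrπ⟩
        have hc := strictConcaveOn_sin_Icc.concaveOn.2 m1 m2
          (by linarith : 0 ≤ 1 - v / r) hv2 (by ring)
        simp only [smul_eq_mul, mul_zero, zero_add, Real.sin_zero] at hc
        have e : v / r * (√κ * r) = √κ * v := by field_simp
        rw [e] at hc
        have h2 : t ≤ v / r := by rwa [le_div_iff₀ h0]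
        have h3 : 0 ≤ sin (√κ * r) := Real.sin_nonneg_of_nonneg_of_le_pi (by positivity) hrπ
        rw [sn_pos' hk, sn_pos' hk, ← mul_div_assoc]
        exact div_le_div_of_nonneg_right ((mul_le_mul_of_nonneg_right h2 h3).trans hc) hs.le
    calc t * H616.sn κ r ≤ 1 * H616.sn κ v := by linarith
      _ ≤ _ := mul_le_mul_of_nonneg_right hc1 hsnv

section metric

variable {M : Type*} [MetricSpace M] {κ : ℝ}

/-- constant of the coarse estimate -/
noncomputable def cD (κ R D1 t : ℝ) : ℝ := 4 * cosh (√|κ| * (2 * R)) * (D1 + cosh (√|κ| * R) / t)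

theorem cD_pos {κ R D1 t : ℝ} (hD : 0 ≤ D1) (ht : 0 < t) : 0 < cD κ R D1 t := by
  unfold cD
  have := Real.cosh_pos (√|κ| * (2 * R))
  have h2 := Real.cosh_pos (√|κ| * R)
  positivity

theorem coarse_alg {C D1 e r d m : ℝ} (hC1 : 1 ≤ C) (hD : 0 ≤ D1) (he : 0 ≤ e) (hr : 0 ≤ r)
    (hd : 0 ≤ d) (hm : m ≤ C * r ^ 2)
    (h6 : 2 / π ^ 2 * d ^ 2 ≤ C * (D1 * r) ^ 2 + e ^ 2 * m) :
    d ≤ 4 * C * (D1 + e) * r := by
  have h8 : 2 / π ^ 2 * d ^ 2 ≤ C * ((D1 + e) * r) ^ 2 := by
    have h9 : e ^ 2 * m ≤ e ^ 2 * (C * r ^ 2) := mul_le_mul_of_nonneg_left hm (sq_nonneg _)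
    have h10 : 0 ≤ C * (2 * D1 * e * r ^ 2) := by positivity
    have h11 : C * ((D1 + e) * r) ^ 2 = C * (D1 * r) ^ 2 + e ^ 2 * (C * r ^ 2)
      + C * (2 * D1 * e * r ^ 2) := by ring
    linarith
  have hpi : 1 / 8 ≤ 2 / π ^ 2 := by
    rw [div_le_div_iff₀ (by norm_num) (by positivity)]
    have h1 := Real.pi_le_four
    have h2 := Real.pi_pos
    have h3 : π ^ 2 ≤ 4 ^ 2 := pow_le_pow_left₀ h2.le h1 2
    linarith
  have h10 : 1 / 8 * d ^ 2 ≤ 2 / π ^ 2 * d ^ 2 := mul_le_mul_of_nonneg_right hpi (sq_nonneg _)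
  have e1 : (4 * C * (D1 + e) * r) ^ 2 = 16 * (C ^ 2 * ((D1 + e) * r) ^ 2) := by ring
  have h11 : C ≤ C ^ 2 := by
    have := mul_le_mul_of_nonneg_left hC1 (by linarith : 0 ≤ C)
    linarith [sq C]
  have h12 := mul_le_mul_of_nonneg_right h11 (sq_nonneg ((D1 + e) * r))
  have h13 : 0 ≤ C * ((D1 + e) * r) ^ 2 := by positivity
  have h9 : d ^ 2 ≤ (4 * C * (D1 + e) * r) ^ 2 := by
    rw [e1]
    linarith
  exact (abs_le_of_sq_le_sq' h9 (by positivity)).2

/-- **coarse estimate**, through `md`, under the perimeter bound -/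
theorem coarse_md (hA : T.IsAlexandrov M κ) {p x y z w : M} {R D1 t : ℝ} (ht : 0 < t)
    (hD : 0 ≤ D1)
    (hp : √κ * (dist p x + dist p y + dist x y) < 2 * π)
    (hx : dist p x ≤ R) (hy : dist p y ≤ R)
    (hz : dist p z + dist z x = dist p x) (hw : dist p w + dist w y = dist p y)
    (htz : t * dist p x ≤ dist p z) (htw : t * dist p y ≤ dist p w)
    (hΔ : |dist p x - dist p y| ≤ D1 * dist z w) :
    dist x y ≤ cD κ R D1 t * dist z w := by
  have hsq : 0 ≤ √κ := Real.sqrt_nonneg _
  have hzw0 : 0 ≤ dist z w := dist_nonneg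
  set c := cosh (√|κ| * R) with hc
  set C := cosh (√|κ| * (2 * R)) with hC
  have hc1 : 1 ≤ c := Real.one_le_cosh _
  have hC1 : 1 ≤ C := Real.one_le_cosh _
  have hct : 0 ≤ c / t := by positivity
  have hDle : D1 ≤ cD κ R D1 t := by
    unfold cD
    rw [← hc, ← hC]
    have h1 : 1 * (D1 + c / t) ≤ 4 * C * (D1 + c / t) :=
      mul_le_mul_of_nonneg_right (by linarith) (by linarith)
    linarith
  have hR0 : 0 ≤ R := dist_nonneg.trans hx
  rcases (dist_nonneg (x := p) (y := x)).eq_or_lt with hx0 | hx0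
  · have e1 : p = x := dist_eq_zero.1 hx0.symm
    rw [← e1, dist_self, zero_sub, abs_neg, abs_of_nonneg dist_nonneg] at hΔ
    rw [← e1]
    exact hΔ.trans (mul_le_mul_of_nonneg_right hDle hzw0)
  rcases (dist_nonneg (x := p) (y := y)).eq_or_lt with hy0 | hy0
  · have e1 : p = y := dist_eq_zero.1 hy0.symm
    rw [← e1, dist_self, sub_zero, abs_of_nonneg dist_nonneg] at hΔ
    rw [← e1, dist_comm x p]
    exact hΔ.trans (mul_le_mul_of_nonneg_right hDle hzw0)
  have hG := two_side hA hz hw hp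
  have hxπ : √κ * dist p x < π := half_perim hp
  have hyπ : √κ * dist p y < π := by
    have h3 : √κ * (dist p y + dist p x + dist y x) < 2 * π := by
      rw [dist_comm y x]
      have e : dist p y + dist p x + dist x y = dist p x + dist p y + dist x y := by ring
      rw [e]; exact hp
    exact half_perim h3
  have hdπ : √κ * dist x y ≤ π := by
    have h1 : dist x y ≤ dist p x + dist p y := dist_triangle_left x y p
    have h2 : √κ * (2 * dist x y) ≤ √κ * (dist p x + dist p y + dist x y) :=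
      mul_le_mul_of_nonneg_left (by linarith) hsq
    linarith
  have habd : |dist p x - dist p y| ≤ dist x y := by
    rw [dist_comm p x, dist_comm p y]; exact abs_dist_sub_le x y p
  have hz0 : 0 < dist p z := (mul_pos ht hx0).trans_le htz
  have hw0 : 0 < dist p w := (mul_pos ht hy0).trans_le htw
  have hzx : dist p z ≤ dist p x := by linarith [dist_nonneg (x := z) (y := x)]
  have hwy : dist p w ≤ dist p y := by linarith [dist_nonneg (x := w) (y := y)]
  have sz : 0 < H616.sn κ (dist p z) :=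
    sn_pos hz0 fun _ => (mul_le_mul_of_nonneg_left hzx hsq).trans_lt hxπ
  have sw : 0 < H616.sn κ (dist p w) :=
    sn_pos hw0 fun _ => (mul_le_mul_of_nonneg_left hwy hsq).trans_lt hyπ
  have sx : 0 < H616.sn κ (dist p x) := sn_pos hx0 fun _ => hxπ
  have sy : 0 < H616.sn κ (dist p y) := sn_pos hy0 fun _ => hyπ
  have f1 : H616.sn κ (dist p x) ≤ c / t * H616.sn κ (dist p z) := by
    have := sn_frac hx0.le hx hxπ.le ht htz hzx
    rw [div_mul_eq_mul_div, le_div_iff₀ ht]
    rw [← hc] at this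
    linarith
  have f2 : H616.sn κ (dist p y) ≤ c / t * H616.sn κ (dist p w) := by
    have := sn_frac hy0.le hy hyπ.le ht htw hwy
    rw [div_mul_eq_mul_div, le_div_iff₀ ht]
    rw [← hc] at this
    linarith
  -- bounds
  have hm1 : H616.md κ (dist p x - dist p y) ≤ C * (D1 * dist z w) ^ 2 := by
    have h1 : |dist p x - dist p y| ≤ 2 * R := by
      rw [abs_le]; constructor <;> linarith [hx0, hy0]
    have h2 := (le_abs_self _).trans (md_le_sq (κ := κ) h1)
    refine h2.trans (mul_le_mul_of_nonneg_left ?_ (by linarith))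
    rw [← sq_abs (dist p x - dist p y)]
    exact pow_le_pow_left₀ (abs_nonneg _) hΔ 2
  have hm2 : H616.md κ (dist z w) ≤ C * dist z w ^ 2 := by
    refine (le_abs_self _).trans (md_le_sq ?_)
    rw [abs_of_nonneg hzw0]
    have := dist_triangle_left z w p
    linarith
  have hm3 := md_nonneg' κ (dist p z - dist p w)
  have hm4 : 0 ≤ H616.md κ (dist x y) - H616.md κ (dist p x - dist p y) := by
    rw [← md_abs κ (dist p x - dist p y)]
    have := md_mono (κ := κ) (abs_nonneg (dist p x - dist p y)) habd hdπ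
    linarith
  have h5 : H616.sn κ (dist p z) * H616.sn κ (dist p w)
      * (H616.md κ (dist x y) - H616.md κ (dist p x - dist p y))
      ≤ H616.sn κ (dist p z) * H616.sn κ (dist p w) * ((c / t) ^ 2 * H616.md κ (dist z w)) := by
    refine hG.trans ?_
    calc H616.sn κ (dist p x) * H616.sn κ (dist p y)
          * (H616.md κ (dist z w) - H616.md κ (dist p z - dist p w))
        ≤ H616.sn κ (dist p x) * H616.sn κ (dist p y) * H616.md κ (dist z w) :=
          mul_le_mul_of_nonneg_left (by linarith) (mul_pos sx sy).le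
      _ ≤ (c / t * H616.sn κ (dist p z)) * (c / t * H616.sn κ (dist p w))
          * H616.md κ (dist z w) := by
          refine mul_le_mul_of_nonneg_right ?_ (md_nonneg' _ _)
          exact mul_le_mul f1 f2 sy.le (mul_nonneg hct sz.le)
      _ = _ := by ring
  have h6 := le_of_mul_le_mul_left h5 (mul_pos sz sw)
  have h7 := md_lower (κ := κ) (dist_nonneg (x := x) (y := y)) hdπ
  have h8 : 2 / π ^ 2 * dist x y ^ 2 ≤ C * (D1 * dist z w) ^ 2
      + (c / t) ^ 2 * H616.md κ (dist z w) := by linarith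
  exact coarse_alg hC1 hD hct hzw0 dist_nonneg hm2 h8

/-- one step along `[z, x]` -/
theorem step_pt (hA : T.IsAlexandrov M κ) {p x z x' : M} {a b : ℝ} (hz : dist p z + dist z x = dist p x)
    (h1 : dist z x' = a * dist z x) (h2 : dist x' x = (1 - a) * dist z x) (hab : a ≤ b)
    (hb : b ≤ 1) : ∃ x'', dist x' x'' = (b - a) * dist z x ∧ dist z x'' = b * dist z x ∧
      dist x'' x = (1 - b) * dist z x ∧ dist p z + dist z x'' = dist p x'' ∧
      dist p x'' ≤ dist p x := by
  have hzx0 : 0 ≤ dist z x := dist_nonneg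
  obtain ⟨x'', a1, a2⟩ := hA.geodesic x' x ((b - a) * dist z x)
    ((1 - b) * dist z x) (mul_nonneg (by linarith) hzx0)
    (mul_nonneg (by linarith) hzx0) (by rw [h2]; ring)
  have t1 := dist_triangle z x' x''
  have t2 := dist_triangle z x'' x
  rw [h1, a1] at t1
  rw [a2] at t2
  have e1 : a * dist z x + (b - a) * dist z x = b * dist z x := by ring
  have e2 : (1 - b) * dist z x = dist z x - b * dist z x := by ring
  have c1 : dist z x'' = b * dist z x := by
    apply le_antisymm <;> linarith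
  have t3 := dist_triangle p z x''
  have t4 := dist_triangle p x'' x
  rw [a2] at t4
  have c2 : dist p z + dist z x'' = dist p x'' := by
    rw [c1] at t3 ⊢
    apply le_antisymm <;> linarith
  refine ⟨x'', a1, c1, a2, c2, ?_⟩
  rw [← c2, c1, ← hz]
  have := mul_le_of_le_one_left hzx0 hb
  linarith

theorem conv_abs {P s A B r D1 : ℝ} (hs0 : 0 ≤ s) (hs1 : s ≤ 1) (hP : P = (1 - s) * A + s * B)
    (hA : |A| ≤ r) (hB : |B| ≤ D1 * r) (hr : 0 ≤ r) (hD : 0 ≤ D1) : |P| ≤ (1 + D1) * r := by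
  rw [hP]
  calc |(1 - s) * A + s * B| ≤ |(1 - s) * A| + |s * B| := abs_add_le _ _
    _ = (1 - s) * |A| + s * |B| := by
        rw [abs_mul, abs_mul, abs_of_nonneg hs0, abs_of_nonneg (by linarith : 0 ≤ 1 - s)]
    _ ≤ 1 * r + 1 * (D1 * r) := add_le_add (mul_le_mul (by linarith) hA (abs_nonneg _) (by norm_num))
        (mul_le_mul hs1 hB (abs_nonneg _) (by norm_num))
    _ = _ := by ring

/-- **discrete continuity argument**, `0 < κ` -/
theorem close_chain (hA : T.IsAlexandrov M κ) (hk : 0 < κ) {R δ D1 t : ℝ} (hδ : 0 < δ)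
    (ht : 0 < t) (hD : 0 ≤ D1) :
    ∃ η > 0, ∀ p x y z w : M, dist p x ≤ R → dist p y ≤ R →
      √κ * (dist p x + δ) ≤ π → √κ * (dist p y + δ) ≤ π →
      dist p z + dist z x = dist p x → dist p w + dist w y = dist p y →
      t * dist p x ≤ dist p z → t * dist p y ≤ dist p w →
      |dist p x - dist p y| ≤ D1 * dist z w → dist z w < η → dist x y ≤ δ / 2 := by
  have hsq : 0 < √κ := Real.sqrt_pos.2 hk
  set D := cD κ R (1 + D1) t with hDD
  have hDpos : 0 < D := cD_pos (by linarith) ht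
  refine ⟨min (δ / 2) (δ / (2 * D)), lt_min (by positivity) (by positivity), ?_⟩
  intro p x y z w hxR hyR hx hy hz hw htz htw hΔ hη
  have hη1 : dist z w < δ / 2 := hη.trans_le (min_le_left _ _)
  have hη2 : dist z w < δ / (2 * D) := hη.trans_le (min_le_right _ _)
  obtain ⟨N, hN⟩ := exists_nat_gt ((dist z x + dist w y) / (δ / 2))
  have hN0 : (0 : ℝ) < N := lt_of_le_of_lt (by positivity) hN
  have hN1 : dist z x + dist w y ≤ N * (δ / 2) := by
    rw [div_lt_iff₀ (by positivity)] at hN; exact hN.le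
  have hzx0 : 0 ≤ dist z x := dist_nonneg
  have hwy0 : 0 ≤ dist w y := dist_nonneg
  have key : ∀ j : ℕ, j ≤ N → ∃ x' y' : M, dist z x' = j / N * dist z x ∧
      dist x' x = (1 - j / N) * dist z x ∧ dist w y' = j / N * dist w y ∧
      dist y' y = (1 - j / N) * dist w y ∧ dist x' y' ≤ δ / 2 := by
    intro j
    induction j with
    | zero =>
      intro _
      exact ⟨z, w, by simp, by simp, by simp, by simp, hη1.le⟩
    | succ j ih =>
      intro hj
      obtain ⟨x', y', h1, h2, h3, h4, h5⟩ := ih (by omega)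
      have hjN : ((j + 1 : ℕ) : ℝ) ≤ N := by exact_mod_cast hj
      have hj1 : ((j + 1 : ℕ) : ℝ) / N ≤ 1 := (div_le_one hN0).2 hjN
      have ej : ((j + 1 : ℕ) : ℝ) / N - (j : ℝ) / N = 1 / N := by push_cast; ring
      have h1N : 0 < 1 / (N : ℝ) := by positivity
      have hjj : (j : ℝ) / N ≤ ((j + 1 : ℕ) : ℝ) / N := by linarith
      have hs0 : 0 ≤ ((j + 1 : ℕ) : ℝ) / N := by positivity
      obtain ⟨x'', a1, c1, a2, e1, g1⟩ := step_pt hA hz h1 h2 hjj hj1
      obtain ⟨y'', b1, c2, b2, e2, g2⟩ := step_pt hA hw h3 h4 hjj hj1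
      rw [ej] at a1 b1
      refine ⟨x'', y'', c1, a2, c2, b2, ?_⟩
      -- the perimeter
      have d1 : dist x'' y'' ≤ δ := by
        have t1 := dist_triangle x'' x' y''
        have t2 := dist_triangle x' y' y''
        rw [dist_comm x'' x', a1] at t1
        rw [b1] at t2
        have : 1 / (N : ℝ) * dist z x + 1 / N * dist w y ≤ δ / 2 := by
          rw [← mul_add, one_div, inv_mul_le_iff₀ hN0]; exact hN1
        linarith
      have hper : √κ * (dist p x'' + dist p y'' + dist x'' y'') < 2 * π := by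
        have h6 : √κ * (dist p x'' + dist p y'' + dist x'' y'')
            ≤ √κ * (dist p x + dist p y + δ) := mul_le_mul_of_nonneg_left (by linarith) hsq.le
        have h7 : 0 < √κ * δ := by positivity
        have h8 : √κ * (dist p x + dist p y + δ)
          = √κ * (dist p x + δ) + √κ * (dist p y + δ) - √κ * δ := by ring
        linarith
      have hΔ' : |dist p x'' - dist p y''| ≤ (1 + D1) * dist z w := by
        have hzw : |dist p z - dist p w| ≤ dist z w := by
          rw [dist_comm p z, dist_comm p w]; exact abs_dist_sub_le z w p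
        refine conv_abs hs0 hj1 ?_ hzw hΔ dist_nonneg hD
        · rw [← e1, ← e2, c1, c2, ← hz, ← hw]; ring
      have hco := coarse_md hA ht (by linarith : 0 ≤ 1 + D1) hper (g1.trans hxR) (g2.trans hyR)
        e1 e2 ((mul_le_mul_of_nonneg_left g1 ht.le).trans htz)
        ((mul_le_mul_of_nonneg_left g2 ht.le).trans htw) hΔ'
      rw [← hDD] at hco
      calc dist x'' y'' ≤ D * dist z w := hco
        _ ≤ D * (δ / (2 * D)) := mul_le_mul_of_nonneg_left hη2.le hDpos.le
        _ = δ / 2 := by field_simp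
  obtain ⟨x', y', h1, h2, h3, h4, h5⟩ := key N le_rfl
  rw [div_self hN0.ne', sub_self, zero_mul] at h2 h4
  rw [dist_eq_zero.1 h2, dist_eq_zero.1 h4] at h5
  exact h5

end metric

end Vale.Agent.P233.H715.RG
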