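import Vale.Agent.P233.H715.CDSub
import Vale.Agent.P233.H715.RG4

/-! P233, stage 3a, pointwise inequality (helper715): geometry at an intermediate point, part 1. -/

set_option linter.all false

open MeasureTheory Filter Topology Set Metric
open scoped ENNReal NNReal MeasureTheory RealInnerProductSpace

universe u

namespace Vale.Agent.P233.CDc

open Vale.Agent.P233.RG

/-! ### model functions -/

theorem md_cont (κ : ℝ) : Continuous (md κ) := by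
  have : md κ = H616.md κ := funext fun t => (H616.md_eq κ t).symm
  rw [this]; exact H616.continuous_md κ

theorem md_deriv (κ t : ℝ) : HasDerivAt (md κ) (sn κ t) t := by
  have : md κ = H616.md κ := funext fun t => (H616.md_eq κ t).symm
  rw [this]; exact H616.hasDerivAt_md κ t

theorem md_sum (κ a b : ℝ) : md κ (a + b) - md κ (a - b) = 2 * (sn κ a * sn κ b) := by
  have h1 := H616.md_sub κ a b
  have h2 := H616.md_sub κ a (-b)
  rw [sub_neg_eq_add, H616.md_neg, H616.sn_neg] at h2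
  rw [← H616.md_eq, ← H616.md_eq, ← H616.sn_eq, ← H616.sn_eq]
  linarith

theorem sn_ct (κ a b : ℝ) : sn κ (a + b) = sn κ a * cs κ b + cs κ a * sn κ b :=
  H616.sn_add κ a b

/-- the constants -/
structure Cn (κ s θ τ l m C : ℝ) : Prop where
  s_pos : 0 < s
  s_lt : s < 1
  θ_pos : 0 < θ
  τ_pos : 0 < τ
  l_pos : 0 < l
  la : l ≤ s * θ - τ
  lb : l ≤ (1 - s) * θ - τ
  hπ : √κ * (θ + 2 * τ) < Real.pi
  m_pos : 0 < m
  C_ge : 1 ≤ C
  sn_ge : ∀ t ∈ Icc l (θ + 2 * τ), m ≤ sn κ t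
  sn_le : ∀ t ∈ Icc 0 (θ + 2 * τ), |sn κ t| ≤ C
  cs_le : ∀ t ∈ Icc 0 (θ + 2 * τ), |cs κ t| ≤ C

theorem exists_cn {κ s θ : ℝ} (hs0 : 0 < s) (hs1 : s < 1) (hθ : 0 < θ) (hπ : √κ * θ < Real.pi) :
    ∃ τ l m C, Cn κ s θ τ l m C := by
  have hsq : 0 ≤ √κ := Real.sqrt_nonneg _
  have ha : 0 < s * θ := by positivity
  have hb : 0 < (1 - s) * θ := mul_pos (by linarith) hθ
  obtain ⟨τ, hτ0, hτa, hτb, hτπ⟩ : ∃ τ > 0, τ ≤ s * θ / 2 ∧ τ ≤ (1 - s) * θ / 2 ∧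
      √κ * (θ + 2 * τ) < Real.pi := by
    have h1 : ∀ᶠ τ : ℝ in 𝓝[>] 0, √κ * (θ + 2 * τ) < Real.pi := by
      have hc : Continuous fun τ : ℝ => √κ * (θ + 2 * τ) := by fun_prop
      have h2 : Tendsto (fun τ : ℝ => √κ * (θ + 2 * τ)) (𝓝[>] 0) (𝓝 (√κ * (θ + 2 * 0))) :=
        (hc.tendsto 0).mono_left nhdsWithin_le_nhds
      exact h2.eventually_lt_const (by simpa using hπ)
    have h2 : ∀ᶠ τ : ℝ in 𝓝[>] 0, τ < s * θ / 2 :=
      (eventually_lt_nhds (by positivity)).filter_mono nhdsWithin_le_nhds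
    have h3 : ∀ᶠ τ : ℝ in 𝓝[>] 0, τ < (1 - s) * θ / 2 :=
      (eventually_lt_nhds (by positivity)).filter_mono nhdsWithin_le_nhds
    obtain ⟨τ, ⟨⟨a1, a2⟩, a3⟩, a4⟩ :=
      (((h1.and h2).and h3).and (self_mem_nhdsWithin)).exists
    exact ⟨τ, a4, a2.le, a3.le, a1⟩
  set l := min (s * θ / 2) ((1 - s) * θ / 2) with hl
  have hl0 : 0 < l := lt_min (by positivity) (by positivity)
  have hla : l ≤ s * θ / 2 := min_le_left _ _
  have hlb : l ≤ (1 - s) * θ / 2 := min_le_right _ _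
  set T := θ + 2 * τ with hT
  have hsth : s * θ ≤ θ := mul_le_of_le_one_left hθ.le hs1.le
  have hlT : l ≤ T := by rw [hT]; linarith
  obtain ⟨t₀, ht₀, hmin⟩ := isCompact_Icc.exists_isMinOn (nonempty_Icc.2 hlT)
    (H616.continuous_sn κ).continuousOn
  refine ⟨τ, l, sn κ t₀, Real.cosh (√|κ| * T) * (T + 1), hs0, hs1, hθ, hτ0, hl0, by linarith,
    by linarith, hτπ, ?_, ?_, ?_, ?_, ?_⟩
  · exact H616.sn_pos (hl0.trans_le ht₀.1) fun _ =>
      (mul_le_mul_of_nonneg_left ht₀.2 hsq).trans_lt hτπ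
  · have h1 := Real.one_le_cosh (√|κ| * T)
    have h2 : 1 ≤ T + 1 := by rw [hT]; linarith
    nlinarith
  · exact fun t ht => isMinOn_iff.1 hmin t ht
  · intro t ht
    have h1 : |sn κ t| ≤ Real.cosh (√|κ| * T) * |t| :=
      H715.RG.abs_sn_le (by rw [abs_of_nonneg ht.1]; exact ht.2)
    refine h1.trans (mul_le_mul_of_nonneg_left ?_ (Real.cosh_pos _).le)
    rw [abs_of_nonneg ht.1]; linarith [ht.2]
  · intro t ht
    have h1 : |cs κ t| ≤ Real.cosh (√|κ| * T) :=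
      H715.RG.abs_cs_le (by rw [abs_of_nonneg ht.1]; exact ht.2)
    have h2 : 1 ≤ T + 1 := by rw [hT]; linarith
    calc |cs κ t| ≤ Real.cosh (√|κ| * T) * 1 := by linarith
      _ ≤ _ := mul_le_mul_of_nonneg_left h2 (Real.cosh_pos _).le

/-- `a ct a` -/
noncomputable def Gc (κ a : ℝ) : ℝ := a * cs κ a / sn κ a

theorem Cn.Gc_le {κ s θ τ l m C : ℝ} (h : Cn κ s θ τ l m C) {a : ℝ}
    (ha : a ∈ Icc l (θ + 2 * τ)) : |Gc κ a| ≤ (θ + 2 * τ) * C / m := by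
  have ha0 : 0 ≤ a := h.l_pos.le.trans ha.1
  have h1 := h.sn_ge a ha
  have h2 := h.cs_le a ⟨ha0, ha.2⟩
  have hsn : 0 < sn κ a := h.m_pos.trans_le h1
  unfold Gc
  rw [abs_div, abs_mul, abs_of_nonneg ha0, abs_of_pos hsn]
  refine div_le_div₀ ?_ (mul_le_mul ha.2 h2 (abs_nonneg _) ?_) h.m_pos h1
  · have := h.θ_pos; have := h.τ_pos; have := h.C_ge; positivity
  · have := h.θ_pos; have := h.τ_pos; positivity

/-- from the excess to the direction -/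
theorem Cn.dir {κ s θ τ l m C : ℝ} (h : Cn κ s θ τ l m C) {α b d c : ℝ}
    (hα : l ≤ α) (hb : l ≤ b) (hαb : α + b ≤ θ + 2 * τ) (hd0 : 0 ≤ d) (hd : d ≤ α + b)
    (hc : -1 ≤ c)
    (hh : md κ d ≤ md κ (α - b) + sn κ α * sn κ b * (1 - c)) :
    1 + c ≤ C / m ^ 2 * (α + b - d) := by
  have hl := h.l_pos
  have hα' : α ∈ Icc l (θ + 2 * τ) := ⟨hα, by linarith⟩
  have hb' : b ∈ Icc l (θ + 2 * τ) := ⟨hb, by linarith⟩
  have s1 := h.sn_ge α hα'
  have s2 := h.sn_ge b hb'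
  have hm := h.m_pos
  have h1 : sn κ α * sn κ b * (1 + c) ≤ md κ (α + b) - md κ d := by
    have := md_sum κ α b
    nlinarith
  have h2 : md κ (α + b) - md κ d ≤ C * (α + b - d) := by
    have h3 := (convex_Icc 0 (θ + 2 * τ)).norm_image_sub_le_of_norm_hasDerivWithin_le
      (f := md κ) (f' := sn κ) (C := C) (fun x _ => (md_deriv κ x).hasDerivWithinAt)
      (fun x hx => by rw [Real.norm_eq_abs]; exact h.sn_le x hx) (x := d) (y := α + b)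
      ⟨hd0, hd.trans hαb⟩ ⟨by linarith, hαb⟩
    rw [Real.norm_eq_abs, Real.norm_eq_abs, abs_of_nonneg (a := α + b - d) (by linarith)] at h3
    exact (le_abs_self _).trans h3
  have h4 : m ^ 2 * (1 + c) ≤ sn κ α * sn κ b * (1 + c) := by
    refine mul_le_mul_of_nonneg_right ?_ (by linarith)
    rw [sq]; exact mul_le_mul s1 s2 hm.le (hm.le.trans s1)
  rw [div_mul_eq_mul_div, le_div_iff₀ (by positivity)]
  linarith

/-! ### vectors -/

theorem norm_add_sq_unit {n : ℕ} {x e : E n} (hx : ‖x‖ = 1) (he : ‖e‖ = 1) :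
    ‖x + e‖ ^ 2 = 2 * (1 + ⟪x, e⟫) := by
  rw [norm_add_sq_real, hx, he]; ring

theorem inner_unit {n : ℕ} {x v : E n} (hx : ‖x‖ = 1) : |⟪x, v⟫| ≤ ‖v‖ := by
  have := abs_real_inner_le_norm x v
  rwa [hx, one_mul] at this

theorem inner_sq_diff {n : ℕ} {x e v : E n} (hx : ‖x‖ = 1) (he : ‖e‖ = 1) :
    |⟪x, v⟫ ^ 2 - ⟪e, v⟫ ^ 2| ≤ 2 * ‖x + e‖ * ‖v‖ ^ 2 := by
  have e1 : ⟪x, v⟫ ^ 2 - ⟪e, v⟫ ^ 2 = ⟪x + e, v⟫ * ⟪x - e, v⟫ := by
    rw [inner_add_left, inner_sub_left]; ring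
  have h1 := abs_real_inner_le_norm (x + e) v
  have h2 := abs_real_inner_le_norm (x - e) v
  have h3 : ‖x - e‖ ≤ 2 := (norm_sub_le x e).trans (by rw [hx, he]; norm_num)
  rw [e1, abs_mul]
  calc |⟪x + e, v⟫| * |⟪x - e, v⟫| ≤ (‖x + e‖ * ‖v‖) * (‖x - e‖ * ‖v‖) :=
        mul_le_mul h1 h2 (abs_nonneg _) (by positivity)
    _ ≤ (‖x + e‖ * ‖v‖) * (2 * ‖v‖) := by gcongr
    _ = _ := by ring

/-- the radial quadratic form -/
noncomputable def QQ {n : ℕ} (D1 D2 : ℝ) (e v : E n) : ℝ :=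
  D1 * ⟪e, v⟫ ^ 2 + D2 * (‖v‖ ^ 2 - ⟪e, v⟫ ^ 2)

end Vale.Agent.P233.CDc
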