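import Vale.Agent.P233.H715.CDPEa

/-! P233, stage 3a, pointwise inequality (helper715): geometry at an intermediate point, part 2. -/

set_option linter.all false

open MeasureTheory Filter Topology Set Metric
open scoped ENNReal NNReal MeasureTheory RealInnerProductSpace

universe u

namespace Vale.Agent.P233.CDc

open Vale.Agent.P233.RG

section

variable {M : Type u} [MetricSpace M]

/-- geometric part of the data at `z` -/
structure PtG (κ : ℝ) (n : ℕ) (s : ℝ) (z : M) (L : M → E n) (S : Set M) (X Y : M → M)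
    (u u' : M → ℝ) : Prop where
  s_pos : 0 < s
  s_lt : s < 1
  lg : Lg κ n z L
  zS : z ∈ S
  pos : 0 < dist (X z) (Y z)
  lt : √κ * dist (X z) (Y z) < Real.pi
  gx : ∀ w ∈ S, dist (X w) w = s * dist (X w) (Y w)
  gy : ∀ w ∈ S, dist w (Y w) = (1 - s) * dist (X w) (Y w)
  mono : ∀ w ∈ S, ∀ w' ∈ S, u w + u' w' ≤ dist (X w) (Y w') ^ 2 / 2
  eq : ∀ w ∈ S, u w + u' w = dist (X w) (Y w) ^ 2 / 2
  lip : ∃ C : ℝ, ∀ w ∈ S, dist z w ≤ 1 → dist (X z) (X w) ≤ C * dist z w ∧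
    dist (Y z) (Y w) ≤ C * dist z w

/-- `a(w)`, not normalised -/
noncomputable def ka (s : ℝ) (z : M) (X : M → M) (u : M → ℝ) (w : M) : ℝ :=
  dist (X w) z ^ 2 / (2 * s) - u w - (dist (X z) z ^ 2 / (2 * s) - u z)

/-- `b(w)`, not normalised -/
noncomputable def kb (s : ℝ) (z : M) (Y : M → M) (u' : M → ℝ) (w : M) : ℝ :=
  dist z (Y w) ^ 2 / (2 * (1 - s)) - u' w - (dist z (Y z) ^ 2 / (2 * (1 - s)) - u' z)

theorem two_sq {s α β : ℝ} (hs0 : 0 < s) (hs1 : s < 1) :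
    (α + β) ^ 2 / 2 ≤ α ^ 2 / (2 * s) + β ^ 2 / (2 * (1 - s)) := by
  have h1 : 0 < 1 - s := by linarith
  rw [div_add_div _ _ (by positivity) (by positivity), div_le_div_iff₀ (by norm_num) (by positivity)]
  nlinarith [sq_nonneg ((1 - s) * α - s * β)]

variable {κ s : ℝ} {n : ℕ} {z : M} {L : M → E n} {S : Set M} {X Y : M → M} {u u' : M → ℝ}

theorem PtG.kz (h : PtG κ n s z L S X Y u u') :
    dist (X z) z ^ 2 / (2 * s) - u z + (dist z (Y z) ^ 2 / (2 * (1 - s)) - u' z) = 0 := by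
  have h1 := h.gx z h.zS
  have h2 := h.gy z h.zS
  have h3 := h.eq z h.zS
  have hs := h.s_pos
  have hs' : 0 < 1 - s := by linarith [h.s_lt]
  rw [h1, h2]
  have e1 : (s * dist (X z) (Y z)) ^ 2 / (2 * s) = s * dist (X z) (Y z) ^ 2 / 2 := by field_simp
  have e2 : ((1 - s) * dist (X z) (Y z)) ^ 2 / (2 * (1 - s))
      = (1 - s) * dist (X z) (Y z) ^ 2 / 2 := by field_simp
  rw [e1, e2]
  linarith

theorem PtG.ka_excess (h : PtG κ n s z L S X Y u u') {w : M} (hw : w ∈ S) :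
    ((dist (X w) z + dist z (Y z)) ^ 2 - dist (X w) (Y z) ^ 2) / 2 ≤ ka s z X u w := by
  have h1 := h.kz
  have h2 := h.mono w hw z h.zS
  have h3 := two_sq (α := dist (X w) z) (β := dist z (Y z)) h.s_pos h.s_lt
  unfold ka
  linarith

theorem PtG.kb_excess (h : PtG κ n s z L S X Y u u') {w : M} (hw : w ∈ S) :
    ((dist (X z) z + dist z (Y w)) ^ 2 - dist (X z) (Y w) ^ 2) / 2 ≤ kb s z Y u' w := by
  have h1 := h.kz
  have h2 := h.mono z h.zS w hw
  have h3 := two_sq (α := dist (X z) z) (β := dist z (Y w)) h.s_pos h.s_lt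
  unfold kb
  linarith

theorem PtG.ka_nonneg (h : PtG κ n s z L S X Y u u') {w : M} (hw : w ∈ S) :
    0 ≤ ka s z X u w := by
  refine le_trans ?_ (h.ka_excess hw)
  have h1 := pow_le_pow_left₀ dist_nonneg (dist_triangle (X w) z (Y z)) 2
  linarith

theorem PtG.kb_nonneg (h : PtG κ n s z L S X Y u u') {w : M} (hw : w ∈ S) :
    0 ≤ kb s z Y u' w := by
  refine le_trans ?_ (h.kb_excess hw)
  have h1 := pow_le_pow_left₀ dist_nonneg (dist_triangle (X z) z (Y w)) 2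
  linarith

theorem PtG.sum_eq (h : PtG κ n s z L S X Y u u') {w : M} (hw : w ∈ S) :
    ka s z X u w + kb s z Y u' w = dist (X w) z ^ 2 / (2 * s) + dist z (Y w) ^ 2 / (2 * (1 - s))
      - dist (X w) (Y w) ^ 2 / 2 := by
  have h1 := h.kz
  have h2 := h.eq w hw
  unfold ka kb
  linarith

/-- the difference of the two potentials with different points -/
theorem PtG.cross (h : PtG κ n s z L S X Y u u') {w w' : M} (hw : w ∈ S) (hw' : w' ∈ S) (v : M) :
    dist (X w) z ^ 2 / (2 * s) + dist z (Y w') ^ 2 / (2 * (1 - s)) ≤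
      ka s z X u w + kb s z Y u' w' + dist (X w) v ^ 2 / (2 * s)
        + dist v (Y w') ^ 2 / (2 * (1 - s)) := by
  have h1 := h.kz
  have h2 := h.mono w hw w' hw'
  have h3 := two_sq (α := dist (X w) v) (β := dist v (Y w')) h.s_pos h.s_lt
  have h4 := pow_le_pow_left₀ dist_nonneg (dist_triangle (X w) v (Y w')) 2
  unfold ka kb
  linarith

/-! ### uniform estimates near `z` -/

/-- the uniform estimates, at the point `w` -/
structure Est (κ s : ℝ) (z : M) (L : M → E n) (X Y : M → M) (u u' : M → ℝ) (l T K : ℝ) (e : E n)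
    (w : M) : Prop where
  θ_near : |dist (X w) (Y w) - dist (X z) (Y z)| ≤ K * dist z w
  α_near : |dist z (X w) - dist z (X z)| ≤ K * dist z w
  β_near : |dist z (Y w) - dist z (Y z)| ≤ K * dist z w
  α_mem : dist z (X w) ∈ Icc l T
  β_mem : dist z (Y w) ∈ Icc l T
  a_le : ka s z X u w ≤ K * dist z w ^ 2
  b_le : kb s z Y u' w ≤ K * dist z w ^ 2
  dx : ‖(dist z (X w))⁻¹ • L (X w) + e‖ ≤ K * dist z w
  dy : ‖(dist z (Y w))⁻¹ • L (Y w) - e‖ ≤ K * dist z w
  δx : |(dist z (X w) - s * dist (X w) (Y w)) + ⟪e, L w⟫| ≤ K * dist z w ^ 2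
  sharp : ka s z X u w + kb s z Y u' w ≤
    (1 / (s * (1 - s)) * ⟪e, L w⟫ ^ 2
      + dist (X w) (Y w) * sn κ (dist (X w) (Y w))
        / (sn κ (s * dist (X w) (Y w)) * sn κ ((1 - s) * dist (X w) (Y w)))
        * (‖L w‖ ^ 2 - ⟪e, L w⟫ ^ 2)) / 2 + K * dist z w ^ 3

end

end Vale.Agent.P233.CDc
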