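import Vale.Agent.P233.H715.CDPEb

/-! P233, stage 3a, pointwise inequality (helper715): geometry at an intermediate point, part 3. -/

set_option linter.all false

open MeasureTheory Filter Topology Set Metric
open scoped ENNReal NNReal MeasureTheory RealInnerProductSpace

universe u

namespace Vale.Agent.P233.CDc

open Vale.Agent.P233.RG

/-! ### real lemmas -/

theorem crude_sum {A B B0 δ ρ K1 S : ℝ} (hA : 0 ≤ A) (hB : 0 ≤ B) (hB0 : B ≤ B0) (hK : 0 ≤ K1)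
    (hρ0 : 0 ≤ ρ) (hρ1 : ρ ≤ 1) (hδ : |δ| ≤ ρ)
    (h : S ≤ (A * δ ^ 2 + B * (ρ ^ 2 - δ ^ 2)) / 2 + K1 * ρ ^ 3) :
    S ≤ (A + B0 + K1) * ρ ^ 2 := by
  have h1 : δ ^ 2 ≤ ρ ^ 2 := by
    rw [← sq_abs δ]; exact pow_le_pow_left₀ (abs_nonneg _) hδ 2
  have h2 : A * δ ^ 2 ≤ A * ρ ^ 2 := mul_le_mul_of_nonneg_left h1 hA
  have h3 : B * (ρ ^ 2 - δ ^ 2) ≤ B0 * ρ ^ 2 := by
    calc B * (ρ ^ 2 - δ ^ 2) ≤ B * ρ ^ 2 := mul_le_mul_of_nonneg_left (by linarith [sq_nonneg δ]) hB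
      _ ≤ B0 * ρ ^ 2 := mul_le_mul_of_nonneg_right hB0 (sq_nonneg _)
  have h4 : K1 * ρ ^ 3 ≤ K1 * ρ ^ 2 := by
    refine mul_le_mul_of_nonneg_left ?_ hK
    calc ρ ^ 3 = ρ * ρ ^ 2 := by ring
      _ ≤ 1 * ρ ^ 2 := mul_le_mul_of_nonneg_right hρ1 (sq_nonneg _)
      _ = ρ ^ 2 := one_mul _
  have h5 : 0 ≤ A * ρ ^ 2 := by positivity
  have h6 : 0 ≤ B0 * ρ ^ 2 := mul_nonneg (hB.trans hB0) (sq_nonneg _)
  linarith

theorem first_order {α D ρ c G CG K l ip : ℝ} (hl : 0 < l) (hα : l ≤ α) (hρ0 : 0 ≤ ρ)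
    (hρ1 : ρ ≤ 1) (hc : c ∈ Icc (-1 : ℝ) 1) (hG : |G| ≤ CG) (hK : 0 ≤ K) (hip : α * ρ * c = α * ip)
    (h : D ^ 2 / 2 ≤ α ^ 2 / 2 - α * ρ * c + ρ ^ 2 / 2 * (c ^ 2 + (1 - c ^ 2) * G) + K * ρ ^ 3) :
    ip - (1 + CG + K) / l * ρ ^ 2 ≤ α - D := by
  have hα0 : 0 < α := hl.trans_le hα
  have hc2 : c ^ 2 ≤ 1 := by
    have := abs_le.2 hc
    rw [← sq_abs]; exact pow_le_one₀ (abs_nonneg _) this
  have hG0 : 0 ≤ CG := (abs_nonneg _).trans hG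
  have h1 : c ^ 2 + (1 - c ^ 2) * G ≤ 1 + CG := by
    have h2 : (1 - c ^ 2) * G ≤ (1 - c ^ 2) * CG :=
      mul_le_mul_of_nonneg_left ((le_abs_self _).trans hG) (by linarith)
    have h3 : 0 ≤ c ^ 2 * CG := by positivity
    have e : (1 - c ^ 2) * CG = CG - c ^ 2 * CG := by ring
    linarith
  have h2 : ρ ^ 2 / 2 * (c ^ 2 + (1 - c ^ 2) * G) ≤ (1 + CG) * ρ ^ 2 := by
    have h3 := mul_le_mul_of_nonneg_left h1 (by positivity : 0 ≤ ρ ^ 2 / 2)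
    have h4 : 0 ≤ (1 + CG) * ρ ^ 2 := by positivity
    linarith
  have h4 : K * ρ ^ 3 ≤ K * ρ ^ 2 := by
    refine mul_le_mul_of_nonneg_left ?_ hK
    calc ρ ^ 3 = ρ * ρ ^ 2 := by ring
      _ ≤ 1 * ρ ^ 2 := mul_le_mul_of_nonneg_right hρ1 (sq_nonneg _)
      _ = ρ ^ 2 := one_mul _
  have h5 : α * (D - α + ip) ≤ (1 + CG + K) * ρ ^ 2 := by
    have h6 := sq_nonneg (D - α)
    have e : D ^ 2 / 2 = α ^ 2 / 2 + α * (D - α) + (D - α) ^ 2 / 2 := by ring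
    have e2 : (1 + CG + K) * ρ ^ 2 = (1 + CG) * ρ ^ 2 + K * ρ ^ 2 := by ring
    rw [hip, e] at h
    rw [e2]
    linarith
  have h6 : D - α + ip ≤ (1 + CG + K) / l * ρ ^ 2 := by
    have h7 : 0 ≤ (1 + CG + K) * ρ ^ 2 := by positivity
    rw [div_mul_eq_mul_div, le_div_iff₀ hl]
    rcases le_or_gt (D - α + ip) 0 with h8 | h8
    · have : (D - α + ip) * l ≤ 0 := mul_nonpos_of_nonpos_of_nonneg h8 hl.le
      linarith
    · have : (D - α + ip) * l ≤ (D - α + ip) * α := mul_le_mul_of_nonneg_left hα h8.le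
      linarith
  linarith

theorem swap_sq {A B B0 δ t ρ k K1 S : ℝ} (hA : 0 ≤ A) (hB : 0 ≤ B) (hB0 : B ≤ B0)
    (hρ0 : 0 ≤ ρ) (hδ : |δ| ≤ ρ) (ht : |t| ≤ ρ) (hk : 0 ≤ k)
    (hδt : |δ + t| ≤ k * ρ ^ 2)
    (h : S ≤ (A * δ ^ 2 + B * (ρ ^ 2 - δ ^ 2)) / 2 + K1 * ρ ^ 3) :
    S ≤ (A * t ^ 2 + B * (ρ ^ 2 - t ^ 2)) / 2 + (K1 + (A + B0) * k) * ρ ^ 3 := by
  have h1 : |δ ^ 2 - t ^ 2| ≤ 2 * (k * ρ ^ 3) := by
    have e : δ ^ 2 - t ^ 2 = (δ + t) * (δ - t) := by ring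
    have h2 : |δ - t| ≤ 2 * ρ := (abs_sub _ _).trans (by linarith)
    rw [e, abs_mul]
    calc |δ + t| * |δ - t| ≤ (k * ρ ^ 2) * (2 * ρ) :=
          mul_le_mul hδt h2 (abs_nonneg _) (by positivity)
      _ = _ := by ring
  have h2 : (A - B) * (δ ^ 2 - t ^ 2) ≤ (A + B0) * (2 * (k * ρ ^ 3)) := by
    refine (le_abs_self _).trans ?_
    rw [abs_mul]
    refine mul_le_mul ?_ h1 (abs_nonneg _) (by linarith)
    rw [abs_le]; constructor <;> linarith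
  have e : A * δ ^ 2 + B * (ρ ^ 2 - δ ^ 2)
      = A * t ^ 2 + B * (ρ ^ 2 - t ^ 2) + (A - B) * (δ ^ 2 - t ^ 2) := by ring
  rw [e] at h
  have e2 : (K1 + (A + B0) * k) * ρ ^ 3 = K1 * ρ ^ 3 + (A + B0) * (2 * (k * ρ ^ 3)) / 2 := by ring
  rw [e2]
  linarith

theorem norm_le_of_sq {n : ℕ} {x : E n} {k ρ : ℝ} (hk : 0 ≤ k) (hρ : 0 ≤ ρ)
    (h : ‖x‖ ^ 2 ≤ k * ρ ^ 2) : ‖x‖ ≤ √k * ρ := by
  have h1 : ‖x‖ ^ 2 ≤ (√k * ρ) ^ 2 := by rw [mul_pow, Real.sq_sqrt hk]; exact h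
  exact (abs_le_of_sq_le_sq' h1 (by positivity)).2

section

variable {M : Type u} [MetricSpace M]
variable {κ s : ℝ} {n : ℕ} {z : M} {L : M → E n} {S : Set M} {X Y : M → M} {u u' : M → ℝ}

theorem Lg.unit {κ : ℝ} {n : ℕ} {z : M} {L : M → E n} (h : Lg κ n z L) {x : M}
    (hx : 0 < dist z x) : ‖(dist z x)⁻¹ • L x‖ = 1 := by
  rw [norm_smul, h.norm, Real.norm_eq_abs, abs_of_pos (inv_pos.2 hx), inv_mul_cancel₀ hx.ne']

theorem Lg.cos_eq {κ : ℝ} {n : ℕ} {z : M} {L : M → E n} (_h : Lg κ n z L) (x v : M) :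
    ⟪L x, L v⟫ / (dist z x * dist z v) = ⟪(dist z x)⁻¹ • L x, (dist z v)⁻¹ • L v⟫ := by
  rw [inner_smul_left, inner_smul_right]
  simp only [conj_trivial]
  rw [div_eq_mul_inv, mul_inv]; ring

theorem Lg.cos_mem {κ : ℝ} {n : ℕ} {z : M} {L : M → E n} (h : Lg κ n z L) (x v : M) :
    ⟪L x, L v⟫ / (dist z x * dist z v) ∈ Icc (-1 : ℝ) 1 := by
  have h1 := abs_real_inner_le_norm (L x) (L v)
  rw [h.norm, h.norm] at h1
  have h2 : 0 ≤ dist z x * dist z v := by positivity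
  refine abs_le.1 ?_
  rw [abs_div, abs_of_nonneg h2]
  exact div_le_one_of_le₀ h1 h2

/-- `e`, the direction of `Y z` -/
noncomputable def ee (z : M) (L : M → E n) (Y : M → M) : E n := (dist z (Y z))⁻¹ • L (Y z)

theorem PtG.za (h : PtG κ n s z L S X Y u u') : dist z (X z) = s * dist (X z) (Y z) := by
  rw [dist_comm]; exact h.gx z h.zS

theorem PtG.zb (h : PtG κ n s z L S X Y u u') : dist z (Y z) = (1 - s) * dist (X z) (Y z) :=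
  h.gy z h.zS

theorem PtG.norm_e (h : PtG κ n s z L S X Y u u') : ‖ee z L Y‖ = 1 := by
  refine h.lg.unit ?_
  rw [h.zb]
  exact mul_pos (by linarith [h.s_lt]) h.pos

theorem PtG.ex (h : PtG κ n s z L S X Y u u') : (dist z (X z))⁻¹ • L (X z) = -ee z L Y := by
  have hs := h.s_pos
  have hs' : 0 < 1 - s := by linarith [h.s_lt]
  have ha : 0 < dist z (X z) := by rw [h.za]; exact mul_pos hs h.pos
  have hb : 0 < dist z (Y z) := by rw [h.zb]; exact mul_pos hs' h.pos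
  have h1 := h.lg.opp (X z) (Y z) (by rw [dist_comm (X z) z, h.za, h.zb]; ring)
  unfold ee
  calc (dist z (X z))⁻¹ • L (X z)
      = ((dist z (X z))⁻¹ * (dist z (Y z))⁻¹) • (dist z (Y z) • L (X z)) := by
        rw [smul_smul]; congr 1; field_simp
    _ = ((dist z (X z))⁻¹ * (dist z (Y z))⁻¹) • (-(dist z (X z) • L (Y z))) := by rw [h1]
    _ = -((dist z (Y z))⁻¹ • L (Y z)) := by
        rw [smul_neg, smul_smul]; congr 2; field_simp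

/-- first order hinge at `z` towards `x`, for the point `w` -/
theorem Lg.first (hL : Lg κ n z L) {K₂ ρ₀ l T : ℝ} (hl : 0 < l)
    (hHS : ∀ a ∈ Icc l T, ∀ ρ ∈ Icc 0 ρ₀, ∀ c ∈ Icc (-1 : ℝ) 1, ∀ D : ℝ, |D - a| ≤ ρ →
      md κ D ≤ md κ (a - ρ) + sn κ a * sn κ ρ * (1 - c) →
      D ^ 2 / 2 ≤ a ^ 2 / 2 - a * ρ * c
        + ρ ^ 2 / 2 * (c ^ 2 + (1 - c ^ 2) * (a * cs κ a / sn κ a)) + K₂ * ρ ^ 3)
    (hK₂ : 0 ≤ K₂) {CG : ℝ} (hG : ∀ a ∈ Icc l T, |Gc κ a| ≤ CG) {x w : M}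
    (hx : dist z x ∈ Icc l T) (hw : dist z w ≤ ρ₀) (hw1 : dist z w ≤ 1)
    (hp : √κ * (dist z x + dist z w + dist x w) < 2 * Real.pi) :
    ⟪(dist z x)⁻¹ • L x, L w⟫ - (1 + CG + K₂) / l * dist z w ^ 2 ≤ dist z x - dist x w := by
  have hx0 : 0 < dist z x := hl.trans_le hx.1
  have hc := hL.cos_mem x w
  refine first_order hl hx.1 dist_nonneg hw1 hc (hG _ hx) hK₂ ?_ ?_
    (G := Gc κ (dist z x)) (D := dist x w) (c := ⟪L x, L w⟫ / (dist z x * dist z w))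
  · rw [inner_smul_left]
    simp only [conj_trivial]
    rcases (dist_nonneg (x := z) (y := w)).eq_or_lt with h0 | h0
    · have hLw : L w = 0 := norm_eq_zero.1 (by rw [hL.norm, ← h0])
      rw [hLw, inner_zero_right]; ring
    · field_simp
  · refine hHS _ hx _ ⟨dist_nonneg, hw⟩ _ hc _ ?_ (hL.hinge x w hp)
    rw [dist_comm z x]
    calc |dist x w - dist x z| ≤ dist w z := by
          rw [dist_comm x w, dist_comm x z]; exact abs_dist_sub_le w z x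
      _ = dist z w := dist_comm _ _

end

end Vale.Agent.P233.CDc
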