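import Vale.Agent.P233.H715.CDPEc

/-! P233, stage 3a, pointwise inequality (helper715): geometry at an intermediate point, part 4:
the uniform estimates. -/

set_option linter.all false

open MeasureTheory Filter Topology Set Metric
open scoped ENNReal NNReal MeasureTheory RealInnerProductSpace

universe u

namespace Vale.Agent.P233.CDc

open Vale.Agent.P233.RG

section

variable {M : Type u} [MetricSpace M]
variable {κ s : ℝ} {n : ℕ} {z : M} {L : M → E n} {S : Set M} {X Y : M → M} {u u' : M → ℝ}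

/-- direction of `x` from the excess of `x`, `z`, `y` -/
theorem Lg.dir (hL : Lg κ n z L) {θ τ l m C : ℝ} (hc : Cn κ s θ τ l m C) {x y : M} {k ρ : ℝ}
    (hx : l ≤ dist z x) (hy : l ≤ dist z y) (hxy : dist z x + dist z y ≤ θ + 2 * τ)
    (hk : 0 ≤ k) (hρ : 0 ≤ ρ)
    (hex : ((dist x z + dist z y) ^ 2 - dist x y ^ 2) / 2 ≤ k * ρ ^ 2) :
    ‖(dist z x)⁻¹ • L x + (dist z y)⁻¹ • L y‖ ≤ √(2 * (C / m ^ 2 * (k / l))) * ρ := by
  have hl := hc.l_pos
  have hm := hc.m_pos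
  have hC := hc.C_ge
  have hx0 : 0 < dist z x := hl.trans_le hx
  have hy0 : 0 < dist z y := hl.trans_le hy
  have hd : dist x y ≤ dist z x + dist z y := dist_triangle_left x y z
  have hsq : 0 ≤ √κ := Real.sqrt_nonneg _
  have hp : √κ * (dist z x + dist z y + dist x y) < 2 * Real.pi := by
    have h1 : √κ * (dist z x + dist z y + dist x y) ≤ √κ * (2 * (θ + 2 * τ)) :=
      mul_le_mul_of_nonneg_left (by linarith) hsq
    have h2 := hc.hπ
    linarith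
  have hh := hL.hinge x y hp
  have hcm := hL.cos_mem x y
  have h1 := hc.dir (α := dist z x) (b := dist z y) (d := dist x y) hx hy hxy dist_nonneg hd
    hcm.1 hh
  rw [hL.cos_eq] at h1
  have h2 : dist z x + dist z y - dist x y ≤ k / l * ρ ^ 2 := by
    have h3 : (dist z x + dist z y - dist x y) * l ≤ k * ρ ^ 2 := by
      refine le_trans ?_ hex
      rw [dist_comm x z]
      have e : ((dist z x + dist z y) ^ 2 - dist x y ^ 2) / 2
        = (dist z x + dist z y - dist x y) * ((dist z x + dist z y + dist x y) / 2) := by ring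
      rw [e]
      refine mul_le_mul_of_nonneg_left ?_ (by linarith)
      have := dist_nonneg (x := x) (y := y)
      linarith
    rw [div_mul_eq_mul_div, le_div_iff₀ hl]
    linarith
  have hCm : 0 ≤ C / m ^ 2 := by positivity
  refine norm_le_of_sq (by positivity) hρ ?_
  rw [norm_add_sq_unit (hL.unit hx0) (hL.unit hy0)]
  have h4 : C / m ^ 2 * (dist z x + dist z y - dist x y) ≤ C / m ^ 2 * (k / l * ρ ^ 2) :=
    mul_le_mul_of_nonneg_left h2 hCm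
  calc 2 * (1 + ⟪(dist z x)⁻¹ • L x, (dist z y)⁻¹ • L y⟫)
      ≤ 2 * (C / m ^ 2 * (k / l * ρ ^ 2)) := by linarith
    _ = _ := by ring

/-- the constants at `z` -/
structure Con (κ s : ℝ) (n : ℕ) (z : M) (L : M → E n) (S : Set M) (X Y : M → M)
    (u u' : M → ℝ) (τ l m C Cl K₁ K₂ ρ₁ : ℝ) : Prop where
  h : PtG κ n s z L S X Y u u'
  hc : Cn κ s (dist (X z) (Y z)) τ l m C
  Cl0 : 0 ≤ Cl
  lip : ∀ w ∈ S, dist z w ≤ 1 → dist (X z) (X w) ≤ Cl * dist z w ∧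
    dist (Y z) (Y w) ≤ Cl * dist z w
  K₁0 : 0 ≤ K₁
  K₂0 : 0 ≤ K₂
  hE : ∀ θ ∈ Icc (dist (X z) (Y z) - τ) (dist (X z) (Y z) + τ), ∀ ρ ∈ Icc 0 ρ₁,
      ∀ Dx Dy : ℝ, |Dx - s * θ| ≤ ρ →
      |Dy - (1 - s) * θ| ≤ ρ → θ ≤ Dx + Dy →
      sn κ (s * θ) * (md κ Dy - md κ (Dx - θ)) ≤ sn κ θ * (md κ ρ - md κ (Dx - s * θ)) →
      Dx + Dy - θ ≤ K₁ * ρ ^ 2 ∧
      Dx ^ 2 / (2 * s) + Dy ^ 2 / (2 * (1 - s)) - θ ^ 2 / 2 ≤
        (1 / (s * (1 - s)) * (Dx - s * θ) ^ 2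
          + θ * sn κ θ / (sn κ (s * θ) * sn κ ((1 - s) * θ)) * (ρ ^ 2 - (Dx - s * θ) ^ 2)) / 2
          + K₁ * ρ ^ 3
  hH : ∀ a ∈ Icc l (dist (X z) (Y z) + 2 * τ), ∀ ρ ∈ Icc 0 ρ₁, ∀ c ∈ Icc (-1 : ℝ) 1, ∀ D : ℝ,
      |D - a| ≤ ρ → md κ D ≤ md κ (a - ρ) + sn κ a * sn κ ρ * (1 - c) →
      D ^ 2 / 2 ≤ a ^ 2 / 2 - a * ρ * c
        + ρ ^ 2 / 2 * (c ^ 2 + (1 - c ^ 2) * (a * cs κ a / sn κ a)) + K₂ * ρ ^ 3
  ρ₁0 : 0 < ρ₁
  ρ₁1 : ρ₁ ≤ 1
  ρ₁τ : ρ₁ ≤ τ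
  ρ₁C : (2 * Cl + 1) * ρ₁ ≤ τ

theorem PtG.exists_con (hHS : Blk_HS) (hEX : Blk_EX) (h : PtG κ n s z L S X Y u u') :
    ∃ τ l m C Cl K₁ K₂ ρ₁ : ℝ, Con κ s n z L S X Y u u' τ l m C Cl K₁ K₂ ρ₁ := by
  set θ := dist (X z) (Y z) with hθ
  obtain ⟨τ, l, m, C, hc⟩ := exists_cn h.s_pos h.s_lt h.pos h.lt
  have hs := h.s_pos
  have hθ0 : 0 < θ := h.pos
  have hτ := hc.τ_pos
  have hl := hc.l_pos
  have hla := hc.la
  have hπ := hc.hπ
  have hsq : 0 ≤ √κ := Real.sqrt_nonneg _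
  have hsθ : s * θ ≤ θ := mul_le_of_le_one_left hθ0.le h.s_lt.le
  obtain ⟨C', hC'⟩ := h.lip
  set Cl := max C' 0 with hCl
  have hCl0 : 0 ≤ Cl := le_max_right _ _
  have hlip : ∀ w ∈ S, dist z w ≤ 1 → dist (X z) (X w) ≤ Cl * dist z w ∧
      dist (Y z) (Y w) ≤ Cl * dist z w := fun w hw h1 =>
    ⟨(hC' w hw h1).1.trans (mul_le_mul_of_nonneg_right (le_max_left _ _) dist_nonneg),
      (hC' w hw h1).2.trans (mul_le_mul_of_nonneg_right (le_max_left _ _) dist_nonneg)⟩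
  obtain ⟨K₁, hK₁, ρE, hρE, hE⟩ := hEX κ s (θ - τ) (θ + τ) hs h.s_lt (by linarith) (by linarith)
    ((mul_le_mul_of_nonneg_left (by linarith) hsq).trans_lt hπ)
  obtain ⟨K₂, hK₂, ρH, hρH, hH⟩ := hHS κ l (θ + 2 * τ) hl (by linarith) hπ
  set ρ₁ := min (min 1 τ) (min (min ρE ρH) (τ / (2 * Cl + 1))) with hρ₁
  have hρ₁0 : 0 < ρ₁ := by
    refine lt_min (lt_min one_pos hτ) (lt_min (lt_min hρE hρH) (by positivity))
  have hρ₁1 : ρ₁ ≤ 1 := (min_le_left _ _).trans (min_le_left _ _)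
  have hρ₁τ : ρ₁ ≤ τ := (min_le_left _ _).trans (min_le_right _ _)
  have hρ₁E : ρ₁ ≤ ρE := (min_le_right _ _).trans ((min_le_left _ _).trans (min_le_left _ _))
  have hρ₁H : ρ₁ ≤ ρH := (min_le_right _ _).trans ((min_le_left _ _).trans (min_le_right _ _))
  have hρ₁C : (2 * Cl + 1) * ρ₁ ≤ τ := by
    have : ρ₁ ≤ τ / (2 * Cl + 1) := (min_le_right _ _).trans (min_le_right _ _)
    rw [le_div_iff₀ (by positivity)] at this
    linarith
  exact ⟨τ, l, m, C, Cl, K₁, K₂, ρ₁, h, hc, hCl0, hlip, hK₁, hK₂,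
    fun θ' hθ' ρ hρ => hE θ' hθ' ρ ⟨hρ.1, hρ.2.trans hρ₁E⟩,
    fun a ha ρ hρ => hH a ha ρ ⟨hρ.1, hρ.2.trans hρ₁H⟩, hρ₁0, hρ₁1, hρ₁τ, hρ₁C⟩

/-- positions of the end points, `w` near `z` -/
structure Near (κ s : ℝ) (z : M) (X Y : M → M) (τ l Cl : ℝ) (w : M) : Prop where
  αn : |dist z (X w) - dist z (X z)| ≤ Cl * dist z w
  βn : |dist z (Y w) - dist z (Y z)| ≤ Cl * dist z w
  θn : |dist (X w) (Y w) - dist (X z) (Y z)| ≤ 2 * Cl * dist z w
  αI : dist z (X w) ∈ Icc l (dist (X z) (Y z) + 2 * τ)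
  βI : dist z (Y w) ∈ Icc l (dist (X z) (Y z) + 2 * τ)
  θI : dist (X w) (Y w) ∈ Icc (dist (X z) (Y z) - τ) (dist (X z) (Y z) + τ)
  α1 : |dist z (X w) - s * dist (X w) (Y w)| ≤ dist z w
  β1 : |dist z (Y w) - (1 - s) * dist (X w) (Y w)| ≤ dist z w
  αs : dist z (X w) ≤ s * dist (X z) (Y z) + τ / 2
  βs : dist z (Y w) ≤ (1 - s) * dist (X z) (Y z) + τ / 2

variable {τ l m C Cl K₁ K₂ ρ₁ : ℝ}

theorem Con.near (H : Con κ s n z L S X Y u u' τ l m C Cl K₁ K₂ ρ₁) {w : M} (hw : w ∈ S)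
    (hwρ : dist z w ≤ ρ₁) : Near κ s z X Y τ l Cl w := by
  have h := H.h
  have hc := H.hc
  have hs := h.s_pos
  have hs' : 0 < 1 - s := by linarith [h.s_lt]
  have hτ := hc.τ_pos
  have hla := hc.la
  have hlb := hc.lb
  have hza := h.za
  have hzb := h.zb
  set θ := dist (X z) (Y z) with hθ
  have hθ0 : 0 < θ := h.pos
  have hsθ : s * θ ≤ θ := mul_le_of_le_one_left hθ0.le h.s_lt.le
  have hsθ' : (1 - s) * θ ≤ θ := mul_le_of_le_one_left hθ0.le (by linarith)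
  set ρ := dist z w with hρ
  have hρ0 : 0 ≤ ρ := dist_nonneg
  obtain ⟨hX, hY⟩ := H.lip w hw (hwρ.trans H.ρ₁1)
  rw [← hρ] at hX hY
  have hClρ : 2 * Cl * ρ ≤ τ := by
    have h1 : (2 * Cl + 1) * ρ ≤ (2 * Cl + 1) * ρ₁ :=
      mul_le_mul_of_nonneg_left hwρ (by have := H.Cl0; positivity)
    have h2 := H.ρ₁C
    linarith
  have hαn : |dist z (X w) - dist z (X z)| ≤ Cl * ρ := by
    rw [dist_comm z (X w), dist_comm z (X z)]
    exact (abs_dist_sub_le (X w) (X z) z).trans (by rw [dist_comm]; exact hX)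
  have hβn : |dist z (Y w) - dist z (Y z)| ≤ Cl * ρ := by
    rw [dist_comm z (Y w), dist_comm z (Y z)]
    exact (abs_dist_sub_le (Y w) (Y z) z).trans (by rw [dist_comm]; exact hY)
  have hθn : |dist (X w) (Y w) - θ| ≤ 2 * Cl * ρ := by
    have h1 : |dist (X w) (Y w) - dist (X z) (Y w)| ≤ dist (X w) (X z) :=
      abs_dist_sub_le (X w) (X z) (Y w)
    have h2 : |dist (X z) (Y w) - dist (X z) (Y z)| ≤ dist (Y w) (Y z) := by
      rw [dist_comm (X z) (Y w), dist_comm (X z) (Y z)]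
      exact abs_dist_sub_le (Y w) (Y z) (X z)
    have h3 : |dist (X w) (Y w) - θ| ≤ |dist (X w) (Y w) - dist (X z) (Y w)|
        + |dist (X z) (Y w) - dist (X z) (Y z)| := by
      have := abs_add_le (dist (X w) (Y w) - dist (X z) (Y w))
        (dist (X z) (Y w) - dist (X z) (Y z))
      rwa [sub_add_sub_cancel] at this
    rw [dist_comm (X w) (X z)] at h1
    rw [dist_comm (Y w) (Y z)] at h2
    linarith
  have hαb := abs_le.1 hαn
  have hβb := abs_le.1 hβn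
  have hθb := abs_le.1 hθn
  rw [hza] at hαb
  rw [hzb] at hβb
  refine
    { αn := hαn
      βn := hβn
      θn := hθn
      αI := ⟨by linarith [hαb.1], by linarith [hαb.2]⟩
      βI := ⟨by linarith [hβb.1], by linarith [hβb.2]⟩
      θI := ⟨by linarith [hθb.1], by linarith [hθb.2]⟩
      α1 := ?_
      β1 := ?_
      αs := by linarith [hαb.2]
      βs := by linarith [hβb.2] }
  · rw [← h.gx w hw]
    have := abs_dist_sub_le z w (X w)
    rwa [dist_comm w (X w)] at this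
  · rw [← h.gy w hw]
    exact abs_dist_sub_le z w (Y w)

/-- the excess estimate at `w` -/
structure Exc (κ s : ℝ) (z : M) (X Y : M → M) (u u' : M → ℝ) (τ l m C K₁ : ℝ) (w : M) :
    Prop where
  e1 : dist z (X w) + dist z (Y w) - dist (X w) (Y w) ≤ K₁ * dist z w ^ 2
  e2 : ka s z X u w + kb s z Y u' w ≤ (1 / (s * (1 - s)) * (dist z (X w) - s * dist (X w) (Y w)) ^ 2
      + dist (X w) (Y w) * sn κ (dist (X w) (Y w))
        / (sn κ (s * dist (X w) (Y w)) * sn κ ((1 - s) * dist (X w) (Y w)))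
        * (dist z w ^ 2 - (dist z (X w) - s * dist (X w) (Y w)) ^ 2)) / 2 + K₁ * dist z w ^ 3
  B0 : 0 ≤ dist (X w) (Y w) * sn κ (dist (X w) (Y w))
        / (sn κ (s * dist (X w) (Y w)) * sn κ ((1 - s) * dist (X w) (Y w)))
  Ble : dist (X w) (Y w) * sn κ (dist (X w) (Y w))
        / (sn κ (s * dist (X w) (Y w)) * sn κ ((1 - s) * dist (X w) (Y w)))
        ≤ (dist (X z) (Y z) + 2 * τ) * C / m ^ 2

theorem Con.exc (hA : T.IsAlexandrov M κ) (H : Con κ s n z L S X Y u u' τ l m C Cl K₁ K₂ ρ₁)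
    {w : M} (hw : w ∈ S) (hwρ : dist z w ≤ ρ₁) : Exc κ s z X Y u u' τ l m C K₁ w := by
  have h := H.h
  have hc := H.hc
  have N := H.near hw hwρ
  have hs := h.s_pos
  have hs' : 0 < 1 - s := by linarith [h.s_lt]
  have hτ := hc.τ_pos
  have hla := hc.la
  have hlb := hc.lb
  have hl := hc.l_pos
  have hm := hc.m_pos
  have hC := hc.C_ge
  have hπ := hc.hπ
  have hsq : 0 ≤ √κ := Real.sqrt_nonneg _
  set θ := dist (X z) (Y z) with hθ
  have hθ0 : 0 < θ := h.pos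
  have hθI := N.θI
  rw [← hθ] at hθI
  set θw := dist (X w) (Y w) with hθw
  have hDx : dist (X w) w = s * θw := h.gx w hw
  have hDy : dist w (Y w) = (1 - s) * θw := h.gy w hw
  have htri : θw ≤ dist z (X w) + dist z (Y w) := dist_triangle_left _ _ z
  have hαs := N.αs
  have hβs := N.βs
  have hper : √κ * (dist z (X w) + dist z (Y w) + θw) < 2 * Real.pi := by
    have h1 : √κ * (dist z (X w) + dist z (Y w) + θw) ≤ √κ * (2 * (θ + 2 * τ)) :=
      mul_le_mul_of_nonneg_left (by linarith [hθI.2]) hsq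
    linarith
  have hcmp : sn κ (s * θw) * (md κ (dist z (Y w)) - md κ (dist z (X w) - θw)) ≤
      sn κ θw * (md κ (dist z w) - md κ (dist z (X w) - s * θw)) := by
    have h1 := H715.RG.cmp_md (hA.comparison z (X w) (Y w) w (by rw [hDx, hDy]; ring) hper)
    rw [hDx, hDy] at h1
    have e : s * θw + (1 - s) * θw = θw := by ring
    rw [e] at h1
    simp only [H616.md_eq] at h1
    exact h1
  obtain ⟨hE1, hE2⟩ := H.hE θw hθI (dist z w) ⟨dist_nonneg, hwρ⟩ (dist z (X w)) (dist z (Y w))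
    N.α1 N.β1 htri hcmp
  have hsum' : ka s z X u w + kb s z Y u' w = dist z (X w) ^ 2 / (2 * s)
      + dist z (Y w) ^ 2 / (2 * (1 - s)) - θw ^ 2 / 2 := by
    rw [h.sum_eq hw, dist_comm (X w) z]
  rw [← hsum'] at hE2
  have hsτ : s * τ ≤ τ := mul_le_of_le_one_left hτ.le h.s_lt.le
  have hsτ' : (1 - s) * τ ≤ τ := mul_le_of_le_one_left hτ.le (by linarith)
  have hθw0 : 0 < θw := by
    have : s * θ ≤ θ := mul_le_of_le_one_left hθ0.le h.s_lt.le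
    linarith [hθI.1]
  have hsθw : s * θw ∈ Icc l (θ + 2 * τ) := by
    have h1 : s * (θ - τ) ≤ s * θw := mul_le_mul_of_nonneg_left hθI.1 hs.le
    have h2 : s * θw ≤ θw := mul_le_of_le_one_left hθw0.le h.s_lt.le
    exact ⟨by linarith, by linarith [hθI.2]⟩
  have hsθw' : (1 - s) * θw ∈ Icc l (θ + 2 * τ) := by
    have h1 : (1 - s) * (θ - τ) ≤ (1 - s) * θw := mul_le_mul_of_nonneg_left hθI.1 hs'.le
    have h2 : (1 - s) * θw ≤ θw := mul_le_of_le_one_left hθw0.le (by linarith)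
    exact ⟨by linarith, by linarith [hθI.2]⟩
  have hθwI : θw ∈ Icc l (θ + 2 * τ) := by
    have h2 : s * θw ≤ θw := mul_le_of_le_one_left hθw0.le h.s_lt.le
    exact ⟨hsθw.1.trans h2, by linarith [hθI.2]⟩
  have hs1 := hc.sn_ge _ hsθw
  have hs2 := hc.sn_ge _ hsθw'
  have hs3 := hc.sn_ge _ hθwI
  have hs4 := hc.sn_le θw ⟨hθw0.le, hθwI.2⟩
  have h2 : 0 < sn κ θw := hm.trans_le hs3
  have h3 : 0 < sn κ (s * θw) := hm.trans_le hs1
  have h4 : 0 < sn κ ((1 - s) * θw) := hm.trans_le hs2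
  refine ⟨hE1, hE2, by positivity, ?_⟩
  refine div_le_div₀ (by positivity) ?_ (by positivity) ?_
  · exact mul_le_mul hθwI.2 ((le_abs_self _).trans hs4) h2.le (by positivity)
  · rw [sq]; exact mul_le_mul hs1 hs2 hm.le h3.le

/-- directions and first order -/
structure Dirs (κ s : ℝ) (z : M) (L : M → E n) (X Y : M → M) (u u' : M → ℝ) (K₃ K₄ K₆ : ℝ)
    (w : M) : Prop where
  ab : ka s z X u w + kb s z Y u' w ≤ K₃ * dist z w ^ 2
  dx : ‖(dist z (X w))⁻¹ • L (X w) + ee z L Y‖ ≤ K₄ * dist z w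
  dy : ‖(dist z (Y w))⁻¹ • L (Y w) - ee z L Y‖ ≤ K₄ * dist z w
  fx : ⟪(dist z (X w))⁻¹ • L (X w), L w⟫ - K₆ * dist z w ^ 2
    ≤ dist z (X w) - s * dist (X w) (Y w)
  fy : ⟪(dist z (Y w))⁻¹ • L (Y w), L w⟫ - K₆ * dist z w ^ 2
    ≤ dist z (Y w) - (1 - s) * dist (X w) (Y w)

theorem Con.dirs (hA : T.IsAlexandrov M κ) (H : Con κ s n z L S X Y u u' τ l m C Cl K₁ K₂ ρ₁) :
    ∃ K₃ ≥ 0, ∃ K₄ ≥ 0, ∃ K₆ ≥ 0, ∀ w ∈ S, dist z w ≤ ρ₁ →
      Dirs κ s z L X Y u u' K₃ K₄ K₆ w := by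
  have h := H.h
  have hc := H.hc
  have hs := h.s_pos
  have hs' : 0 < 1 - s := by linarith [h.s_lt]
  have hτ := hc.τ_pos
  have hl := hc.l_pos
  have hm := hc.m_pos
  have hC := hc.C_ge
  have hπ := hc.hπ
  have hsq : 0 ≤ √κ := Real.sqrt_nonneg _
  have hθ0 := h.pos
  have hza := h.za
  have hzb := h.zb
  set θ := dist (X z) (Y z) with hθ
  set T := θ + 2 * τ with hT
  have hT0 : 0 < T := by rw [hT]; linarith
  have hK₁ := H.K₁0
  have hK₂ := H.K₂0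
  set CG := T * C / m with hCG
  have hCG0 : 0 ≤ CG := by positivity
  have hG : ∀ a ∈ Icc l T, |Gc κ a| ≤ CG := fun a ha => hc.Gc_le ha
  set B0 := T * C / m ^ 2 with hB0
  have hB00 : 0 ≤ B0 := by positivity
  set A := 1 / (s * (1 - s)) with hAd
  have hA0 : 0 ≤ A := by positivity
  set K₃ := A + B0 + K₁ with hK₃
  have hK₃0 : 0 ≤ K₃ := by positivity
  refine ⟨K₃, hK₃0, √(2 * (C / m ^ 2 * (K₃ / l))), Real.sqrt_nonneg _, (1 + CG + K₂) / l,
    by positivity, fun w hw hwρ => ?_⟩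
  have N := H.near hw hwρ
  have X' := H.exc hA hw hwρ
  have hρ0 : 0 ≤ dist z w := dist_nonneg
  have hρ1 : dist z w ≤ 1 := hwρ.trans H.ρ₁1
  have hρτ : dist z w ≤ τ := hwρ.trans H.ρ₁τ
  have hab : ka s z X u w + kb s z Y u' w ≤ K₃ * dist z w ^ 2 :=
    crude_sum hA0 X'.B0 X'.Ble hK₁ hρ0 hρ1 N.α1 X'.e2
  have ha0 := h.ka_nonneg hw
  have hb0 := h.kb_nonneg hw
  have hαs := N.αs
  have hβs := N.βs
  rw [← hθ] at hαs hβs
  have z0 : z ∈ S := h.zS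
  have Nz := H.near z0 (by rw [dist_self]; exact H.ρ₁0.le)
  refine ⟨hab, ?_, ?_, ?_, ?_⟩
  · refine h.lg.dir hc N.αI.1 Nz.βI.1 ?_ hK₃0 hρ0 ((h.ka_excess hw).trans (by linarith))
    rw [hzb]; linarith
  · have h1 := h.lg.dir hc (x := X z) (y := Y w) Nz.αI.1 N.βI.1 (by rw [hza]; linarith) hK₃0 hρ0
      ((h.kb_excess hw).trans (by linarith))
    rw [h.ex] at h1
    rw [sub_eq_add_neg, add_comm]
    exact h1
  · have hαρ : √κ * (dist z (X w) + dist z w + dist (X w) w) < 2 * Real.pi := by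
      have h1 : dist (X w) w ≤ dist z (X w) + dist z w := dist_triangle_left _ _ z
      have h2 : √κ * (dist z (X w) + dist z w + dist (X w) w) ≤ √κ * (2 * T) := by
        refine mul_le_mul_of_nonneg_left ?_ hsq
        have : s * θ ≤ θ := mul_le_of_le_one_left hθ0.le h.s_lt.le
        rw [hT]; linarith
      linarith
    have hf1 := h.lg.first hl H.hH hK₂ hG N.αI hwρ hρ1 hαρ
    rwa [h.gx w hw] at hf1
  · have hβρ : √κ * (dist z (Y w) + dist z w + dist (Y w) w) < 2 * Real.pi := by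
      have h1 : dist (Y w) w ≤ dist z (Y w) + dist z w := dist_triangle_left _ _ z
      have h2 : √κ * (dist z (Y w) + dist z w + dist (Y w) w) ≤ √κ * (2 * T) := by
        refine mul_le_mul_of_nonneg_left ?_ hsq
        have : (1 - s) * θ ≤ θ := mul_le_of_le_one_left hθ0.le (by linarith)
        rw [hT]; linarith
      linarith
    have hf2 := h.lg.first hl H.hH hK₂ hG N.βI hwρ hρ1 hβρ
    rwa [dist_comm (Y w) w, h.gy w hw] at hf2

theorem first_both {n : ℕ} {e x y v : E n} {ρ K₁ K₄ K₆ δ δ' : ℝ} (hρ : 0 ≤ ρ) (hv : ‖v‖ = ρ)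
    (hK₁ : 0 ≤ K₁) (hx : ‖x + e‖ ≤ K₄ * ρ) (hy : ‖y - e‖ ≤ K₄ * ρ)
    (fx : ⟪x, v⟫ - K₆ * ρ ^ 2 ≤ δ) (fy : ⟪y, v⟫ - K₆ * ρ ^ 2 ≤ δ')
    (hδ : δ + δ' ≤ K₁ * ρ ^ 2) : |δ + ⟪e, v⟫| ≤ (K₁ + (K₄ + K₆)) * ρ ^ 2 := by
  have hi1 : -⟪e, v⟫ - K₄ * ρ * ρ ≤ ⟪x, v⟫ := by
    have h1 := abs_real_inner_le_norm (x + e) v
    rw [inner_add_left, hv] at h1
    have h2 := (abs_le.1 h1).1
    have h3 := mul_le_mul_of_nonneg_right hx hρ
    linarith
  have hi2 : ⟪e, v⟫ - K₄ * ρ * ρ ≤ ⟪y, v⟫ := by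
    have h1 := abs_real_inner_le_norm (y - e) v
    rw [inner_sub_left, hv] at h1
    have h2 := (abs_le.1 h1).1
    have h3 := mul_le_mul_of_nonneg_right hy hρ
    linarith
  have e1 : (K₁ + (K₄ + K₆)) * ρ ^ 2 = K₁ * ρ ^ 2 + K₄ * ρ * ρ + K₆ * ρ ^ 2 := by ring
  have h0 : 0 ≤ K₁ * ρ ^ 2 := by positivity
  rw [e1, abs_le]
  constructor <;> linarith

/-- the constants at the point `z` and the uniform estimates -/
theorem PtG.est (hA : T.IsAlexandrov M κ) (hHS : Blk_HS) (hEX : Blk_EX)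
    (h : PtG κ n s z L S X Y u u') :
    ∃ l T K ρ₁ : ℝ, 0 < l ∧ √κ * T < Real.pi ∧ 0 ≤ K ∧ 0 < ρ₁ ∧ (∀ t ∈ Icc l T, 0 < sn κ t) ∧
      dist z (X z) ∈ Icc l T ∧ dist z (Y z) ∈ Icc l T ∧
      ∀ w ∈ S, dist z w ≤ ρ₁ → Est κ s z L X Y u u' l T K (ee z L Y) w := by
  obtain ⟨τ, l, m, C, Cl, K₁, K₂, ρ₁, H⟩ := h.exists_con hHS hEX
  obtain ⟨K₃, hK₃, K₄, hK₄, K₆, hK₆, hD⟩ := H.dirs hA
  have hc := H.hc
  have hm := hc.m_pos
  have hC := hc.C_ge
  have hτ := hc.τ_pos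
  have hθ0 := h.pos
  have hs := h.s_pos
  have hs' : 0 < 1 - s := by linarith [h.s_lt]
  have hK₁ := H.K₁0
  have hCl := H.Cl0
  have Nz := H.near h.zS (by rw [dist_self]; exact H.ρ₁0.le)
  set B0 := (dist (X z) (Y z) + 2 * τ) * C / m ^ 2 with hB0
  have hB00 : 0 ≤ B0 := by positivity
  set A := 1 / (s * (1 - s)) with hAd
  have hA0 : 0 ≤ A := by positivity
  set k := K₁ + (K₄ + K₆) with hk
  have hk0 : 0 ≤ k := by positivity
  set k' := K₁ + (A + B0) * k with hk'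
  have hk'0 : 0 ≤ k' := by positivity
  refine ⟨l, dist (X z) (Y z) + 2 * τ, 2 * Cl + K₃ + K₄ + k + k', ρ₁, hc.l_pos, hc.hπ,
    by positivity, H.ρ₁0, fun t ht => hm.trans_le (hc.sn_ge t ht), Nz.αI, Nz.βI,
    fun w hw hwρ => ?_⟩
  have N := H.near hw hwρ
  have X' := H.exc hA hw hwρ
  have D := hD w hw hwρ
  have hρ0 : 0 ≤ dist z w := dist_nonneg
  have ha0 := h.ka_nonneg hw
  have hb0 := h.kb_nonneg hw
  have hLw : ‖L w‖ = dist z w := h.lg.norm w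
  have ht : |⟪ee z L Y, L w⟫| ≤ dist z w := by
    have := inner_unit (v := L w) h.norm_e
    rwa [hLw] at this
  have hδ := first_both hρ0 hLw hK₁ D.dx D.dy D.fx D.fy (by
    have := X'.e1
    linarith)
  rw [← hk] at hδ
  have hsharp := swap_sq hA0 X'.B0 X'.Ble hρ0 N.α1 ht hk0 hδ X'.e2
  have hρ2 : 0 ≤ dist z w ^ 2 := sq_nonneg _
  have hρ3 : 0 ≤ dist z w ^ 3 := by positivity
  refine
    { θ_near := N.θn.trans (mul_le_mul_of_nonneg_right (by linarith) hρ0)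
      α_near := N.αn.trans (mul_le_mul_of_nonneg_right (by linarith) hρ0)
      β_near := N.βn.trans (mul_le_mul_of_nonneg_right (by linarith) hρ0)
      α_mem := N.αI
      β_mem := N.βI
      a_le := (by linarith [D.ab] : ka s z X u w ≤ K₃ * dist z w ^ 2).trans
        (mul_le_mul_of_nonneg_right (by linarith) hρ2)
      b_le := (by linarith [D.ab] : kb s z Y u' w ≤ K₃ * dist z w ^ 2).trans
        (mul_le_mul_of_nonneg_right (by linarith) hρ2)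
      dx := D.dx.trans (mul_le_mul_of_nonneg_right (by linarith) hρ0)
      dy := D.dy.trans (mul_le_mul_of_nonneg_right (by linarith) hρ0)
      δx := hδ.trans (mul_le_mul_of_nonneg_right (by linarith) hρ2)
      sharp := ?_ }
  rw [hLw]
  refine hsharp.trans (add_le_add le_rfl (mul_le_mul_of_nonneg_right ?_ hρ3))
  rw [← hk']; linarith

end

end Vale.Agent.P233.CDc
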