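import Vale.Agent.P233.H715.CDPEd

/-! P233, stage 3a, pointwise inequality (helper715): geometry at an intermediate point, part 5:
the two quadratic inequalities at the blow-up scale. -/

set_option linter.all false

open MeasureTheory Filter Topology Set Metric
open scoped ENNReal NNReal MeasureTheory RealInnerProductSpace

universe u

namespace Vale.Agent.P233.CDc

open Vale.Agent.P233.RG

/-! ### vectors -/

/-- completing the square for the radial form -/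
theorem QQ_square {n : ℕ} {D1 D2 : ℝ} (h1 : 0 < D1) (h2 : 0 < D2) {e : E n} (he : ‖e‖ = 1)
    (V ζ : E n) :
    QQ D1 D2 e (V + (D2⁻¹ • ζ + ((D1⁻¹ - D2⁻¹) * ⟪e, ζ⟫) • e)) =
      QQ D1 D2 e V + 2 * ⟪ζ, V⟫ + QQ D1⁻¹ D2⁻¹ e ζ := by
  have hee : ⟪e, e⟫ = (1 : ℝ) := by rw [real_inner_self_eq_norm_sq, he]; norm_num
  unfold QQ
  set W := D2⁻¹ • ζ + ((D1⁻¹ - D2⁻¹) * ⟪e, ζ⟫) • e with hW
  have hW2 : ‖W‖ ^ 2 = D2⁻¹ ^ 2 * ‖ζ‖ ^ 2 + 2 * (D2⁻¹ * ((D1⁻¹ - D2⁻¹) * ⟪e, ζ⟫) * ⟪e, ζ⟫)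
      + ((D1⁻¹ - D2⁻¹) * ⟪e, ζ⟫) ^ 2 := by
    rw [hW, norm_add_sq_real, norm_smul, norm_smul, he, mul_pow, mul_pow, Real.norm_eq_abs,
      Real.norm_eq_abs, sq_abs, sq_abs, inner_smul_left, inner_smul_right, real_inner_comm]
    simp only [conj_trivial]
    rw [real_inner_comm]
    ring
  have heW : ⟪e, W⟫ = D1⁻¹ * ⟪e, ζ⟫ := by
    rw [hW, inner_add_right, inner_smul_right, inner_smul_right, hee]; ring
  have hVW : ⟪V, W⟫ = D2⁻¹ * ⟪ζ, V⟫ + (D1⁻¹ - D2⁻¹) * ⟪e, ζ⟫ * ⟪e, V⟫ := by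
    rw [hW, inner_add_right, inner_smul_right, inner_smul_right, real_inner_comm V ζ,
      real_inner_comm V e]
  rw [norm_add_sq_real, inner_add_right, heW, hW2, hVW]
  field_simp
  ring

theorem QQ_le {n : ℕ} {D1 D2 : ℝ} (h1 : 0 < D1) (h2 : 0 < D2) {e : E n} (he : ‖e‖ = 1)
    (V : E n) : QQ D1 D2 e V ≤ (D1 + D2) * ‖V‖ ^ 2 := by
  have h3 : ⟪e, V⟫ ^ 2 ≤ ‖V‖ ^ 2 := by
    rw [← sq_abs]; exact pow_le_pow_left₀ (abs_nonneg _) (inner_unit he) 2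
  have h4 := sq_nonneg ⟪e, V⟫
  unfold QQ
  nlinarith

theorem norm_opt_le {n : ℕ} {D1 D2 : ℝ} (h1 : 0 < D1) (h2 : 0 < D2) {e : E n} (he : ‖e‖ = 1)
    (ζ : E n) : ‖D2⁻¹ • ζ + ((D1⁻¹ - D2⁻¹) * ⟪e, ζ⟫) • e‖ ≤ (D1⁻¹ + 2 * D2⁻¹) * ‖ζ‖ := by
  have i1 : 0 < D1⁻¹ := inv_pos.2 h1
  have i2 : 0 < D2⁻¹ := inv_pos.2 h2
  have h3 : |D1⁻¹ - D2⁻¹| ≤ D1⁻¹ + D2⁻¹ := by
    rw [abs_le]; constructor <;> linarith
  have h4 := inner_unit (v := ζ) he
  refine (norm_add_le _ _).trans ?_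
  rw [norm_smul, norm_smul, he, mul_one, Real.norm_eq_abs, Real.norm_eq_abs, abs_mul,
    abs_of_pos i2]
  have h5 : |D1⁻¹ - D2⁻¹| * |⟪e, ζ⟫| ≤ (D1⁻¹ + D2⁻¹) * ‖ζ‖ :=
    mul_le_mul h3 h4 (abs_nonneg _) (by positivity)
  linarith

theorem Gc_continuousAt {κ a : ℝ} (ha : 0 < sn κ a) : ContinuousAt (Gc κ) a := by
  unfold Gc
  refine ContinuousAt.div ?_ (H616.continuous_sn κ).continuousAt ha.ne'
  exact (continuous_id.mul (H616.continuous_cs κ)).continuousAt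

section

variable {M : Type u} [MetricSpace M]
variable {κ s : ℝ} {n : ℕ} {z : M} {L : M → E n} {S : Set M} {X Y : M → M} {u u' : M → ℝ}

/-- the hinge inequality in second order form, near a fixed direction and length -/
theorem Lg.near_hinge (hHS : Blk_HS) (hL : Lg κ n z L) {a₀ : ℝ} (ha₀ : 0 < a₀)
    (hκ : √κ * a₀ < Real.pi) {e : E n} (he : ‖e‖ = 1) {ε : ℝ} (hε : 0 < ε) :
    ∃ ρ > 0, ∀ x v : M, |dist z x - a₀| ≤ ρ → ‖(dist z x)⁻¹ • L x - e‖ ≤ ρ → dist z v ≤ ρ →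
      dist x v ^ 2 / 2 ≤ dist z x ^ 2 / 2 - ⟪L x, L v⟫
        + (⟪e, L v⟫ ^ 2 + Gc κ a₀ * (‖L v‖ ^ 2 - ⟪e, L v⟫ ^ 2)) / 2 + ε * ‖L v‖ ^ 2 := by
  have hsq : 0 ≤ √κ := Real.sqrt_nonneg _
  have hsn : 0 < sn κ a₀ := H616.sn_pos ha₀ fun _ => hκ
  obtain ⟨a₁, ha₁, hκ₁⟩ : ∃ a₁ > a₀, √κ * a₁ < Real.pi := by
    have hc : Continuous fun t : ℝ => √κ * t := by fun_prop
    have h1 : ∀ᶠ t in 𝓝[>] a₀, √κ * t < Real.pi :=
      ((hc.tendsto a₀).mono_left nhdsWithin_le_nhds).eventually_lt_const hκ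
    obtain ⟨t, h2, h3⟩ := (h1.and self_mem_nhdsWithin).exists
    exact ⟨t, h3, h2⟩
  obtain ⟨K, hK, ρ₀, hρ₀, hHS'⟩ := hHS κ (a₀ / 2) a₁ (by positivity) (by linarith) hκ₁
  obtain ⟨δ, hδ, hG⟩ := Metric.continuousAt_iff.1 (Gc_continuousAt hsn) (min ε 1)
    (lt_min hε one_pos)
  set G₀ := |Gc κ a₀| + 1 with hG₀
  have hG₀0 : 0 < G₀ := by positivity
  have hden : 0 < 2 * (1 + G₀) + 2 * K + 1 := by positivity
  set ρ := min (min (min (δ / 2) (a₀ / 2)) (min ρ₀ ((a₁ - a₀) / 2)))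
    (ε / (2 * (1 + G₀) + 2 * K + 1)) with hρ
  have e1 : ρ ≤ δ / 2 := (min_le_left _ _).trans ((min_le_left _ _).trans (min_le_left _ _))
  have e2 : ρ ≤ a₀ / 2 := (min_le_left _ _).trans ((min_le_left _ _).trans (min_le_right _ _))
  have e3 : ρ ≤ ρ₀ := (min_le_left _ _).trans ((min_le_right _ _).trans (min_le_left _ _))
  have e4 : ρ ≤ (a₁ - a₀) / 2 := (min_le_left _ _).trans ((min_le_right _ _).trans (min_le_right _ _))
  have e5 : ρ ≤ ε / (2 * (1 + G₀) + 2 * K + 1) := min_le_right _ _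
  have hρ0 : 0 < ρ := by
    refine lt_min (lt_min (lt_min (by positivity) (by positivity)) (lt_min hρ₀ (by linarith))) ?_
    positivity
  have e5' : ρ * (2 * (1 + G₀) + 2 * K + 1) ≤ ε := by
    rwa [le_div_iff₀ hden] at e5
  refine ⟨ρ, hρ0, fun x v hx hdx hv => ?_⟩
  obtain ⟨hx1, hx2⟩ := abs_le.1 hx
  have hxp : 0 < dist z x := by linarith
  have hcm := hL.cos_mem x v
  have htri : dist x v ≤ dist z x + dist z v := dist_triangle_left _ _ z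
  have hper : √κ * (dist z x + dist z v + dist x v) < 2 * Real.pi := by
    have h1 : √κ * (dist z x + dist z v + dist x v) ≤ √κ * (2 * a₁) :=
      mul_le_mul_of_nonneg_left (by linarith) hsq
    linarith
  have hD : |dist x v - dist z x| ≤ dist z v := by
    have h2 := abs_dist_sub_le v z x
    rw [dist_comm v x] at h2
    rwa [dist_comm v z] at h2
  have h1 := hHS' (dist z x) ⟨by linarith, by linarith⟩ (dist z v)
    ⟨dist_nonneg, by linarith⟩ _ hcm (dist x v) hD (hL.hinge x v hper)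
  have hV : ‖L v‖ = dist z v := hL.norm v
  have hux := hL.unit hxp
  set x' := (dist z x)⁻¹ • L x with hx'
  have hip : dist z x * dist z v * (⟪L x, L v⟫ / (dist z x * dist z v)) = ⟪L x, L v⟫ := by
    rcases (dist_nonneg (x := z) (y := v)).eq_or_lt with h0 | h0
    · have hLw : L v = 0 := norm_eq_zero.1 (by rw [hV, ← h0])
      rw [hLw, inner_zero_right, ← h0]; ring
    · field_simp
  have hip2 : dist z v * (⟪L x, L v⟫ / (dist z x * dist z v)) = ⟪x', L v⟫ := by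
    rw [hx', inner_smul_left]
    simp only [conj_trivial]
    rw [← hip]
    field_simp
  set c := ⟪L x, L v⟫ / (dist z x * dist z v) with hc
  have hGe : dist z x * cs κ (dist z x) / sn κ (dist z x) = Gc κ (dist z x) := rfl
  rw [hGe, hip] at h1
  have h2 : dist z v ^ 2 / 2 * (c ^ 2 + (1 - c ^ 2) * Gc κ (dist z x))
      = (⟪x', L v⟫ ^ 2 + Gc κ (dist z x) * (‖L v‖ ^ 2 - ⟪x', L v⟫ ^ 2)) / 2 := by
    rw [← hip2, hV]; ring
  rw [h2] at h1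
  have hGd := hG (x := dist z x) (by rw [Real.dist_eq]; linarith [hx])
  rw [Real.dist_eq] at hGd
  have hGd1 : |Gc κ (dist z x) - Gc κ a₀| ≤ ε := hGd.le.trans (min_le_left _ _)
  have hGd2 : |Gc κ (dist z x) - Gc κ a₀| ≤ 1 := hGd.le.trans (min_le_right _ _)
  set g := Gc κ (dist z x) with hg
  set g₀ := Gc κ a₀ with hg₀
  have hgG : |g| ≤ G₀ := by
    have := abs_sub_abs_le_abs_sub g g₀
    rw [hG₀]; linarith
  have hN : 0 ≤ ‖L v‖ ^ 2 := sq_nonneg _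
  have h3 := inner_sq_diff (v := L v) (e := -e) hux (by rw [norm_neg, he])
  rw [inner_neg_left, neg_sq, ← sub_eq_add_neg] at h3
  set p := ⟪e, L v⟫ with hp
  set p' := ⟪x', L v⟫ with hp'
  set N := ‖L v‖ ^ 2 with hNd
  have hpN : p ^ 2 ≤ N := by
    rw [hp, hNd, ← sq_abs]; exact pow_le_pow_left₀ (abs_nonneg _) (inner_unit he) 2
  have h4 : |p' ^ 2 - p ^ 2| ≤ 2 * ρ * N := h3.trans (by
    refine mul_le_mul_of_nonneg_right ?_ hN
    linarith)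
  have h5 : (p' ^ 2 - p ^ 2) * (1 - g) ≤ (2 * ρ * N) * (1 + G₀) := by
    refine (le_abs_self _).trans ?_
    rw [abs_mul]
    refine mul_le_mul h4 ?_ (abs_nonneg _) (by positivity)
    refine (abs_sub _ _).trans ?_
    rw [abs_one]; linarith
  have h6 : (g - g₀) * (N - p ^ 2) ≤ ε * N := by
    refine (mul_le_mul_of_nonneg_right ((le_abs_self _).trans hGd1) (by linarith)).trans ?_
    exact mul_le_mul_of_nonneg_left (by linarith [sq_nonneg p]) hε.le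
  have h7 : K * dist z v ^ 3 ≤ K * ρ * N := by
    have e : K * dist z v ^ 3 = K * dist z v * N := by rw [hNd, hV]; ring
    rw [e]
    exact mul_le_mul_of_nonneg_right (mul_le_mul_of_nonneg_left hv hK) hN
  have h8 := mul_le_mul_of_nonneg_right e5' hN
  have h9 : 0 ≤ ρ * N := by positivity
  have e6 : (p' ^ 2 + g * (N - p' ^ 2)) = (p ^ 2 + g₀ * (N - p ^ 2)) + (p' ^ 2 - p ^ 2) * (1 - g)
      + (g - g₀) * (N - p ^ 2) := by ring
  rw [e6] at h1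
  have e7 : ρ * (2 * (1 + G₀) + 2 * K + 1) * N = (2 * ρ * N) * (1 + G₀) + 2 * (K * ρ * N) + ρ * N := by
    ring
  rw [e7] at h8
  linarith

/-- the second radial coefficient -/
theorem D2_eq {κ s θ : ℝ} (hs0 : 0 < s) (hs1 : s < 1) (ha : 0 < sn κ (s * θ))
    (hb : 0 < sn κ ((1 - s) * θ)) :
    s⁻¹ * Gc κ (s * θ) + (1 - s)⁻¹ * Gc κ ((1 - s) * θ)
      = θ * sn κ θ / (sn κ (s * θ) * sn κ ((1 - s) * θ)) := by
  have h1 : 0 < 1 - s := by linarith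
  have h2 := sn_ct κ (s * θ) ((1 - s) * θ)
  have e : s * θ + (1 - s) * θ = θ := by ring
  rw [e] at h2
  unfold Gc
  rw [h2]
  generalize sn κ (s * θ) = A at *
  generalize sn κ ((1 - s) * θ) = B at *
  field_simp
  ring

/-- sizes of the end point logarithms -/
theorem Est.lx {l T K : ℝ} {w : M} (h : PtG κ n s z L S X Y u u') (hl : 0 < l) (hK : 0 ≤ K)
    (E1 : Est κ s z L X Y u u' l T K (ee z L Y) w) {ρ : ℝ} (hw : dist z w ≤ ρ) :
    ‖L (X w) + (s * dist (X z) (Y z)) • ee z L Y‖ ≤ (T + 1) * K * ρ := by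
  have hα := E1.α_mem
  have hα0 : 0 < dist z (X w) := hl.trans_le hα.1
  have hKρ : K * dist z w ≤ K * ρ := mul_le_mul_of_nonneg_left hw hK
  have e : L (X w) + (s * dist (X z) (Y z)) • ee z L Y
      = dist z (X w) • ((dist z (X w))⁻¹ • L (X w) + ee z L Y)
        + (s * dist (X z) (Y z) - dist z (X w)) • ee z L Y := by
    rw [smul_add, smul_smul, mul_inv_cancel₀ hα0.ne', one_smul, sub_smul]
    abel
  rw [e]
  refine (norm_add_le _ _).trans ?_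
  rw [norm_smul, norm_smul, h.norm_e, mul_one, Real.norm_eq_abs, Real.norm_eq_abs,
    abs_of_pos hα0, ← h.za, abs_sub_comm]
  have h1 : dist z (X w) * ‖(dist z (X w))⁻¹ • L (X w) + ee z L Y‖ ≤ T * (K * ρ) :=
    mul_le_mul hα.2 (E1.dx.trans hKρ) (norm_nonneg _) (hα0.le.trans hα.2)
  have h2 := E1.α_near.trans hKρ
  linarith

theorem Est.ly {l T K : ℝ} {w : M} (h : PtG κ n s z L S X Y u u') (hl : 0 < l) (hK : 0 ≤ K)
    (E1 : Est κ s z L X Y u u' l T K (ee z L Y) w) {ρ : ℝ} (hw : dist z w ≤ ρ) :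
    ‖L (Y w) - ((1 - s) * dist (X z) (Y z)) • ee z L Y‖ ≤ (T + 1) * K * ρ := by
  have hα := E1.β_mem
  have hα0 : 0 < dist z (Y w) := hl.trans_le hα.1
  have hKρ : K * dist z w ≤ K * ρ := mul_le_mul_of_nonneg_left hw hK
  have e : L (Y w) - ((1 - s) * dist (X z) (Y z)) • ee z L Y
      = dist z (Y w) • ((dist z (Y w))⁻¹ • L (Y w) - ee z L Y)
        + (dist z (Y w) - (1 - s) * dist (X z) (Y z)) • ee z L Y := by
    rw [smul_sub, smul_smul, mul_inv_cancel₀ hα0.ne', one_smul, sub_smul]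
    abel
  rw [e]
  refine (norm_add_le _ _).trans ?_
  rw [norm_smul, norm_smul, h.norm_e, mul_one, Real.norm_eq_abs, Real.norm_eq_abs,
    abs_of_pos hα0, ← h.zb]
  have h1 : dist z (Y w) * ‖(dist z (Y w))⁻¹ • L (Y w) - ee z L Y‖ ≤ T * (K * ρ) :=
    mul_le_mul hα.2 (E1.dy.trans hKρ) (norm_nonneg _) (hα0.le.trans hα.2)
  have h2 := E1.β_near.trans hKρ
  linarith

theorem Est.zeta {l T K : ℝ} {w w' : M} (h : PtG κ n s z L S X Y u u')
    (hl : 0 < l) (hK : 0 ≤ K)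
    (E1 : Est κ s z L X Y u u' l T K (ee z L Y) w) (E2 : Est κ s z L X Y u u' l T K (ee z L Y) w')
    {ρ : ℝ} (hw : dist z w ≤ ρ) (hw' : dist z w' ≤ ρ) :
    ‖-(s⁻¹ • L (X w)) - (1 - s)⁻¹ • L (Y w')‖ ≤ (s⁻¹ + (1 - s)⁻¹) * ((T + 1) * K) * ρ := by
  have hs := h.s_pos
  have hs' : 0 < 1 - s := by linarith [h.s_lt]
  have h1 := E1.lx h hl hK hw
  have h2 := E2.ly h hl hK hw'
  have e : -(s⁻¹ • L (X w)) - (1 - s)⁻¹ • L (Y w')
      = -(s⁻¹ • (L (X w) + (s * dist (X z) (Y z)) • ee z L Y)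
        + (1 - s)⁻¹ • (L (Y w') - ((1 - s) * dist (X z) (Y z)) • ee z L Y)) := by
    rw [smul_add, smul_sub, smul_smul, smul_smul, ← mul_assoc, ← mul_assoc,
      inv_mul_cancel₀ hs.ne', inv_mul_cancel₀ hs'.ne']
    abel
  rw [e, norm_neg]
  refine (norm_add_le _ _).trans ?_
  rw [norm_smul, norm_smul, Real.norm_eq_abs, Real.norm_eq_abs, abs_of_pos (inv_pos.2 hs),
    abs_of_pos (inv_pos.2 hs')]
  have h3 := mul_le_mul_of_nonneg_left h1 (inv_pos.2 hs).le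
  have h4 := mul_le_mul_of_nonneg_left h2 (inv_pos.2 hs').le
  linarith

/-- first radial coefficient -/
noncomputable def cD1 (s : ℝ) : ℝ := 1 / (s * (1 - s))

/-- second radial coefficient -/
noncomputable def cD2 (κ s θ : ℝ) : ℝ := θ * sn κ θ / (sn κ (s * θ) * sn κ ((1 - s) * θ))

/-- **(I)**: upper bound of `a + b` -/
theorem PtG.upper (hA : T.IsAlexandrov M κ) (hHS : Blk_HS) (hEX : Blk_EX)
    (h : PtG κ n s z L S X Y u u') {ε : ℝ} (hε : 0 < ε) :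
    ∃ ρ > 0, ∀ w ∈ S, dist z w ≤ ρ → ka s z X u w + kb s z Y u' w ≤
      QQ (cD1 s) (cD2 κ s (dist (X z) (Y z))) (ee z L Y) (L w) / 2 + ε * dist z w ^ 2 := by
  obtain ⟨l, T, K, ρ₁, hl, hT, hK, hρ₁, hsn, hzα, hzβ, hE⟩ := h.est hA hHS hEX
  have hs := h.s_pos
  have hs' : 0 < 1 - s := by linarith [h.s_lt]
  have hθ := h.pos
  have ha : 0 < sn κ (s * dist (X z) (Y z)) := by rw [← h.za]; exact hsn _ hzα
  have hb : 0 < sn κ ((1 - s) * dist (X z) (Y z)) := by rw [← h.zb]; exact hsn _ hzβ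
  have hcont : ContinuousAt (cD2 κ s) (dist (X z) (Y z)) := by
    unfold cD2
    have c := H616.continuous_sn κ
    refine ContinuousAt.div ?_ ?_ (mul_pos ha hb).ne'
    · exact (continuous_id.mul c).continuousAt
    · exact ((c.comp (continuous_const.mul continuous_id)).mul
        (c.comp (continuous_const.mul continuous_id))).continuousAt
  obtain ⟨δ, hδ, hG⟩ := Metric.continuousAt_iff.1 hcont ε hε
  have hK1 : 0 < K + 1 := by linarith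
  set ρ := min (min ρ₁ (δ / (K + 1) / 2)) (ε / (2 * (K + 1))) with hρ
  have e1 : ρ ≤ ρ₁ := (min_le_left _ _).trans (min_le_left _ _)
  have e2 : ρ ≤ δ / (K + 1) / 2 := (min_le_left _ _).trans (min_le_right _ _)
  have e3 : ρ ≤ ε / (2 * (K + 1)) := min_le_right _ _
  have hρ0 : 0 < ρ := lt_min (lt_min hρ₁ (by positivity)) (by positivity)
  refine ⟨ρ, hρ0, fun w hw hwρ => ?_⟩
  have E1 := hE w hw (hwρ.trans e1)
  have h1 := E1.sharp
  have hd0 : 0 ≤ dist z w := dist_nonneg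
  have h2 : dist (dist (X w) (Y w)) (dist (X z) (Y z)) < δ := by
    rw [Real.dist_eq]
    refine (E1.θ_near).trans_lt ?_
    have h3 : K * dist z w ≤ (K + 1) * (δ / (K + 1) / 2) :=
      mul_le_mul (by linarith) (hwρ.trans e2) hd0 hK1.le
    have e : (K + 1) * (δ / (K + 1) / 2) = δ / 2 := by field_simp
    rw [e] at h3
    linarith
  have h3 := (hG h2).le
  rw [Real.dist_eq] at h3
  have hLw : ‖L w‖ = dist z w := h.lg.norm w
  have hip : ⟪ee z L Y, L w⟫ ^ 2 ≤ dist z w ^ 2 := by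
    rw [← hLw, ← sq_abs]; exact pow_le_pow_left₀ (abs_nonneg _) (inner_unit h.norm_e) 2
  have e4 : dist (X w) (Y w) * sn κ (dist (X w) (Y w))
        / (sn κ (s * dist (X w) (Y w)) * sn κ ((1 - s) * dist (X w) (Y w)))
      = cD2 κ s (dist (X w) (Y w)) := rfl
  rw [e4] at h1
  have e5 : (1 / (s * (1 - s))) = cD1 s := rfl
  rw [e5] at h1
  set D := cD2 κ s (dist (X w) (Y w)) with hD
  set D0 := cD2 κ s (dist (X z) (Y z)) with hD0
  set p := ⟪ee z L Y, L w⟫ with hp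
  unfold QQ
  rw [hLw] at h1 ⊢
  have h4 : (D - D0) * (dist z w ^ 2 - p ^ 2) ≤ ε * dist z w ^ 2 := by
    refine (mul_le_mul_of_nonneg_right ((le_abs_self _).trans h3) (by linarith)).trans ?_
    exact mul_le_mul_of_nonneg_left (by linarith [sq_nonneg p]) hε.le
  have h5 : K * dist z w ^ 3 ≤ ε / 2 * dist z w ^ 2 := by
    have e : K * dist z w ^ 3 = (K * dist z w) * dist z w ^ 2 := by ring
    rw [e]
    refine mul_le_mul_of_nonneg_right ?_ (sq_nonneg _)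
    have h6 : K * dist z w ≤ (K + 1) * (ε / (2 * (K + 1))) :=
      mul_le_mul (by linarith) (hwρ.trans e3) hd0 hK1.le
    have e' : (K + 1) * (ε / (2 * (K + 1))) = ε / 2 := by field_simp
    rwa [e'] at h6
  have e6 : D * (dist z w ^ 2 - p ^ 2) = D0 * (dist z w ^ 2 - p ^ 2)
      + (D - D0) * (dist z w ^ 2 - p ^ 2) := by ring
  rw [e6] at h1
  linarith

/-- the logarithm is almost onto near `z` -/
def LDense (z : M) (L : M → E n) : Prop :=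
  ∀ η > 0, ∀ R > 0, ∀ᶠ r : ℝ in 𝓝[>] 0, ∀ ζ : E n, ‖ζ‖ ≤ R * r → ∃ v : M, ‖L v - ζ‖ ≤ η * r

/-- **(II)**: lower bound of `a w + b w'` -/
theorem PtG.lower (hA : T.IsAlexandrov M κ) (hHS : Blk_HS) (hEX : Blk_EX) (hd : LDense z L)
    (h : PtG κ n s z L S X Y u u') {ε : ℝ} (hε : 0 < ε) :
    ∀ᶠ ρ : ℝ in 𝓝[>] 0, ∀ w ∈ S, ∀ w' ∈ S, dist z w ≤ ρ → dist z w' ≤ ρ →
      QQ (cD1 s)⁻¹ (cD2 κ s (dist (X z) (Y z)))⁻¹ (ee z L Y)
        (-(s⁻¹ • L (X w)) - (1 - s)⁻¹ • L (Y w')) / 2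
        ≤ ka s z X u w + kb s z Y u' w' + ε * ρ ^ 2 := by
  obtain ⟨l, T, K, ρ₁, hl, hT, hK, hρ₁, hsn, hzα, hzβ, hE⟩ := h.est hA hHS hEX
  have hs := h.s_pos
  have hs' : 0 < 1 - s := by linarith [h.s_lt]
  have hθ := h.pos
  have hsq : 0 ≤ √κ := Real.sqrt_nonneg _
  set θ := dist (X z) (Y z) with hθd
  have hza := h.za
  have hzb := h.zb
  rw [← hθd] at hza hzb
  have ha : 0 < sn κ (s * θ) := by rw [← hza]; exact hsn _ hzα
  have hb : 0 < sn κ ((1 - s) * θ) := by rw [← hzb]; exact hsn _ hzβ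
  have hst : 0 < sn κ θ := H616.sn_pos hθ fun _ => h.lt
  set D1 := cD1 s with hD1
  set D2 := cD2 κ s θ with hD2
  have hD10 : 0 < D1 := by rw [hD1]; unfold cD1; positivity
  have hD20 : 0 < D2 := by rw [hD2]; unfold cD2; positivity
  set e := ee z L Y with he
  have hen : ‖e‖ = 1 := h.norm_e
  have hT0 : 0 ≤ T := hl.le.trans (hzα.1.trans hzα.2)
  set Kz := (s⁻¹ + (1 - s)⁻¹) * ((T + 1) * K) with hKz
  have hKz0 : 0 ≤ Kz := by positivity
  set Ko := (D1⁻¹ + 2 * D2⁻¹) * Kz with hKo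
  have hKo0 : 0 ≤ Ko := by positivity
  -- the small parameters
  set ε₁ := ε / (2 * D1 * (Ko + 1) ^ 2) with hε₁
  have hε₁0 : 0 < ε₁ := by positivity
  set η := min 1 (ε / (D1 + D2)) with hη
  have hη0 : 0 < η := lt_min one_pos (by positivity)
  have hη1 : η ≤ 1 := min_le_left _ _
  have hη2 : η ≤ ε / (D1 + D2) := min_le_right _ _
  have hπa : √κ * (s * θ) < Real.pi := by
    refine lt_of_le_of_lt (mul_le_mul_of_nonneg_left ?_ hsq) h.lt
    exact mul_le_of_le_one_left hθ.le h.s_lt.le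
  have hπb : √κ * ((1 - s) * θ) < Real.pi := by
    refine lt_of_le_of_lt (mul_le_mul_of_nonneg_left ?_ hsq) h.lt
    exact mul_le_of_le_one_left hθ.le (by linarith)
  obtain ⟨ρa, hρa, hNa⟩ := h.lg.near_hinge hHS (a₀ := s * θ) (by positivity) hπa
    (e := -e) (by rw [norm_neg, hen]) hε₁0
  obtain ⟨ρb, hρb, hNb⟩ := h.lg.near_hinge hHS (a₀ := (1 - s) * θ) (by positivity) hπb
    (e := e) hen hε₁0
  set ρ₂ := min ρ₁ (min (ρa / (K + Ko + 2)) (ρb / (K + Ko + 2))) with hρ₂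
  have hρ₂0 : 0 < ρ₂ := lt_min hρ₁ (lt_min (by positivity) (by positivity))
  filter_upwards [hd η hη0 (Ko + 1) (by positivity), self_mem_nhdsWithin,
    (eventually_lt_nhds hρ₂0).filter_mono nhdsWithin_le_nhds] with ρ hdρ hρ0 hρρ w hw w' hw' hwρ hwρ'
  have hρ0' : 0 < ρ := hρ0
  have r1 : ρ ≤ ρ₁ := hρρ.le.trans (min_le_left _ _)
  have r2 : (K + Ko + 2) * ρ ≤ ρa := by
    have : ρ ≤ ρa / (K + Ko + 2) := hρρ.le.trans ((min_le_right _ _).trans (min_le_left _ _))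
    rw [le_div_iff₀ (by positivity)] at this
    linarith
  have r3 : (K + Ko + 2) * ρ ≤ ρb := by
    have : ρ ≤ ρb / (K + Ko + 2) := hρρ.le.trans ((min_le_right _ _).trans (min_le_right _ _))
    rw [le_div_iff₀ (by positivity)] at this
    linarith
  have hKρ : 0 ≤ K * ρ := by positivity
  have hKoρ : 0 ≤ Ko * ρ := by positivity
  have E1 := hE w hw (hwρ.trans r1)
  have E2 := hE w' hw' (hwρ'.trans r1)
  have hz := E1.zeta h hl hK E2 hwρ hwρ'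
  rw [← hKz] at hz
  set ζ := -(s⁻¹ • L (X w)) - (1 - s)⁻¹ • L (Y w') with hζ
  set V₀ := -(D2⁻¹ • ζ + ((D1⁻¹ - D2⁻¹) * ⟪e, ζ⟫) • e) with hV₀
  have hV₀n : ‖V₀‖ ≤ Ko * ρ := by
    rw [hV₀, norm_neg]
    refine (norm_opt_le hD10 hD20 hen ζ).trans ?_
    have := mul_le_mul_of_nonneg_left hz (by positivity : 0 ≤ D1⁻¹ + 2 * D2⁻¹)
    rw [hKo]; linarith
  obtain ⟨v, hv⟩ := hdρ V₀ (by linarith)
  have hvn : ‖L v‖ ≤ (Ko + 1) * ρ := by
    have h1 : ‖L v‖ ≤ ‖L v - V₀‖ + ‖V₀‖ := by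
      have := norm_add_le (L v - V₀) V₀
      rwa [sub_add_cancel] at this
    have h2 : η * ρ ≤ 1 * ρ := mul_le_mul_of_nonneg_right hη1 hρ0'.le
    linarith
  have hvd : dist z v ≤ (Ko + 1) * ρ := by rw [← h.lg.norm]; exact hvn
  have hKw : K * dist z w ≤ K * ρ := mul_le_mul_of_nonneg_left hwρ hK
  have hKw' : K * dist z w' ≤ K * ρ := mul_le_mul_of_nonneg_left hwρ' hK
  have hA1 := hNa (X w) v (by rw [← hza]; linarith [E1.α_near])
    (by rw [sub_neg_eq_add]; linarith [E1.dx]) (by linarith)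
  have hB1 := hNb (Y w') v (by rw [← hzb]; linarith [E2.β_near])
    (by linarith [E2.dy]) (by linarith)
  rw [inner_neg_left, neg_sq] at hA1
  have hcr := h.cross hw hw' v
  have hsqr := QQ_square hD10 hD20 hen (L v) ζ
  have hW : L v + (D2⁻¹ • ζ + ((D1⁻¹ - D2⁻¹) * ⟪e, ζ⟫) • e) = L v - V₀ := by
    rw [hV₀, sub_neg_eq_add]
  rw [hW] at hsqr
  have hWle : QQ D1 D2 e (L v - V₀) ≤ ε * ρ ^ 2 := by
    refine (QQ_le hD10 hD20 hen _).trans ?_
    have h1 : ‖L v - V₀‖ ^ 2 ≤ (η * ρ) ^ 2 := pow_le_pow_left₀ (norm_nonneg _) hv 2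
    have h2 : η ^ 2 ≤ ε / (D1 + D2) := by
      calc η ^ 2 = η * η := sq η
        _ ≤ 1 * η := mul_le_mul_of_nonneg_right hη1 hη0.le
        _ = η := one_mul _
        _ ≤ _ := hη2
    have h3 : (D1 + D2) * (η * ρ) ^ 2 ≤ ε * ρ ^ 2 := by
      have h4 : (D1 + D2) * η ^ 2 ≤ (D1 + D2) * (ε / (D1 + D2)) :=
        mul_le_mul_of_nonneg_left h2 (by positivity)
      have e' : (D1 + D2) * (ε / (D1 + D2)) = ε := by field_simp
      rw [e'] at h4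
      calc (D1 + D2) * (η * ρ) ^ 2 = ((D1 + D2) * η ^ 2) * ρ ^ 2 := by ring
        _ ≤ ε * ρ ^ 2 := mul_le_mul_of_nonneg_right h4 (sq_nonneg _)
    exact (mul_le_mul_of_nonneg_left h1 (by positivity)).trans h3
  have hNv : ε₁ * D1 * ‖L v‖ ^ 2 ≤ ε / 2 * ρ ^ 2 := by
    have h1 : ‖L v‖ ^ 2 ≤ ((Ko + 1) * ρ) ^ 2 := pow_le_pow_left₀ (norm_nonneg _) hvn 2
    have h2 := mul_le_mul_of_nonneg_left h1 (by positivity : 0 ≤ ε₁ * D1)
    have e' : ε₁ * D1 * ((Ko + 1) * ρ) ^ 2 = ε / 2 * ρ ^ 2 := by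
      rw [hε₁]; field_simp
    rwa [e'] at h2
  have hζv : ⟪ζ, L v⟫ = -(s⁻¹ * ⟪L (X w), L v⟫) - (1 - s)⁻¹ * ⟪L (Y w'), L v⟫ := by
    rw [hζ, inner_sub_left, inner_neg_left, inner_smul_left, inner_smul_left]
    simp only [conj_trivial]
  have hD2e := D2_eq (κ := κ) (θ := θ) hs h.s_lt ha hb
  have hD2' : D2 = s⁻¹ * Gc κ (s * θ) + (1 - s)⁻¹ * Gc κ ((1 - s) * θ) := hD2e.symm
  have hD1' : D1 = s⁻¹ + (1 - s)⁻¹ := by
    rw [hD1]; unfold cD1; field_simp; ring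
  have hA2 := mul_le_mul_of_nonneg_left hA1 (inv_pos.2 hs).le
  have hB2 := mul_le_mul_of_nonneg_left hB1 (inv_pos.2 hs').le
  have eA : dist (X w) v ^ 2 / (2 * s) = s⁻¹ * (dist (X w) v ^ 2 / 2) := by field_simp
  have eB : dist v (Y w') ^ 2 / (2 * (1 - s)) = (1 - s)⁻¹ * (dist (Y w') v ^ 2 / 2) := by
    rw [dist_comm v]; field_simp
  have eA' : dist (X w) z ^ 2 / (2 * s) = s⁻¹ * (dist z (X w) ^ 2 / 2) := by
    rw [dist_comm (X w) z]; field_simp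
  have eB' : dist z (Y w') ^ 2 / (2 * (1 - s)) = (1 - s)⁻¹ * (dist z (Y w') ^ 2 / 2) := by
    field_simp
  rw [eA, eB, eA', eB'] at hcr
  have hQ : QQ D1 D2 e (L v) = s⁻¹ * (⟪e, L v⟫ ^ 2 + Gc κ (s * θ) * (‖L v‖ ^ 2 - ⟪e, L v⟫ ^ 2))
      + (1 - s)⁻¹ * (⟪e, L v⟫ ^ 2 + Gc κ ((1 - s) * θ) * (‖L v‖ ^ 2 - ⟪e, L v⟫ ^ 2)) := by
    unfold QQ
    rw [hD1', hD2']; ring
  have hN' : ε₁ * D1 * ‖L v‖ ^ 2 = s⁻¹ * (ε₁ * ‖L v‖ ^ 2) + (1 - s)⁻¹ * (ε₁ * ‖L v‖ ^ 2) := by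
    rw [hD1']; ring
  have hQζ : QQ D1⁻¹ D2⁻¹ e ζ = QQ D1 D2 e (L v - V₀) - QQ D1 D2 e (L v) - 2 * ⟪ζ, L v⟫ := by
    linarith
  rw [hQζ]
  linarith

end

end Vale.Agent.P233.CDc
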