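import Vale.Agent.P233.Gig.IfA
import Vale.Agent.P233.H748.Ex
import Vale.Agent.P233.H788.Exist
import Vale.Agent.P233.H372.TimeLip

/-! P233, part A: sup bounds of the potentials, comparison of two final densities (helper715). -/

set_option linter.all false

open MeasureTheory Filter Topology Set
open scoped ENNReal NNReal

universe u

namespace Vale.Agent.P233.H715

variable {M : Type u} [MeasurableSpace M] {m : Measure M} {C : Calc m} {K : ℝ}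
  {P : ℝ → (M →ₘ[m] ℝ) → (M →ₘ[m] ℝ)}

theorem ex1_ae (f : M →ₘ[m] ℝ) : ∀ᵐ x ∂m, (ex f - 1 : M →ₘ[m] ℝ) x = Real.exp (f x) - 1 := by
  filter_upwards [sub_ae (ex f) 1, ex_ae f, one_ae (M := M) (m := m)] with x a1 a2 a3
  rw [a1, a2, a3]

/-- comparison: `f ≤ e^B g` is propagated -/
theorem P_cmp (hP : Heat C K P) {s : ℝ} (hs : 0 ≤ s) {F G : M →ₘ[m] ℝ} (hF : MemLp F 2 m)
    (hG : MemLp G 2 m) {B : ℝ} (hB : 0 ≤ B)
    (h : ∀ᵐ x ∂m, F x + 1 ≤ Real.exp B * (G x + 1)) :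
    ∀ᵐ x ∂m, P s F x + 1 ≤ Real.exp B * (P s G x + 1) := by
  have hB1 : 0 ≤ Real.exp B - 1 := by linarith [Real.one_le_exp hB]
  have h1 : MemLp (F + (-Real.exp B) • G : M →ₘ[m] ℝ) 2 m := mem_add hF (mem_smul _ hG)
  have h2 := hP.le s hs _ h1 _ hB1 (by
    filter_upwards [h, add_ae F ((-Real.exp B) • G), smul_ae G (-Real.exp B)] with x a1 a2 a3
    rw [a2, a3]; nlinarith)
  rw [hP.add s hs _ _ hF (mem_smul _ hG), hP.smul s hs _ _ hG] at h2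
  filter_upwards [h2, add_ae (P s F) ((-Real.exp B) • P s G), smul_ae (P s G) (-Real.exp B)]
    with x a1 a2 a3
  rw [a2, a3] at a1
  nlinarith

/-- The mollified initial potential. -/
theorem ini_bdd (hC : IsGamma C) {ε C₀ : ℝ} (hε : 0 < ε) (hC₀ : 0 ≤ C₀) {a : M →ₘ[m] ℝ}
    (ha : a ∈ C.W) (hlo : ∀ᵐ x ∂m, -C₀ ≤ a x) (hhi : ∀ᵐ x ∂m, a x ≤ 0) :
    ∀ᵐ x ∂m, -C₀ ≤ C.J (ε ^ 2) (C.J (ε ^ 2) a) x ∧ C.J (ε ^ 2) (C.J (ε ^ 2) a) x ≤ 0 := by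
  have hD := hC.toIsDir
  have h2 := hC.memLp _ ha
  have hl : 0 < ε ^ 2 := pow_pos hε 2
  have hb : ∀ᵐ x ∂m, |a x| ≤ C₀ := by
    filter_upwards [hlo, hhi] with x a1 a2
    exact abs_le.2 ⟨a1, a2.trans hC₀⟩
  have j1 := hD.J_bdd hl h2 hb
  have m1 := hC.memLp _ (hD.J_mem hl h2)
  have j2 := hD.J_bdd hl m1 j1
  have n0 : 0 ≤ -a := by
    rw [nonneg_iff_ae]
    filter_upwards [hhi, neg_ae a] with x a1 a2
    rw [a2]; linarith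
  have n1 := hD.J_nonneg hl (mem_neg h2) n0
  rw [hD.J_neg hl h2] at n1
  have n2 := hD.J_nonneg hl (mem_neg m1) n1
  rw [hD.J_neg hl m1] at n2
  filter_upwards [j2, nonneg_iff_ae.1 n2, neg_ae (C.J (ε ^ 2) (C.J (ε ^ 2) a))] with x a1 a2 a3
  rw [a3] at a2
  exact ⟨(abs_le.1 a1).1, by linarith⟩

/-- bounds of the forward potential -/
theorem Fam_u_bdd (hC : IsGamma C) (hP : Heat C K P) {ε C₀ : ℝ} (hC₀ : 0 ≤ C₀)
    {a l : M →ₘ[m] ℝ} {φ u : ℝ → M →ₘ[m] ℝ} (h : Fam C P ε a l φ u)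
    (ha : a ∈ C.W) (hlo : ∀ᵐ x ∂m, -C₀ ≤ a x) (hhi : ∀ᵐ x ∂m, a x ≤ 0) :
    ∀ t ∈ Icc (0 : ℝ) 1, ∀ᵐ x ∂m, -C₀ ≤ u t x ∧ u t x ≤ 0 := by
  intro t ht
  have hε := h.pair.hε
  have hε' : 0 < ε⁻¹ := inv_pos.2 hε
  have h0 : (0 : ℝ) ∈ Icc (0 : ℝ) 1 := ⟨le_rfl, zero_le_one⟩
  have e0 := ini_bdd hC hε hC₀ ha hlo hhi
  rw [← h.init] at e0
  have hs : 0 ≤ ε * (t - 0) / 2 := by have := ht.1; positivity
  have g2 : MemLp (ex (-(ε⁻¹ • u 0)) - 1 : M →ₘ[m] ℝ) 2 m :=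
    hC.memLp _ (hC.tI_W (h.pair.g_mem 0 h0))
  have hK1 : 0 ≤ Real.exp (ε⁻¹ * C₀) - 1 := by
    linarith [Real.one_le_exp (by positivity : 0 ≤ ε⁻¹ * C₀)]
  have p1 := hP.le _ hs _ g2 _ hK1 (by
    filter_upwards [e0, ex1_ae (-(ε⁻¹ • u 0)), neg_ae (ε⁻¹ • u 0), smul_ae (u 0) ε⁻¹]
      with x a1 a2 a3 a4
    rw [a2, a3, a4]
    have : -(ε⁻¹ * u 0 x) ≤ ε⁻¹ * C₀ := by nlinarith [a1.1]
    linarith [Real.exp_le_exp.2 this])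
  have p2 := hP.nonneg _ hs _ g2 (by
    rw [nonneg_iff_ae]
    filter_upwards [e0, ex1_ae (-(ε⁻¹ • u 0)), neg_ae (ε⁻¹ • u 0), smul_ae (u 0) ε⁻¹]
      with x a1 a2 a3 a4
    rw [a2, a3, a4]
    have : 0 ≤ -(ε⁻¹ * u 0 x) := by nlinarith [a1.2]
    linarith [Real.one_le_exp this])
  rw [← h.pair.g_eq t ht] at p1 p2
  filter_upwards [p1, nonneg_iff_ae.1 p2, ex1_ae (-(ε⁻¹ • u t)), neg_ae (ε⁻¹ • u t),
    smul_ae (u t) ε⁻¹] with x a1 a2 a3 a4 a5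
  rw [a3, a4, a5] at a1 a2
  have b1 : -(ε⁻¹ * u t x) ≤ ε⁻¹ * C₀ := Real.exp_le_exp.1 (by linarith)
  have b2 : 0 ≤ -(ε⁻¹ * u t x) := by
    rw [← Real.one_le_exp_iff] ; linarith
  constructor
  · have : ε⁻¹ * (-u t x) ≤ ε⁻¹ * C₀ := by linarith
    linarith [le_of_mul_le_mul_left this hε']
  · have : ε⁻¹ * 0 ≤ ε⁻¹ * (-u t x) := by linarith
    linarith [le_of_mul_le_mul_left this hε']

/-- comparison of the backward potentials of two pairs with the same interval -/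
theorem Pair_φ_cmp (hC : IsGamma C) (hP : Heat C K P) {ε a b B : ℝ} (hB : 0 ≤ B)
    {φ u φ' u' : ℝ → M →ₘ[m] ℝ} (h : Pair C P ε a b φ u) (h' : Pair C P ε a b φ' u')
    (hb : ∀ᵐ x ∂m, φ' b x ≤ φ b x + ε * B) :
    ∀ t ∈ Icc a b, ∀ᵐ x ∂m, φ' t x ≤ φ t x + ε * B := by
  intro t ht
  have hε := h.hε
  have hε' : 0 < ε⁻¹ := inv_pos.2 hε
  have hbm : b ∈ Icc a b := ⟨h.hab.le, le_rfl⟩
  have hs : 0 ≤ ε * (b - t) / 2 := by have := sub_nonneg.2 ht.2; positivity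
  have f2 : MemLp (ex (ε⁻¹ • φ b) - 1 : M →ₘ[m] ℝ) 2 m := hC.memLp _ (hC.tI_W (h.f_mem b hbm))
  have f2' : MemLp (ex (ε⁻¹ • φ' b) - 1 : M →ₘ[m] ℝ) 2 m := hC.memLp _ (hC.tI_W (h'.f_mem b hbm))
  have p1 := P_cmp hP hs f2' f2 hB (by
    filter_upwards [hb, ex1_ae (ε⁻¹ • φ b), ex1_ae (ε⁻¹ • φ' b), smul_ae (φ b) ε⁻¹,
      smul_ae (φ' b) ε⁻¹] with x a1 a2 a3 a4 a5
    rw [a2, a3, a4, a5, sub_add_cancel, sub_add_cancel, ← Real.exp_add]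
    refine Real.exp_le_exp.2 ?_
    have := mul_le_mul_of_nonneg_left a1 hε'.le
    have e : ε⁻¹ * (ε * B) = B := by field_simp
    rw [mul_add, e] at this
    linarith)
  rw [← h.f_eq t ht, ← h'.f_eq t ht] at p1
  filter_upwards [p1, ex1_ae (ε⁻¹ • φ t), ex1_ae (ε⁻¹ • φ' t), smul_ae (φ t) ε⁻¹,
      smul_ae (φ' t) ε⁻¹] with x a1 a2 a3 a4 a5
  rw [a2, a3, a4, a5, sub_add_cancel, sub_add_cancel, ← Real.exp_add, Real.exp_le_exp] at a1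
  have := mul_le_mul_of_nonneg_left a1 hε.le
  have e1 : ε * (ε⁻¹ * φ' t x) = φ' t x := by field_simp
  have e2 : ε * (B + ε⁻¹ * φ t x) = φ t x + ε * B := by field_simp; ring
  rw [e1, e2] at this
  exact this

/-- all backward potentials are `ε`-close -/
theorem Fam_same (hC : IsGamma C) (hP : Heat C K P) {ε B : ℝ} (hB : 0 ≤ B)
    {a l : M →ₘ[m] ℝ} {φ φ' u : ℝ → M →ₘ[m] ℝ} (h : Fam C P ε a l φ u) (h' : Fam C P ε a 0 φ' u)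
    (hl : ∀ᵐ x ∂m, |l x| ≤ B) :
    ∀ t ∈ Icc (0 : ℝ) 1, ∀ᵐ x ∂m, |φ t x - φ' t x| ≤ B * ε := by
  intro t ht
  have hε := h.pair.hε
  have f1 := h.fin
  have f1' := h'.fin
  rw [smul_zero, add_zero] at f1'
  have c1 := Pair_φ_cmp hC hP hB h.pair h'.pair (by
    rw [f1, f1']
    filter_upwards [hl, add_ae (u 1) (ε • l), smul_ae l ε] with x a1 a2 a3
    rw [a2, a3]
    nlinarith [(abs_le.1 a1).1]) t ht
  have c2 := Pair_φ_cmp hC hP hB h'.pair h.pair (by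
    rw [f1, f1']
    filter_upwards [hl, add_ae (u 1) (ε • l), smul_ae l ε] with x a1 a2 a3
    rw [a2, a3]
    nlinarith [(abs_le.1 a1).2]) t ht
  filter_upwards [c1, c2] with x a1 a2
  exact abs_le.2 ⟨by nlinarith, by nlinarith⟩

/-- bounds of the backward potential -/
theorem Fam_φ_bdd (hC : IsGamma C) (hP : Heat C K P) {ε C₀ B : ℝ} (hC₀ : 0 ≤ C₀) (hB : 0 ≤ B)
    {a l : M →ₘ[m] ℝ} {φ u : ℝ → M →ₘ[m] ℝ} (h : Fam C P ε a l φ u)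
    (ha : a ∈ C.W) (hlo : ∀ᵐ x ∂m, -C₀ ≤ a x) (hhi : ∀ᵐ x ∂m, a x ≤ 0)
    (hl : ∀ᵐ x ∂m, |l x| ≤ B) :
    ∀ t ∈ Icc (0 : ℝ) 1, ∀ᵐ x ∂m, -C₀ - ε * B ≤ φ t x ∧ φ t x ≤ ε * B := by
  intro t ht
  have hε := h.pair.hε
  have hε' : 0 < ε⁻¹ := inv_pos.2 hε
  have h1 : (1 : ℝ) ∈ Icc (0 : ℝ) 1 := ⟨zero_le_one, le_rfl⟩
  have hs : 0 ≤ ε * (1 - t) / 2 := by have := sub_nonneg.2 ht.2; positivity
  have f2 : MemLp (ex (ε⁻¹ • φ 1) - 1 : M →ₘ[m] ℝ) 2 m :=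
    hC.memLp _ (hC.tI_W (h.pair.f_mem 1 h1))
  have hφ1 : ∀ᵐ x ∂m, -C₀ - ε * B ≤ φ 1 x ∧ φ 1 x ≤ ε * B := by
    rw [h.fin]
    filter_upwards [Fam_u_bdd hC hP hC₀ h ha hlo hhi 1 h1, hl, add_ae (u 1) (ε • l), smul_ae l ε]
      with x a1 a2 a3 a4
    rw [a3, a4]
    obtain ⟨b1, b2⟩ := abs_le.1 a2
    exact ⟨by nlinarith [a1.1], by nlinarith [a1.2]⟩
  -- upper bound
  have hK1 : 0 ≤ Real.exp B - 1 := by linarith [Real.one_le_exp hB]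
  have p1 := hP.le _ hs _ f2 _ hK1 (by
    filter_upwards [hφ1, ex1_ae (ε⁻¹ • φ 1), smul_ae (φ 1) ε⁻¹] with x a1 a2 a3
    rw [a2, a3]
    have : ε⁻¹ * φ 1 x ≤ B := by
      have := mul_le_mul_of_nonneg_left a1.2 hε'.le
      have e : ε⁻¹ * (ε * B) = B := by field_simp
      rwa [e] at this
    linarith [Real.exp_le_exp.2 this])
  -- lower bound
  have hK2 : 0 ≤ 1 - Real.exp (-(ε⁻¹ * C₀ + B)) := by
    have : Real.exp (-(ε⁻¹ * C₀ + B)) ≤ 1 := by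
      rw [Real.exp_le_one_iff]; have : 0 ≤ ε⁻¹ * C₀ + B := by positivity
      linarith
    linarith
  have p2 := H788.P_ge hP hs f2 hK2 (by
    filter_upwards [hφ1, ex1_ae (ε⁻¹ • φ 1), smul_ae (φ 1) ε⁻¹] with x a1 a2 a3
    rw [a2, a3]
    have : -(ε⁻¹ * C₀ + B) ≤ ε⁻¹ * φ 1 x := by
      have := mul_le_mul_of_nonneg_left a1.1 hε'.le
      have e : ε⁻¹ * (-C₀ - ε * B) = -(ε⁻¹ * C₀ + B) := by field_simp; ring
      rwa [e] at this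
    linarith [Real.exp_le_exp.2 this])
  rw [← h.pair.f_eq t ht] at p1 p2
  filter_upwards [p1, p2, ex1_ae (ε⁻¹ • φ t), smul_ae (φ t) ε⁻¹] with x a1 a2 a3 a4
  rw [a3, a4] at a1 a2
  have b1 : ε⁻¹ * φ t x ≤ B := Real.exp_le_exp.1 (by linarith)
  have b2 : -(ε⁻¹ * C₀ + B) ≤ ε⁻¹ * φ t x := Real.exp_le_exp.1 (by linarith)
  have e1 : ε * (ε⁻¹ * φ t x) = φ t x := by field_simp
  have e2 : ε * (-(ε⁻¹ * C₀ + B)) = -C₀ - ε * B := by field_simp; ring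
  have c1 := mul_le_mul_of_nonneg_left b1 hε.le
  have c2 := mul_le_mul_of_nonneg_left b2 hε.le
  rw [e1] at c1
  rw [e1, e2] at c2
  exact ⟨c2, c1⟩

/-- the Laplacian bound of `φ` up to the final time -/
theorem lap_φ' {N D ε : ℝ} (hN : 0 ≤ N) (hD : 0 ≤ D) (hε : 0 < ε) {φ : ℝ → M →ₘ[m] ℝ}
    (h1 : ∀ t ∈ Ico (0 : ℝ) 1, ∀ᵐ x ∂m, -(N / (1 - t) + D) ≤ C.lap (φ t) x)
    (h2 : ∀ t ∈ Icc (0 : ℝ) 1, ∀ᵐ x ∂m, ε * |C.lap (φ t) x| ≤ D) (hε1 : ε ≤ 1) :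
    ∀ t ∈ Icc (0 : ℝ) 1, ∀ᵐ x ∂m, -((2 * N + 2 * D) / (1 - t + ε)) ≤ C.lap (φ t) x := by
  intro t ht
  rcases le_or_gt (1 - t) ε with hc | hc
  · filter_upwards [h2 t ht] with x a1
    have hp : 0 < 1 - t + ε := by linarith [ht.2]
    have b1 : |C.lap (φ t) x| ≤ D / ε := by rw [le_div_iff₀ hε]; linarith
    have b2 : D / ε ≤ (2 * N + 2 * D) / (1 - t + ε) := by
      rw [div_le_div_iff₀ hε hp]; nlinarith
    linarith [(abs_le.1 b1).1]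
  · have ht1 : t ∈ Ico (0 : ℝ) 1 := ⟨ht.1, by linarith⟩
    filter_upwards [h1 t ht1] with x a1
    have hp : 0 < 1 - t + ε := by linarith
    have hp' : 0 < 1 - t := by linarith
    have b1 : N / (1 - t) + D ≤ (2 * N + 2 * D) / (1 - t + ε) := by
      rw [le_div_iff₀ hp, add_mul, div_mul_eq_mul_div]
      have c1 : N * (1 - t + ε) / (1 - t) ≤ 2 * N := by
        rw [div_le_iff₀ hp']; nlinarith
      have c2 : D * (1 - t + ε) ≤ 2 * D := by nlinarith [ht.1]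
      linarith
    linarith

end Vale.Agent.P233.H715
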