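import Vale.Agent.P233.H715.RG2
import Vale.Agent.P233.H719.RADef

/-! P233, RCDA (helper715): local sharp estimate of the radial contraction; block RL1 (curvature
bounds `κ ≤ 0`). -/

set_option linter.all false

open Real Set Filter Topology MeasureTheory
open scoped ENNReal NNReal MeasureTheory

universe u

namespace Vale.Agent.P233.H715.RG

open Vale.Agent.P233.H616

theorem md_mono {κ u v : ℝ} (hu : 0 ≤ u) (huv : u ≤ v) (h : √κ * v ≤ π) : H616.md κ u ≤ H616.md κ v := by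
  have hm : MonotoneOn (H616.md κ) (Icc 0 v) := by
    refine monotoneOn_of_deriv_nonneg (convex_Icc 0 v) (continuous_md κ).continuousOn ?_ ?_
    · intro t _
      exact ((hasDerivAt_md κ t).differentiableAt).differentiableWithinAt
    · intro t ht
      rw [interior_Icc] at ht
      rw [(hasDerivAt_md κ t).deriv]
      exact sn_nonneg' ht.1.le ((mul_le_mul_of_nonneg_left ht.2.le (Real.sqrt_nonneg κ)).trans h)
  exact hm ⟨hu, huv⟩ ⟨hu.trans huv, le_rfl⟩ huv

theorem md_abs (κ t : ℝ) : H616.md κ |t| = H616.md κ t := by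
  rcases abs_cases t with h | h
  · rw [h.1]
  · rw [h.1, md_neg]

section metric

variable {M : Type u} [MetricSpace M] {κ : ℝ}

/-- the constant `C₀ = |κ| cosh(√|κ| T)` -/
noncomputable def c0 (κ T : ℝ) : ℝ := |κ| * cosh (√|κ| * T)

theorem c0_nonneg (κ T : ℝ) : 0 ≤ c0 κ T := mul_nonneg (abs_nonneg _) (Real.cosh_pos _).le

/-- **local sharp estimate** -/
theorem key_local (hA : T.IsAlexandrov M κ) {o x y z w : M} {q T : ℝ} (hq0 : 0 ≤ q) (hq1 : q ≤ 1)
    (hz : dist o z + dist z x = dist o x) (hw : dist o w + dist w y = dist o y)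
    (hp : √κ * (dist o x + dist o y + dist x y) < 2 * π)
    (hx0 : 0 < dist o x) (hy0 : 0 < dist o y)
    (hqx : q * H616.sn κ (dist o x) ≤ H616.sn κ (dist o z)) (hqy : q * H616.sn κ (dist o y) ≤ H616.sn κ (dist o w))
    (hqr : q * |dist o x - dist o y| ≤ |dist o z - dist o w|)
    (hd : dist x y ≤ T) (hr : dist z w ≤ T) :
    q ^ 2 * dist x y ^ 2 ≤ dist z w ^ 2 + 4 * c0 κ T * (dist z w ^ 4 + dist x y ^ 4) := by
  have hsq : 0 ≤ √κ := Real.sqrt_nonneg _
  have hG := two_side hA hz hw hp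
  set a := dist o x with ha
  set b := dist o y with hb
  set a' := dist o z with ha'
  set b' := dist o w with hb'
  set d := dist x y with hdd
  set r := dist z w with hrr
  have hd0 : 0 ≤ d := dist_nonneg
  have hr0 : 0 ≤ r := dist_nonneg
  have ha0 : 0 ≤ a := hx0.le
  have hb0 : 0 ≤ b := hy0.le
  have habd : |a - b| ≤ d := by
    rw [ha, hb, dist_comm o x, dist_comm o y]; exact abs_dist_sub_le x y o
  have habr : |a' - b'| ≤ r := by
    rw [ha', hb', dist_comm o z, dist_comm o w]; exact abs_dist_sub_le z w o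
  have hxπ : √κ * a < π := half_perim hp
  have hyπ : √κ * b < π := by
    have h3 : √κ * (b + a + dist y x) < 2 * π := by
      rw [dist_comm y x]
      have e : b + a + dist x y = a + b + d := by rw [← hdd]; ring
      rw [e]; exact hp
    exact half_perim h3
  have hdπ : √κ * d ≤ π := by
    have h1 : d ≤ a + b := dist_triangle_left x y o
    have h2 : √κ * (2 * d) ≤ √κ * (a + b + d) := mul_le_mul_of_nonneg_left (by linarith) hsq
    linarith
  have sa : 0 < H616.sn κ a := sn_pos hx0 fun _ => hxπ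
  have sb : 0 < H616.sn κ b := sn_pos hy0 fun _ => hyπ
  have hmd : 0 ≤ H616.md κ d - H616.md κ (a - b) := by
    rw [← md_abs κ (a - b)]
    have := md_mono (κ := κ) (abs_nonneg (a - b)) habd hdπ
    linarith
  have h1 : q ^ 2 * (H616.sn κ a * H616.sn κ b) * (H616.md κ d - H616.md κ (a - b)) ≤
      H616.sn κ a * H616.sn κ b * (H616.md κ r - H616.md κ (a' - b')) := by
    refine le_trans (mul_le_mul_of_nonneg_right ?_ hmd) hG
    have e : q ^ 2 * (H616.sn κ a * H616.sn κ b) = (q * H616.sn κ a) * (q * H616.sn κ b) := by ring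
    rw [e]
    exact mul_le_mul hqx hqy (mul_nonneg hq0 sb.le) ((mul_nonneg hq0 sa.le).trans hqx)
  have h2 : q ^ 2 * (H616.md κ d - H616.md κ (a - b)) ≤ H616.md κ r - H616.md κ (a' - b') := by
    have hs : 0 < H616.sn κ a * H616.sn κ b := mul_pos sa sb
    have e : q ^ 2 * (H616.sn κ a * H616.sn κ b) * (H616.md κ d - H616.md κ (a - b))
        = H616.sn κ a * H616.sn κ b * (q ^ 2 * (H616.md κ d - H616.md κ (a - b))) := by ring
    rw [e] at h1
    exact le_of_mul_le_mul_left h1 hs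
  -- quadratic approximations
  set C := c0 κ T with hC
  have hC0 : 0 ≤ C := c0_nonneg κ T
  have k1 := abs_le.1 (md_quad (κ := κ) (h := d) (T := T) (by rwa [abs_of_nonneg hd0]))
  have k2 := abs_le.1 (md_quad (κ := κ) (h := r) (T := T) (by rwa [abs_of_nonneg hr0]))
  have k3 := abs_le.1 (md_quad (κ := κ) (h := a - b) (T := T) (habd.trans hd))
  have k4 := abs_le.1 (md_quad (κ := κ) (h := a' - b') (T := T) (habr.trans hr))
  change -(C * _) ≤ _ ∧ _ ≤ C * _ at k1 k2 k3 k4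
  have p1 : (a - b) ^ 4 ≤ d ^ 4 := by
    rw [← Even.pow_abs ⟨2, rfl⟩ (a - b)]; exact pow_le_pow_left₀ (abs_nonneg _) habd 4
  have p2 : (a' - b') ^ 4 ≤ r ^ 4 := by
    rw [← Even.pow_abs ⟨2, rfl⟩ (a' - b')]; exact pow_le_pow_left₀ (abs_nonneg _) habr 4
  have p3 : q ^ 2 * (a - b) ^ 2 ≤ (a' - b') ^ 2 := by
    have := pow_le_pow_left₀ (mul_nonneg hq0 (abs_nonneg _)) hqr 2
    rwa [mul_pow, sq_abs, sq_abs] at this
  have q2 : q ^ 2 ≤ 1 := pow_le_one₀ hq0 hq1
  have q20 : 0 ≤ q ^ 2 := sq_nonneg q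
  have u1 : q ^ 2 * (d ^ 2 / 2 - C * d ^ 4) ≤ q ^ 2 * H616.md κ d :=
    mul_le_mul_of_nonneg_left (by linarith [k1.1]) q20
  have u2 : q ^ 2 * H616.md κ (a - b) ≤ q ^ 2 * ((a - b) ^ 2 / 2 + C * d ^ 4) := by
    refine mul_le_mul_of_nonneg_left ?_ q20
    have := mul_le_mul_of_nonneg_left p1 hC0
    linarith [k3.2]
  have u3 : (a' - b') ^ 2 / 2 - C * r ^ 4 ≤ H616.md κ (a' - b') := by
    have := mul_le_mul_of_nonneg_left p2 hC0
    linarith [k4.1]
  have u4 : q ^ 2 * (C * d ^ 4) ≤ C * d ^ 4 := mul_le_of_le_one_left (by positivity) q2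
  have k22 := k2.2
  have e1 : q ^ 2 * (d ^ 2 / 2 - C * d ^ 4) = q ^ 2 * d ^ 2 / 2 - q ^ 2 * (C * d ^ 4) := by ring
  have e2 : q ^ 2 * ((a - b) ^ 2 / 2 + C * d ^ 4)
      = q ^ 2 * (a - b) ^ 2 / 2 + q ^ 2 * (C * d ^ 4) := by ring
  have e3 : q ^ 2 * (H616.md κ d - H616.md κ (a - b))
      = q ^ 2 * H616.md κ d - q ^ 2 * H616.md κ (a - b) := by ring
  have e4 : 4 * C * (r ^ 4 + d ^ 4) = 4 * (C * r ^ 4) + 4 * (C * d ^ 4) := by ring
  rw [e1] at u1
  rw [e2] at u2
  rw [e3] at h2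
  rw [e4]
  linarith

end metric

/-! ### the block RL1 for `κ ≤ 0` -/

section

variable {M : Type u} [MetricSpace M] {κ : ℝ}

theorem rat_col {p x z : M} {l : ℝ} (h : RA.Rat p x z l) :
    dist p z + dist z x = dist p x ∧ dist p z = l * dist p x :=
  ⟨by rw [h.1, h.2]; ring, h.1⟩

theorem sqrt_np {κ : ℝ} (hk : κ ≤ 0) : √κ = 0 := Real.sqrt_eq_zero_of_nonpos hk

theorem invLip_np (hA : T.IsAlexandrov M κ) (hk : κ ≤ 0) : RA.InvLip M := by
  intro R hR
  refine ⟨cR κ R, by linarith [cR_ge κ R], fun p x y z w l hl hx hy hz hw => ?_⟩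
  obtain ⟨z1, z2⟩ := rat_col hz
  obtain ⟨w1, w2⟩ := rat_col hw
  exact contr_lip hA (by rw [sqrt_np hk, zero_mul]; positivity) hl.1 hl.2 hx.le hy.le z1 z2 w1 w2

theorem sn_ge_self {κ t : ℝ} (hk : κ ≤ 0) (ht : 0 ≤ t) : t ≤ H616.sn κ t := by
  rcases hk.lt_or_eq with hk | hk
  · rw [sn_neg' hk]
    have hs : 0 < √(-κ) := Real.sqrt_pos.2 (by linarith)
    rw [le_div_iff₀ hs]
    have h1 : √(-κ) * t ≤ sinh (√(-κ) * t) := Real.self_le_sinh_iff.2 (by positivity)
    linarith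
  · subst hk
    rw [sn_zero']

/-- `sn(l a) ≥ (1 - (1-l) c) sn a` for `0 ≤ a ≤ R` -/
theorem sn_ratio {κ a R l : ℝ} (hk : κ ≤ 0) (ha : 0 ≤ a) (haR : a ≤ R) (hl0 : 0 ≤ l) (hl : l ≤ 1) :
    (1 - (1 - l) * cosh (√|κ| * R)) * H616.sn κ a ≤ H616.sn κ (l * a) := by
  set c := cosh (√|κ| * R) with hc
  have hc1 : 1 ≤ c := Real.one_le_cosh _
  have hla : l * a ≤ a := mul_le_of_le_one_left ha hl
  have hla0 : 0 ≤ l * a := mul_nonneg hl0 ha
  have h2 := (convex_Icc 0 a).norm_image_sub_le_of_norm_hasDerivWithin_le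
    (f := H616.sn κ) (f' := H616.cs κ) (C := c)
    (fun x _ => (hasDerivAt_sn κ x).hasDerivWithinAt) (fun x hx => by
      rw [Real.norm_eq_abs]
      exact abs_cs_le (by rw [abs_of_nonneg hx.1]; exact hx.2.trans haR))
    (x := l * a) (y := a) ⟨hla0, hla⟩ ⟨ha, le_rfl⟩
  rw [Real.norm_eq_abs, Real.norm_eq_abs, abs_of_nonneg (a := a - l * a) (by linarith)] at h2
  have h3 := (le_abs_self _).trans h2
  have h4 := sn_ge_self hk ha
  have h5 : c * (a - l * a) = (1 - l) * c * a := by ring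
  have h6 : (1 - l) * c * a ≤ (1 - l) * c * H616.sn κ a :=
    mul_le_mul_of_nonneg_left h4 (mul_nonneg (by linarith) (by linarith))
  linarith

theorem poly_e {e : ℝ} (he0 : 0 < e) (he1 : e ≤ 1) :
    1 + e / 8 ≤ (1 - e / 8) ^ 2 * (1 + e) ^ 2 := by
  have h1 : 1 + e / 2 ≤ (1 - e / 8) * (1 + e) := by nlinarith
  have h2 : (1 + e / 2) ^ 2 ≤ ((1 - e / 8) * (1 + e)) ^ 2 :=
    pow_le_pow_left₀ (by linarith) h1 2
  rw [← mul_pow]
  refine le_trans ?_ h2
  nlinarith [sq_nonneg e]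

theorem last_step {C D e q r d : ℝ} (hC0 : 0 ≤ C) (he0 : 0 < e) (he1 : e ≤ 1) (hq0 : 0 < q)
    (hqe : 1 - e / 8 ≤ q) (hd0 : 0 ≤ d) (hr0 : 0 ≤ r) (hdD : d ≤ D * r) (hr1 : r ≤ 1)
    (hr2 : r ≤ e / (8 * (4 * C * (1 + D ^ 4) + 1)))
    (key : q ^ 2 * d ^ 2 ≤ r ^ 2 + 4 * C * (r ^ 4 + d ^ 4)) : d ≤ (1 + e) * r := by
  set B := 4 * C * (1 + D ^ 4) + 1 with hB
  have hB1 : 1 ≤ B := by
    rw [hB]
    have : 0 ≤ 4 * C * (1 + D ^ 4) := by positivity
    linarith
  have hd4 : d ^ 4 ≤ D ^ 4 * r ^ 4 := by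
    rw [← mul_pow]; exact pow_le_pow_left₀ hd0 hdD 4
  have hr3 : r ^ 4 ≤ r * r ^ 2 := by
    have : r ^ 4 = r * r ^ 2 * r := by ring
    rw [this]
    exact mul_le_of_le_one_right (by positivity) hr1
  have h1 : 4 * C * (r ^ 4 + d ^ 4) ≤ B * r * r ^ 2 := by
    calc 4 * C * (r ^ 4 + d ^ 4) ≤ 4 * C * (r ^ 4 + D ^ 4 * r ^ 4) :=
          mul_le_mul_of_nonneg_left (by linarith) (by positivity)
      _ = 4 * C * (1 + D ^ 4) * r ^ 4 := by ring
      _ ≤ B * r ^ 4 := mul_le_mul_of_nonneg_right (by rw [hB]; linarith) (by positivity)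
      _ ≤ B * (r * r ^ 2) := mul_le_mul_of_nonneg_left hr3 (by linarith)
      _ = B * r * r ^ 2 := by ring
  have h2 : B * r ≤ e / 8 := by
    calc B * r ≤ B * (e / (8 * B)) := mul_le_mul_of_nonneg_left hr2 (by linarith)
      _ = e / 8 := by field_simp
  have h3 : q ^ 2 * d ^ 2 ≤ (1 + e / 8) * r ^ 2 := by
    have := mul_le_mul_of_nonneg_right h2 (sq_nonneg r)
    linarith
  have h4 : (1 + e / 8) ≤ q ^ 2 * (1 + e) ^ 2 :=
    (poly_e he0 he1).trans
      (mul_le_mul_of_nonneg_right (pow_le_pow_left₀ (by linarith) hqe 2) (sq_nonneg _))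
  have h7 : q ^ 2 * d ^ 2 ≤ q ^ 2 * ((1 + e) * r) ^ 2 := by
    have := mul_le_mul_of_nonneg_right h4 (sq_nonneg r)
    calc q ^ 2 * d ^ 2 ≤ (1 + e / 8) * r ^ 2 := h3
      _ ≤ q ^ 2 * (1 + e) ^ 2 * r ^ 2 := this
      _ = _ := by ring
  have h8 : d ^ 2 ≤ ((1 + e) * r) ^ 2 := le_of_mul_le_mul_left h7 (by positivity)
  exact (abs_le_of_sq_le_sq' h8 (by positivity)).2

theorem invSharp_np (hA : T.IsAlexandrov M κ) (hk : κ ≤ 0) : RA.InvSharp M := by
  intro R hR ε hε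
  set c := cosh (√|κ| * R) with hc
  have hc1 : 1 ≤ c := Real.one_le_cosh _
  -- choose `q₀ < 1` with `1 / q₀² < 1 + ε`
  set e := min ε 1 with he
  have he0 : 0 < e := lt_min hε one_pos
  have he1 : e ≤ 1 := min_le_right _ _
  set lam₀ := 1 - e / (8 * c) with hlam
  have hlc : e / (8 * c) ≤ 1 / 8 := by
    rw [div_le_div_iff₀ (by positivity) (by norm_num)]
    nlinarith
  have hlc0 : 0 < e / (8 * c) := by positivity
  refine ⟨lam₀, ⟨by rw [hlam]; linarith, by rw [hlam]; linarith⟩, fun l hl => ?_⟩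
  set q := 1 - (1 - l) * c with hq
  have h1l : (1 - l) * c ≤ e / 8 := by
    have : 1 - l ≤ e / (8 * c) := by have := hl.1; rw [hlam] at this; linarith
    calc (1 - l) * c ≤ e / (8 * c) * c := mul_le_mul_of_nonneg_right this (by linarith)
      _ = e / 8 := by field_simp
  have hl1 : l < 1 := hl.2
  have hq0 : 7 / 8 ≤ q := by rw [hq]; linarith
  have hql : q ≤ l := by
    rw [hq]
    nlinarith
  have hl0 : 0 < l := by linarith
  have hqe : 1 - e / 8 ≤ q := by rw [hq]; linarith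
  set D := 2 * cR κ R with hD
  have hD12 : 12 ≤ D := by rw [hD]; linarith [cR_ge κ R]
  set C := c0 κ (2 * R) with hC
  have hC0 : 0 ≤ C := c0_nonneg _ _
  set B := 4 * C * (1 + D ^ 4) + 1 with hB
  have hB1 : 1 ≤ B := by
    rw [hB]
    have : 0 ≤ 4 * C * (1 + D ^ 4) := by positivity
    linarith
  refine ⟨min 1 (e / (8 * B)), lt_min one_pos (by positivity),
    fun p x y z w hx hy hz hw hzw => ?_⟩
  obtain ⟨z1, z2⟩ := rat_col hz
  obtain ⟨w1, w2⟩ := rat_col hw
  have hr1 : dist z w ≤ 1 := (hzw.trans_le (min_le_left _ _)).le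
  have hr2 : dist z w ≤ e / (8 * B) := (hzw.trans_le (min_le_right _ _)).le
  have hr0 : 0 ≤ dist z w := dist_nonneg
  have hlip := contr_lip hA (by rw [sqrt_np hk, zero_mul]; positivity) hl0 hl1.le hx.le hy.le
    z1 z2 w1 w2
  have hd0 : 0 ≤ dist x y := dist_nonneg
  have hdD : dist x y ≤ D * dist z w := by
    have h1 : 1 / 2 * dist x y ≤ l * dist x y := mul_le_mul_of_nonneg_right (by linarith) hd0
    rw [hD]; linarith
  have hee : 1 + e ≤ 1 + ε := by have := min_le_left ε 1; linarith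
  refine le_trans ?_ (mul_le_mul_of_nonneg_right hee hr0)
  -- degenerate cases
  rcases (dist_nonneg (x := p) (y := x)).eq_or_lt with hx0 | hx0
  · have e1 : p = x := dist_eq_zero.1 hx0.symm
    have e2 : dist p z = 0 := by rw [z2, ← hx0, mul_zero]
    have e3 : p = z := dist_eq_zero.1 e2
    rw [← e1, ← e3, w2]
    have h1 : 0 ≤ dist p y := dist_nonneg
    have h2 : 1 ≤ (1 + e) * l := by nlinarith
    calc dist p y = 1 * dist p y := (one_mul _).symm
      _ ≤ (1 + e) * l * dist p y := mul_le_mul_of_nonneg_right h2 h1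
      _ = _ := by ring
  rcases (dist_nonneg (x := p) (y := y)).eq_or_lt with hy0 | hy0
  · have e1 : p = y := dist_eq_zero.1 hy0.symm
    have e2 : dist p w = 0 := by rw [w2, ← hy0, mul_zero]
    have e3 : p = w := dist_eq_zero.1 e2
    rw [← e1, ← e3, dist_comm x p, dist_comm z p, z2]
    have h1 : 0 ≤ dist p x := dist_nonneg
    have h2 : 1 ≤ (1 + e) * l := by nlinarith
    calc dist p x = 1 * dist p x := (one_mul _).symm
      _ ≤ (1 + e) * l * dist p x := mul_le_mul_of_nonneg_right h2 h1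
      _ = _ := by ring
  have hpi := Real.pi_pos
  have key := key_local hA (o := p) (x := x) (y := y) (z := z) (w := w) (q := q) (T := 2 * R)
    (by linarith) (by linarith) z1 w1 (by rw [sqrt_np hk, zero_mul]; positivity) hx0 hy0
    (by rw [z2, hq, hc]; exact sn_ratio hk hx0.le hx.le hl0.le hl1.le)
    (by rw [w2, hq, hc]; exact sn_ratio hk hy0.le hy.le hl0.le hl1.le)
    (by rw [z2, w2, ← mul_sub, abs_mul, abs_of_pos hl0]
        exact mul_le_mul_of_nonneg_right hql (abs_nonneg _))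
    (by have := dist_triangle_left x y p; linarith)
    (by
      have := dist_triangle_left z w p
      have h1 : dist p z ≤ R := by rw [z2]; nlinarith
      have h2 : dist p w ≤ R := by rw [w2]; nlinarith
      linarith)
  exact last_step hC0 he0 he1 (by linarith) hqe hd0 hr0 hdD hr1 hr2 key

/-- **RL1** for `κ ≤ 0` -/
theorem rl1_np (hA : T.IsAlexandrov M κ) (hk : κ ≤ 0) : RA.InvLip M ∧ RA.InvSharp M :=
  ⟨invLip_np hA hk, invSharp_np hA hk⟩

end

end Vale.Agent.P233.H715.RG
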