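import Vale.Agent.P233.H715.RG4

/-! P233, RCDA (helper715): block G2, `Rad` and `RadLip`. -/

set_option linter.all false

open Real Set Filter Topology MeasureTheory
open scoped ENNReal NNReal MeasureTheory

universe u

namespace Vale.Agent.P233.H715.RG

open Vale.Agent.P233.H616

section haus

variable {X : Type*} [MetricSpace X] [MeasurableSpace X] [BorelSpace X]

/-- countably many measurable pieces of small diameter -/
theorem exists_pieces [TopologicalSpace.SeparableSpace X] [Nonempty X] {η : ℝ} (hη : 0 < η) :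
    ∃ B : ℕ → Set X, (∀ i, MeasurableSet (B i)) ∧ Pairwise (Function.onFun Disjoint B) ∧
      (⋃ i, B i) = univ ∧ ∀ i, ∀ x ∈ B i, ∀ y ∈ B i, dist x y < η := by
  let s : ℕ → Set X := fun i => Metric.ball (TopologicalSpace.denseSeq X i) (η / 2)
  refine ⟨disjointed s, fun i => MeasurableSet.disjointed (fun j => measurableSet_ball) i,
    disjoint_disjointed s, ?_, ?_⟩
  · rw [iUnion_disjointed]
    refine eq_univ_of_forall fun x => ?_
    obtain ⟨i, hi⟩ := (TopologicalSpace.denseRange_denseSeq X).exists_dist_lt x (half_pos hη)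
    exact mem_iUnion.2 ⟨i, by simpa [s] using hi⟩
  · intro i x hx y hy
    have h1 : x ∈ s i := disjointed_subset s i hx
    have h2 : y ∈ s i := disjointed_subset s i hy
    simp only [s, Metric.mem_ball] at h1 h2
    have := dist_triangle_right x y (TopologicalSpace.denseSeq X i)
    linarith

/-- additivity on measurable pieces of an arbitrary set -/
theorem tsum_inter_le {μ : Measure X} {B : ℕ → Set X} (hBm : ∀ i, MeasurableSet (B i))
    (hBd : Pairwise (Function.onFun Disjoint B)) (S : Set X) :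
    ∑' i, μ (S ∩ B i) ≤ μ S := by
  have h1 : ∀ i, μ (S ∩ B i) = (μ.restrict S) (B i) := fun i => by
    rw [Measure.restrict_apply (hBm i), inter_comm]
  simp only [h1]
  rw [← measure_iUnion hBd hBm]
  exact (measure_mono (subset_univ _)).trans (by rw [Measure.restrict_apply_univ])

/-- local co-Lipschitz map, arbitrary sets -/
theorem haus_local [TopologicalSpace.SeparableSpace X] {S T : Set X} {f : X → X}
    {C : ℝ≥0} {d η : ℝ} (hd : 0 ≤ d) (hη : 0 < η) (hf : ∀ x ∈ T, f x ∈ S)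
    (h : ∀ x ∈ T, ∀ y ∈ T, dist (f x) (f y) < η → dist x y ≤ C * dist (f x) (f y)) :
    μH[d] T ≤ (C : ℝ≥0∞) ^ d * μH[d] S := by
  rcases T.eq_empty_or_nonempty with rfl | ⟨x0, _⟩
  · simp
  haveI : Nonempty X := ⟨x0⟩
  obtain ⟨B, hBm, hBd, hBu, hBη⟩ := exists_pieces (X := X) hη
  have h1 : T ⊆ ⋃ i, T ∩ f ⁻¹' B i := by
    intro x hx
    have : f x ∈ ⋃ i, B i := by rw [hBu]; trivial
    obtain ⟨i, hi⟩ := mem_iUnion.1 this
    exact mem_iUnion.2 ⟨i, hx, hi⟩
  have h2 : ∀ i, μH[d] (T ∩ f ⁻¹' B i) ≤ (C : ℝ≥0∞) ^ d * μH[d] (S ∩ B i) := by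
    intro i
    refine (haus_le_image (G := f) (K := C) hd fun x hx y hy =>
      h x hx.1 y hy.1 (hBη i _ hx.2 _ hy.2)).trans ?_
    refine mul_le_mul_right (measure_mono ?_) _
    rintro _ ⟨x, hx, rfl⟩
    exact ⟨hf x hx.1, hx.2⟩
  calc μH[d] T ≤ μH[d] (⋃ i, T ∩ f ⁻¹' B i) := measure_mono h1
    _ ≤ ∑' i, μH[d] (T ∩ f ⁻¹' B i) := measure_iUnion_le _
    _ ≤ ∑' i, (C : ℝ≥0∞) ^ d * μH[d] (S ∩ B i) := ENNReal.tsum_le_tsum h2
    _ = (C : ℝ≥0∞) ^ d * ∑' i, μH[d] (S ∩ B i) := ENNReal.tsum_mul_left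
    _ ≤ (C : ℝ≥0∞) ^ d * μH[d] S := mul_le_mul_right (tsum_inter_le hBm hBd S) _

end haus

/-- the constant of `Rad` -/
noncomputable def cG (κ R : ℝ) : ℝ := 4 * cosh (√|κ| * (2 * R)) * (1 + cosh (√|κ| * R))

theorem cG_ge (κ R : ℝ) : 1 ≤ cG κ R := by
  unfold cG
  have h1 := Real.one_le_cosh (√|κ| * (2 * R))
  have h2 := Real.one_le_cosh (√|κ| * R)
  nlinarith

theorem cD_eq (κ R : ℝ) {t : ℝ} (ht : 0 < t) : cD κ R (1 / t) t = cG κ R / t := by
  unfold cD cG
  field_simp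

section metric

variable {M : Type u} [MetricSpace M] {κ : ℝ}

/-- the linear ratio -/
theorem lin_coarse (hA : T.IsAlexandrov M κ) {p x y z w : M} {R t : ℝ} (ht : t ∈ Ioc (0 : ℝ) 1)
    (hp : √κ * (dist p x + dist p y + dist x y) < 2 * π)
    (hx : dist p x ≤ R) (hy : dist p y ≤ R)
    (hz : dist p z = t * dist p x) (hz' : dist z x = (1 - t) * dist p x)
    (hw : dist p w = t * dist p y) (hw' : dist w y = (1 - t) * dist p y) :
    dist x y ≤ cG κ R / t * dist z w := by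
  rw [← cD_eq κ R ht.1]
  refine coarse_md hA ht.1 (by have := ht.1; positivity) hp hx hy (by rw [hz, hz']; ring)
    (by rw [hw, hw']; ring) hz.ge hw.ge ?_
  have h1 : |dist p z - dist p w| ≤ dist z w := by
    rw [dist_comm p z, dist_comm p w]; exact abs_dist_sub_le z w p
  rw [hz, hw, ← mul_sub, abs_mul, abs_of_pos ht.1] at h1
  rw [one_div, ← div_eq_inv_mul, le_div_iff₀ ht.1]
  linarith

theorem radLip (hA : T.IsAlexandrov M κ) : Vale.Agent.P233.RG.RadLip M κ := by
  intro R hR hRπ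
  refine ⟨cG κ R, cG_ge κ R, fun p t ht x hx y hy z w hz hz' hw hw' => ?_⟩
  rw [Metric.mem_ball'] at hx hy
  refine lin_coarse hA ht ?_ hx.le hy.le hz hz' hw hw'
  have h1 : dist x y ≤ dist p x + dist p y := dist_triangle_left x y p
  have h2 : √κ * (dist p x + dist p y + dist x y) ≤ √κ * (4 * R) :=
    mul_le_mul_of_nonneg_left (by linarith) (Real.sqrt_nonneg _)
  linarith

variable [CompleteSpace M] [SecondCountableTopology M] [MeasurableSpace M] [BorelSpace M]

omit [CompleteSpace M] in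
theorem rad (hA : T.IsAlexandrov M κ) : Vale.Agent.P233.RG.Rad M κ := by
  intro R hR
  refine ⟨cG κ R, cG_ge κ R, fun p t ht a ha B G hB hBπ hG => ?_⟩
  choose! f hf1 hf2 hf3 using hG
  have ht0 : 0 < t := ht.1
  have hC0 : 0 ≤ cG κ R / t := div_nonneg (by linarith [cG_ge κ R]) ht0.le
  have hK : ((cG κ R / t).toNNReal : ℝ) = cG κ R / t := Real.coe_toNNReal _ hC0
  have hKa : ((cG κ R / t).toNNReal : ℝ≥0∞) ^ a = ENNReal.ofReal ((cG κ R / t) ^ a) := by
    rw [← ENNReal.ofReal_rpow_of_nonneg hC0 ha]; rfl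
  rw [← hKa]
  have hsq : 0 ≤ √κ := Real.sqrt_nonneg _
  have hBR : ∀ x ∈ B, dist p x ≤ R := fun x hx => (Metric.mem_ball'.1 (hB hx)).le
  rcases le_or_gt κ 0 with hk | hk
  · refine haus_local ha one_pos hf1 fun x hx y hy _ => ?_
    rw [hK]
    refine lin_coarse hA ht ?_ (hBR x hx) (hBR y hy) (hf2 x hx) (hf3 x hx) (hf2 y hy) (hf3 y hy)
    rw [sqrt_np hk, zero_mul]; positivity
  · set Bk : ℕ → Set M := fun k => {x ∈ B | √κ * (dist p x + 1 / ((k : ℝ) + 1)) ≤ π} with hBk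
    have hmono : Monotone Bk := by
      intro i j hij x hx
      refine ⟨hx.1, le_trans (mul_le_mul_of_nonneg_left ?_ hsq) hx.2⟩
      have : (i : ℝ) ≤ j := by exact_mod_cast hij
      have h1 : 1 / ((j : ℝ) + 1) ≤ 1 / ((i : ℝ) + 1) :=
        one_div_le_one_div_of_le (by positivity) (by linarith)
      linarith
    have hU : B = ⋃ k, Bk k := by
      refine Subset.antisymm (fun x hx => ?_) (iUnion_subset fun k => fun x hx => hx.1)
      have hlt : √κ * dist p x < π := hBπ x hx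
      have hs : 0 < √κ := Real.sqrt_pos.2 hk
      obtain ⟨k, hk'⟩ := exists_nat_one_div_lt (div_pos (sub_pos.2 hlt) hs)
      refine mem_iUnion.2 ⟨k, hx, ?_⟩
      rw [lt_div_iff₀ hs] at hk'
      have e : √κ * (dist p x + 1 / ((k : ℝ) + 1)) = √κ * dist p x + 1 / ((k : ℝ) + 1) * √κ := by
        ring
      rw [e]; linarith
    rw [hU, hmono.measure_iUnion]
    refine iSup_le fun k => ?_
    have hδ : (0 : ℝ) < 1 / ((k : ℝ) + 1) := by positivity
    obtain ⟨η, hη, hch⟩ := close_chain hA hk (R := R) hδ ht0 (D1 := 1 / t) (by positivity)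
    refine haus_local ha hη (fun x hx => hf1 x hx.1) fun x hx y hy hxy => ?_
    rw [hK]
    have hxB := hx.1
    have hyB := hy.1
    have h1 : |dist p (f x) - dist p (f y)| ≤ dist (f x) (f y) := by
      rw [dist_comm p (f x), dist_comm p (f y)]; exact abs_dist_sub_le (f x) (f y) p
    have h2 : dist x y ≤ 1 / ((k : ℝ) + 1) / 2 := by
      refine hch p x y (f x) (f y) (hBR x hxB) (hBR y hyB) hx.2 hy.2
        (by rw [hf2 x hxB, hf3 x hxB]; ring) (by rw [hf2 y hyB, hf3 y hyB]; ring)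
        (hf2 x hxB).ge (hf2 y hyB).ge ?_ hxy
      rw [hf2 x hxB, hf2 y hyB, ← mul_sub, abs_mul, abs_of_pos ht0] at h1
      rw [one_div, ← div_eq_inv_mul, le_div_iff₀ ht0]
      linarith
    refine lin_coarse hA ht ?_ (hBR x hxB) (hBR y hyB) (hf2 x hxB) (hf3 x hxB) (hf2 y hyB)
      (hf3 y hyB)
    have h3 := hx.2
    have h4 := hy.2
    have h5 : √κ * (dist p x + dist p y + dist x y) ≤ √κ * (dist p x + dist p y + 1 / ((k : ℝ) + 1) / 2) :=
      mul_le_mul_of_nonneg_left (by linarith) hsq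
    have hs : 0 < √κ := Real.sqrt_pos.2 hk
    have h6 : 0 < √κ * (1 / ((k : ℝ) + 1)) := mul_pos hs hδ
    have e1 : √κ * (dist p x + dist p y + 1 / ((k : ℝ) + 1) / 2)
        = √κ * (dist p x + 1 / ((k : ℝ) + 1)) + √κ * (dist p y + 1 / ((k : ℝ) + 1))
          - 3 / 2 * (√κ * (1 / ((k : ℝ) + 1))) := by ring
    linarith

end metric

end Vale.Agent.P233.H715.RG
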