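import Vale.Agent.P233.H715.RG5
import Vale.Agent.P233.RA.IfL2

/-! P233, RCDA (helper715): block `StarE`, the sharp Jacobian of the conformal radial contraction. -/

set_option linter.all false

open Real Set Filter Topology MeasureTheory
open scoped ENNReal NNReal MeasureTheory

universe u

namespace Vale.Agent.P233.H715.RG

open Vale.Agent.P233.H616

section metric

variable {M : Type u} [MetricSpace M] {κ : ℝ}

/-- **local sharp estimate**, `q ≤ 2` -/
theorem key_local2 (hA : T.IsAlexandrov M κ) {o x y z w : M} {q T : ℝ} (hq0 : 0 ≤ q) (hq1 : q ≤ 2)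
    (hz : dist o z + dist z x = dist o x) (hw : dist o w + dist w y = dist o y)
    (hp : √κ * (dist o x + dist o y + dist x y) < 2 * π)
    (hx0 : 0 < dist o x) (hy0 : 0 < dist o y)
    (hqx : q * H616.sn κ (dist o x) ≤ H616.sn κ (dist o z))
    (hqy : q * H616.sn κ (dist o y) ≤ H616.sn κ (dist o w))
    (hqr : q * |dist o x - dist o y| ≤ |dist o z - dist o w|)
    (hd : dist x y ≤ T) (hr : dist z w ≤ T) :
    q ^ 2 * dist x y ^ 2 ≤ dist z w ^ 2 + 16 * c0 κ T * (dist z w ^ 4 + dist x y ^ 4) := by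
  have hsq : 0 ≤ √κ := Real.sqrt_nonneg _
  have hG := two_side hA hz hw hp
  set a := dist o x with ha
  set b := dist o y with hb
  set a' := dist o z with ha'
  set b' := dist o w with hb'
  set d := dist x y with hdd
  set r := dist z w with hrr
  have hd0 : 0 ≤ d := dist_nonneg
  have hr0 : 0 ≤ r := dist_nonneg
  have ha0 : 0 ≤ a := hx0.le
  have hb0 : 0 ≤ b := hy0.le
  have habd : |a - b| ≤ d := by
    rw [ha, hb, dist_comm o x, dist_comm o y]; exact abs_dist_sub_le x y o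
  have habr : |a' - b'| ≤ r := by
    rw [ha', hb', dist_comm o z, dist_comm o w]; exact abs_dist_sub_le z w o
  have hxπ : √κ * a < π := half_perim hp
  have hyπ : √κ * b < π := by
    have h3 : √κ * (b + a + dist y x) < 2 * π := by
      rw [dist_comm y x]
      have e : b + a + dist x y = a + b + d := by rw [← hdd]; ring
      rw [e]; exact hp
    exact half_perim h3
  have hdπ : √κ * d ≤ π := by
    have h1 : d ≤ a + b := dist_triangle_left x y o
    have h2 : √κ * (2 * d) ≤ √κ * (a + b + d) := mul_le_mul_of_nonneg_left (by linarith) hsq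
    linarith
  have sa : 0 < H616.sn κ a := sn_pos hx0 fun _ => hxπ
  have sb : 0 < H616.sn κ b := sn_pos hy0 fun _ => hyπ
  have hmd : 0 ≤ H616.md κ d - H616.md κ (a - b) := by
    rw [← md_abs κ (a - b)]
    have := md_mono (κ := κ) (abs_nonneg (a - b)) habd hdπ
    linarith
  have h1 : q ^ 2 * (H616.sn κ a * H616.sn κ b) * (H616.md κ d - H616.md κ (a - b)) ≤
      H616.sn κ a * H616.sn κ b * (H616.md κ r - H616.md κ (a' - b')) := by
    refine le_trans (mul_le_mul_of_nonneg_right ?_ hmd) hG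
    have e : q ^ 2 * (H616.sn κ a * H616.sn κ b) = (q * H616.sn κ a) * (q * H616.sn κ b) := by ring
    rw [e]
    exact mul_le_mul hqx hqy (mul_nonneg hq0 sb.le) ((mul_nonneg hq0 sa.le).trans hqx)
  have h2 : q ^ 2 * (H616.md κ d - H616.md κ (a - b)) ≤ H616.md κ r - H616.md κ (a' - b') := by
    have hs : 0 < H616.sn κ a * H616.sn κ b := mul_pos sa sb
    have e : q ^ 2 * (H616.sn κ a * H616.sn κ b) * (H616.md κ d - H616.md κ (a - b))
        = H616.sn κ a * H616.sn κ b * (q ^ 2 * (H616.md κ d - H616.md κ (a - b))) := by ring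
    rw [e] at h1
    exact le_of_mul_le_mul_left h1 hs
  -- quadratic approximations
  set C := c0 κ T with hC
  have hC0 : 0 ≤ C := c0_nonneg κ T
  have k1 := abs_le.1 (md_quad (κ := κ) (h := d) (T := T) (by rwa [abs_of_nonneg hd0]))
  have k2 := abs_le.1 (md_quad (κ := κ) (h := r) (T := T) (by rwa [abs_of_nonneg hr0]))
  have k3 := abs_le.1 (md_quad (κ := κ) (h := a - b) (T := T) (habd.trans hd))
  have k4 := abs_le.1 (md_quad (κ := κ) (h := a' - b') (T := T) (habr.trans hr))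
  change -(C * _) ≤ _ ∧ _ ≤ C * _ at k1 k2 k3 k4
  have p1 : (a - b) ^ 4 ≤ d ^ 4 := by
    rw [← Even.pow_abs ⟨2, rfl⟩ (a - b)]; exact pow_le_pow_left₀ (abs_nonneg _) habd 4
  have p2 : (a' - b') ^ 4 ≤ r ^ 4 := by
    rw [← Even.pow_abs ⟨2, rfl⟩ (a' - b')]; exact pow_le_pow_left₀ (abs_nonneg _) habr 4
  have p3 : q ^ 2 * (a - b) ^ 2 ≤ (a' - b') ^ 2 := by
    have := pow_le_pow_left₀ (mul_nonneg hq0 (abs_nonneg _)) hqr 2
    rwa [mul_pow, sq_abs, sq_abs] at this
  have q2 : q ^ 2 ≤ 4 := by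
    have := pow_le_pow_left₀ hq0 hq1 2
    norm_num at this
    exact this
  have q20 : 0 ≤ q ^ 2 := sq_nonneg q
  have u1 : q ^ 2 * (d ^ 2 / 2 - C * d ^ 4) ≤ q ^ 2 * H616.md κ d :=
    mul_le_mul_of_nonneg_left (by linarith [k1.1]) q20
  have u2 : q ^ 2 * H616.md κ (a - b) ≤ q ^ 2 * ((a - b) ^ 2 / 2 + C * d ^ 4) := by
    refine mul_le_mul_of_nonneg_left ?_ q20
    have := mul_le_mul_of_nonneg_left p1 hC0
    linarith [k3.2]
  have u3 : (a' - b') ^ 2 / 2 - C * r ^ 4 ≤ H616.md κ (a' - b') := by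
    have := mul_le_mul_of_nonneg_left p2 hC0
    linarith [k4.1]
  have u4 : q ^ 2 * (C * d ^ 4) ≤ 4 * (C * d ^ 4) :=
    mul_le_mul_of_nonneg_right q2 (by positivity)
  have u5 : 0 ≤ C * r ^ 4 := by positivity
  have k22 := k2.2
  have e1 : q ^ 2 * (d ^ 2 / 2 - C * d ^ 4) = q ^ 2 * d ^ 2 / 2 - q ^ 2 * (C * d ^ 4) := by ring
  have e2 : q ^ 2 * ((a - b) ^ 2 / 2 + C * d ^ 4)
      = q ^ 2 * (a - b) ^ 2 / 2 + q ^ 2 * (C * d ^ 4) := by ring
  have e3 : q ^ 2 * (H616.md κ d - H616.md κ (a - b))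
      = q ^ 2 * H616.md κ d - q ^ 2 * H616.md κ (a - b) := by ring
  have e4 : 16 * C * (r ^ 4 + d ^ 4) = 16 * (C * r ^ 4) + 16 * (C * d ^ 4) := by ring
  rw [e1] at u1
  rw [e2] at u2
  rw [e3] at h2
  rw [e4]
  linarith

/-- the last algebraic step -/
theorem eps_step {q r d C D ε η : ℝ} (hq : 0 < q) (hr : 0 ≤ r) (hd : 0 ≤ d) (hC : 0 ≤ C)
    (hD : d ≤ D * r) (hε : 0 < ε) (hrη : r ≤ η) (hη1 : η ≤ 1)
    (hη : 16 * C * (1 + D ^ 4) * η ≤ ε)
    (key : q ^ 2 * d ^ 2 ≤ r ^ 2 + 16 * C * (r ^ 4 + d ^ 4)) : d ≤ (1 + ε) / q * r := by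
  have hd4 : d ^ 4 ≤ D ^ 4 * r ^ 4 := by
    rw [← mul_pow]; exact pow_le_pow_left₀ hd hD 4
  have h0 : 0 ≤ 16 * C * (1 + D ^ 4) := by positivity
  have hr4 : r ^ 4 ≤ η * r ^ 2 := by
    have e : r ^ 4 = (r * r) * r ^ 2 := by ring
    rw [e]
    refine mul_le_mul_of_nonneg_right ?_ (sq_nonneg r)
    calc r * r ≤ η * 1 := mul_le_mul hrη (hrη.trans hη1) hr (hr.trans hrη)
      _ = η := mul_one _
  have h1 : 16 * C * (r ^ 4 + d ^ 4) ≤ ε * r ^ 2 := by
    calc 16 * C * (r ^ 4 + d ^ 4) ≤ 16 * C * (r ^ 4 + D ^ 4 * r ^ 4) :=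
          mul_le_mul_of_nonneg_left (by linarith) (by positivity)
      _ = 16 * C * (1 + D ^ 4) * r ^ 4 := by ring
      _ ≤ 16 * C * (1 + D ^ 4) * (η * r ^ 2) := mul_le_mul_of_nonneg_left hr4 h0
      _ = (16 * C * (1 + D ^ 4) * η) * r ^ 2 := by ring
      _ ≤ ε * r ^ 2 := mul_le_mul_of_nonneg_right hη (sq_nonneg r)
  have h2 : (q * d) ^ 2 ≤ ((1 + ε) * r) ^ 2 := by
    have e1 : (q * d) ^ 2 = q ^ 2 * d ^ 2 := by ring
    have e2 : ((1 + ε) * r) ^ 2 = r ^ 2 + ε * r ^ 2 + ε * r ^ 2 + ε ^ 2 * r ^ 2 := by ring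
    rw [e1, e2]
    have : 0 ≤ ε * r ^ 2 := by positivity
    have : 0 ≤ ε ^ 2 * r ^ 2 := by positivity
    linarith
  have h3 : q * d ≤ (1 + ε) * r := (abs_le_of_sq_le_sq' h2 (by positivity)).2
  rw [div_mul_eq_mul_div, le_div_iff₀ hq]
  linarith

/-- sharp local Lipschitz bound, once `x` and `y` are close -/
theorem sharp_pair (hA : T.IsAlexandrov M κ) {p x y z w : M} {R q t η ε : ℝ} (hq : 0 < q)
    (hq2 : q ≤ 2) (ht : 0 < t) (hε : 0 < ε) (hη1 : η ≤ 1)
    (hη : 16 * c0 κ (2 * R) * (1 + cD κ R (1 / q) t ^ 4) * η ≤ ε)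
    (hp : √κ * (dist p x + dist p y + dist x y) < 2 * π)
    (hx : dist p x ≤ R) (hy : dist p y ≤ R)
    (hz : dist p z + dist z x = dist p x) (hw : dist p w + dist w y = dist p y)
    (htz : t * dist p x ≤ dist p z) (htw : t * dist p y ≤ dist p w)
    (hqx : q * H616.sn κ (dist p x) ≤ H616.sn κ (dist p z))
    (hqy : q * H616.sn κ (dist p y) ≤ H616.sn κ (dist p w))
    (hqr : q * |dist p x - dist p y| ≤ |dist p z - dist p w|) (hzw : dist z w ≤ η) :
    dist x y ≤ (1 + ε) / q * dist z w := by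
  have habr : |dist p z - dist p w| ≤ dist z w := by
    rw [dist_comm p z, dist_comm p w]; exact abs_dist_sub_le z w p
  have hΔ : |dist p x - dist p y| ≤ 1 / q * dist z w := by
    rw [one_div, ← div_eq_inv_mul, le_div_iff₀ hq]
    linarith
  have hzw0 : 0 ≤ dist z w := dist_nonneg
  have h1q : 1 / q ≤ (1 + ε) / q := div_le_div_of_nonneg_right (by linarith) hq.le
  rcases (dist_nonneg (x := p) (y := x)).eq_or_lt with hx0 | hx0
  · have e1 : p = x := dist_eq_zero.1 hx0.symm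
    rw [← e1, dist_self, zero_sub, abs_neg, abs_of_nonneg dist_nonneg] at hΔ
    rw [← e1]
    exact hΔ.trans (mul_le_mul_of_nonneg_right h1q hzw0)
  rcases (dist_nonneg (x := p) (y := y)).eq_or_lt with hy0 | hy0
  · have e1 : p = y := dist_eq_zero.1 hy0.symm
    rw [← e1, dist_self, sub_zero, abs_of_nonneg dist_nonneg] at hΔ
    rw [← e1, dist_comm x p]
    exact hΔ.trans (mul_le_mul_of_nonneg_right h1q hzw0)
  have hco := coarse_md hA ht (by positivity : 0 ≤ 1 / q) hp hx hy hz hw htz htw hΔ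
  have key := key_local2 hA hq.le hq2 hz hw hp hx0 hy0 hqx hqy hqr (T := 2 * R)
    (by have := dist_triangle_left x y p; linarith)
    (by
      have := dist_triangle_left z w p
      have h1 := dist_nonneg (x := z) (y := x)
      have h2 := dist_nonneg (x := w) (y := y)
      linarith)
  exact eps_step hq hzw0 dist_nonneg (c0_nonneg _ _) hco hε hzw hη1 hη key

variable [SecondCountableTopology M] [MeasurableSpace M] [BorelSpace M]

/-- from `(1+ε)/q`-co-Lipschitz for every `ε` to the sharp inequality of measures -/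
theorem haus_sharp {A S : Set M} {f : M → M} {q : ℝ} (hq : 0 < q) (n : ℕ)
    (hf : ∀ x ∈ A, f x ∈ S)
    (h : ∀ ε > 0, ∃ η > 0, ∀ x ∈ A, ∀ y ∈ A, dist (f x) (f y) < η →
      dist x y ≤ (1 + ε) / q * dist (f x) (f y)) :
    ENNReal.ofReal q ^ n * μH[n] A ≤ μH[n] S := by
  have h1 : ∀ ε > 0, ENNReal.ofReal q ^ n * μH[n] A ≤ ENNReal.ofReal (1 + ε) ^ n * μH[n] S := by
    intro ε hε
    obtain ⟨η, hη, hh⟩ := h ε hε
    have hC0 : 0 ≤ (1 + ε) / q := by positivity
    have hK : (((1 + ε) / q).toNNReal : ℝ) = (1 + ε) / q := Real.coe_toNNReal _ hC0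
    have h2 := haus_local (d := (n : ℝ)) (C := ((1 + ε) / q).toNNReal) (Nat.cast_nonneg n) hη hf
      (fun x hx y hy hxy => by rw [hK]; exact hh x hx y hy hxy)
    rw [ENNReal.rpow_natCast] at h2
    have h3 : ENNReal.ofReal q ^ n * (((1 + ε) / q).toNNReal : ℝ≥0∞) ^ n
        = ENNReal.ofReal (1 + ε) ^ n := by
      rw [← mul_pow]
      congr 1
      change ENNReal.ofReal q * ENNReal.ofReal ((1 + ε) / q) = _
      rw [← ENNReal.ofReal_mul hq.le]
      congr 1
      field_simp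
    calc ENNReal.ofReal q ^ n * μH[n] A
        ≤ ENNReal.ofReal q ^ n * ((((1 + ε) / q).toNNReal : ℝ≥0∞) ^ n * μH[n] S) :=
          mul_le_mul_right h2 _
      _ = ENNReal.ofReal (1 + ε) ^ n * μH[n] S := by rw [← mul_assoc, h3]
  have h2 : Tendsto (fun ε : ℝ => ENNReal.ofReal (1 + ε) ^ n * μH[n] S) (𝓝[>] 0)
      (𝓝 (1 * μH[n] S)) := by
    refine ENNReal.Tendsto.mul_const ?_ (Or.inl one_ne_zero)
    have h3 : Continuous fun ε : ℝ => ENNReal.ofReal (1 + ε) ^ n :=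
      (ENNReal.continuous_pow n).comp (ENNReal.continuous_ofReal.comp (by fun_prop))
    have h4 := h3.tendsto 0
    simp only [add_zero, ENNReal.ofReal_one, one_pow] at h4
    exact h4.mono_left nhdsWithin_le_nhds
  rw [one_mul] at h2
  exact ge_of_tendsto h2 (eventually_nhdsWithin_of_forall fun ε hε => h1 ε hε)

/-- one shell -/
theorem shell (hA : T.IsAlexandrov M κ) {p : M} {A S : Set M} {f : M → M} {q t R : ℝ} (n : ℕ)
    (hq : 0 < q) (hq2 : q ≤ 2) (ht : 0 < t) (hR : ∀ x ∈ A, dist p x ≤ R)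
    (hπ : ∀ x ∈ A, √κ * dist p x < π) (hf : ∀ x ∈ A, f x ∈ S)
    (hz : ∀ x ∈ A, dist p (f x) + dist (f x) x = dist p x)
    (htz : ∀ x ∈ A, t * dist p x ≤ dist p (f x))
    (hqx : ∀ x ∈ A, q * H616.sn κ (dist p x) ≤ H616.sn κ (dist p (f x)))
    (hqr : ∀ x ∈ A, ∀ y ∈ A, q * |dist p x - dist p y| ≤ |dist p (f x) - dist p (f y)|) :
    ENNReal.ofReal q ^ n * μH[n] A ≤ μH[n] S := by
  have hsq : 0 ≤ √κ := Real.sqrt_nonneg _
  -- the choice of `η`
  have hch : ∀ ε > 0, ∃ η > 0, η ≤ 1 ∧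
      16 * c0 κ (2 * R) * (1 + cD κ R (1 / q) t ^ 4) * η ≤ ε := by
    intro ε hε
    set B := 16 * c0 κ (2 * R) * (1 + cD κ R (1 / q) t ^ 4) with hB
    have hB0 : 0 ≤ B := by
      have := c0_nonneg κ (2 * R)
      positivity
    refine ⟨min 1 (ε / (B + 1)), lt_min one_pos (by positivity), min_le_left _ _, ?_⟩
    calc B * min 1 (ε / (B + 1)) ≤ (B + 1) * (ε / (B + 1)) :=
          mul_le_mul (by linarith) (min_le_right _ _) (by positivity) (by linarith)
      _ = ε := by field_simp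
  rcases le_or_gt κ 0 with hk | hk
  · refine haus_sharp hq n hf fun ε hε => ?_
    obtain ⟨η, hη0, hη1, hη⟩ := hch ε hε
    refine ⟨η, hη0, fun x hx y hy hxy => ?_⟩
    exact sharp_pair hA hq hq2 ht hε hη1 hη (by rw [sqrt_np hk, zero_mul]; positivity)
      (hR x hx) (hR y hy) (hz x hx) (hz y hy) (htz x hx) (htz y hy) (hqx x hx) (hqx y hy)
      (hqr x hx y hy) hxy.le
  · set Bk : ℕ → Set M := fun k => {x ∈ A | √κ * (dist p x + 1 / ((k : ℝ) + 1)) ≤ π} with hBk
    have hmono : Monotone Bk := by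
      intro i j hij x hx
      refine ⟨hx.1, le_trans (mul_le_mul_of_nonneg_left ?_ hsq) hx.2⟩
      have : (i : ℝ) ≤ j := by exact_mod_cast hij
      have h1 : 1 / ((j : ℝ) + 1) ≤ 1 / ((i : ℝ) + 1) :=
        one_div_le_one_div_of_le (by positivity) (by linarith)
      linarith
    have hs : 0 < √κ := Real.sqrt_pos.2 hk
    have hU : A = ⋃ k, Bk k := by
      refine Subset.antisymm (fun x hx => ?_) (iUnion_subset fun k => fun x hx => hx.1)
      have hlt : √κ * dist p x < π := hπ x hx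
      obtain ⟨k, hk'⟩ := exists_nat_one_div_lt (div_pos (sub_pos.2 hlt) hs)
      refine mem_iUnion.2 ⟨k, hx, ?_⟩
      rw [lt_div_iff₀ hs] at hk'
      have e : √κ * (dist p x + 1 / ((k : ℝ) + 1)) = √κ * dist p x + 1 / ((k : ℝ) + 1) * √κ := by
        ring
      rw [e]; linarith
    rw [hU, hmono.measure_iUnion, ENNReal.mul_iSup]
    refine iSup_le fun k => ?_
    have hδ : (0 : ℝ) < 1 / ((k : ℝ) + 1) := by positivity
    obtain ⟨η₁, hη₁, hcl⟩ := close_chain hA hk (R := R) hδ ht (D1 := 1 / q) (by positivity)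
    refine haus_sharp hq n (fun x hx => hf x hx.1) fun ε hε => ?_
    obtain ⟨η, hη0, hη1, hη⟩ := hch ε hε
    refine ⟨min η η₁, lt_min hη0 hη₁, fun x hx y hy hxy => ?_⟩
    have hxA := hx.1
    have hyA := hy.1
    have h1 : |dist p (f x) - dist p (f y)| ≤ dist (f x) (f y) := by
      rw [dist_comm p (f x), dist_comm p (f y)]; exact abs_dist_sub_le (f x) (f y) p
    have h2 : dist x y ≤ 1 / ((k : ℝ) + 1) / 2 := by
      refine hcl p x y (f x) (f y) (hR x hxA) (hR y hyA) hx.2 hy.2 (hz x hxA) (hz y hyA)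
        (htz x hxA) (htz y hyA) ?_ (hxy.trans_le (min_le_right _ _))
      have := hqr x hxA y hyA
      rw [one_div, ← div_eq_inv_mul, le_div_iff₀ hq]
      linarith
    have h3 := hx.2
    have h4 := hy.2
    have h5 : √κ * (dist p x + dist p y + dist x y)
        ≤ √κ * (dist p x + dist p y + 1 / ((k : ℝ) + 1) / 2) :=
      mul_le_mul_of_nonneg_left (by linarith) hsq
    have h6 : 0 < √κ * (1 / ((k : ℝ) + 1)) := mul_pos hs hδ
    have e1 : √κ * (dist p x + dist p y + 1 / ((k : ℝ) + 1) / 2)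
        = √κ * (dist p x + 1 / ((k : ℝ) + 1)) + √κ * (dist p y + 1 / ((k : ℝ) + 1))
          - 3 / 2 * (√κ * (1 / ((k : ℝ) + 1))) := by ring
    exact sharp_pair hA hq hq2 ht hε hη1 hη (by linarith)
      (hR x hxA) (hR y hyA) (hz x hxA) (hz y hyA) (htz x hxA) (htz y hyA) (hqx x hxA)
      (hqx y hyA) (hqr x hxA y hyA) (hxy.le.trans (min_le_left _ _))

end metric

end Vale.Agent.P233.H715.RG
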