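import Vale.Agent.P233.H103.Heat

/-! P233, part A1: `P_t f ∈ TestI` for `f ∈ L² ∩ L^∞` (helper715, hint of helper832): the dimensional
term of the Bochner inequality bounds the Laplacian of `P_t f`. -/

set_option linter.all false

open MeasureTheory Filter Topology
open scoped ENNReal NNReal

namespace Vale.Agent.P233.H715

variable {M : Type*} [MeasurableSpace M] {m : Measure M} {C : Calc m}

theorem polar_sq (x y z : M →ₘ[m] ℝ) :
    x * (y * z) = (4 : ℝ)⁻¹ • (x * (y + z) ^ 2 - x * (y - z) ^ 2) := by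
  have h : x * (y + z) ^ 2 - x * (y - z) ^ 2 = x * (y * z) + x * (y * z) + x * (y * z)
      + x * (y * z) := by ring
  rw [h]
  module

theorem polar_Γ (hC : IsDir C) {y z : M →ₘ[m] ℝ} (hy : y ∈ C.W) (hz : z ∈ C.W) :
    C.Γ (y + z) (y + z) - C.Γ (y - z) (y - z) = (4 : ℝ) • C.Γ y z := by
  have e1 := hC.Γ_expand 1 hy hz
  have e2 := hC.Γ_expand (-1) hy hz
  have e3 : y - z = y + (-1 : ℝ) • z := by module
  rw [one_smul] at e1
  rw [e3, e1, e2]
  module

theorem P_bdd' (hC : IsDir C) {f : M →ₘ[m] ℝ} (hf : MemLp f 2 m) {B : ℝ}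
    (hB : ∀ᵐ x ∂m, |f x| ≤ B) (r : ℝ) : ∀ᵐ x ∂m, |C.P r f x| ≤ B := by
  have := hC.P_bdd (abs_nonneg r) hf hB
  rwa [hC.P_abs r hf] at this

theorem P_memTop' (hC : IsDir C) {f : M →ₘ[m] ℝ} (hf : MemLp f 2 m) (hft : MemLp f ∞ m) (r : ℝ) :
    MemLp (C.P r f) ∞ m := by
  obtain ⟨B, hB⟩ := mem_top_iff.1 hft
  exact mem_top_iff.2 ⟨B, P_bdd' hC hf hB r⟩

/-- polarization of `hasDeriv_PP` -/
theorem hasDeriv_PP2 (hC : IsDir C) {g b c : M →ₘ[m] ℝ} {s t : ℝ} (hσ : MemLp g 2 m)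
    (hσt : MemLp g ∞ m) (hb : MemLp b 2 m) (hbt : MemLp b ∞ m) (hc : MemLp c 2 m)
    (hct : MemLp c ∞ m) (hs : 0 < s) (hst : s < t) :
    HasDerivAt (fun s => I (C.P s g * (C.P (t - s) b * C.P (t - s) c)))
      (2 * I (C.P s g * C.Γ (C.P (t - s) b) (C.P (t - s) c))) s := by
  have hts : 0 < t - s := by linarith
  have d1 := hC.hasDeriv_PP hσ hσt (mem_add hb hc) (mem_add hbt hct) hs hst
  have d2 := hC.hasDeriv_PP hσ hσt (mem_sub hb hc) (mem_sub hbt hct) hs hst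
  have d3 := (d1.sub d2).const_mul (4 : ℝ)⁻¹
  have hsq : ∀ (r : ℝ) (f : M →ₘ[m] ℝ), MemLp f 2 m → MemLp f ∞ m →
      MemLp (C.P r f ^ 2 : M →ₘ[m] ℝ) 2 m := fun r f h1 h2 => by
    rw [sq]; exact mem_mul_top (P_memTop' hC h1 h2 r) (hC.P_mem2 r h1)
  have hWb := hC.P_mem hts hb
  have hWc := hC.P_mem hts hc
  have hgt := P_memTop' hC hσ hσt s
  have e1 : (4 : ℝ)⁻¹ * (2 * I (C.P s g * C.Γ (C.P (t - s) (b + c)) (C.P (t - s) (b + c)))
      - 2 * I (C.P s g * C.Γ (C.P (t - s) (b - c)) (C.P (t - s) (b - c))))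
      = 2 * I (C.P s g * C.Γ (C.P (t - s) b) (C.P (t - s) c)) := by
    rw [hC.P_add _ hb hc, hC.P_sub _ hb hc, ← mul_sub, ← I_sub
      (mem_mul_top hgt (hC.Γ_mem1 (hC.add_mem _ hWb _ hWc) (hC.add_mem _ hWb _ hWc)))
      (mem_mul_top hgt (hC.Γ_mem1 (hC.sub_mem hWb hWc) (hC.sub_mem hWb hWc))), ← mul_sub,
      polar_Γ hC hWb hWc, mul_smul_comm, I_smul]
    ring
  rw [← e1]
  refine d3.congr_of_eventuallyEq (Filter.Eventually.of_forall fun r => ?_)
  show I (C.P r g * (C.P (t - r) b * C.P (t - r) c)) = (4 : ℝ)⁻¹ *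
    (I (C.P r g * C.P (t - r) (b + c) ^ 2) - I (C.P r g * C.P (t - r) (b - c) ^ 2))
  rw [polar_sq, I_smul, I_sub, hC.P_add _ hb hc, hC.P_sub _ hb hc]
  · rw [← hC.P_add _ hb hc]
    exact mem_mul_22 (hC.P_mem2 r hσ) (hsq _ _ (mem_add hb hc) (mem_add hbt hct))
  · rw [← hC.P_sub _ hb hc]
    exact mem_mul_22 (hC.P_mem2 r hσ) (hsq _ _ (mem_sub hb hc) (mem_sub hbt hct))

/-- `r ↦ ∫ P_r σ (P_{t-r} w)²` is nondecreasing -/
theorem mono_PP (hC : IsDir C) {g w : M →ₘ[m] ℝ} {s t : ℝ} (h0 : 0 ≤ g) (hσ : MemLp g 2 m)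
    (hσt : MemLp g ∞ m) (hw : MemLp w 2 m) (hwt : MemLp w ∞ m) (hs : 0 ≤ s) (hst : s ≤ t) :
    I (g * C.P t w ^ 2) ≤ I (C.P s g * C.P (t - s) w ^ 2) := by
  have hmv := Convex.mul_sub_le_image_sub_of_le_deriv (convex_Icc 0 t)
    (f := fun s => I (C.P s g * C.P (t - s) w ^ 2))
    (hC.continuous_PP hσ hw hwt).continuousOn
    (fun s hs => by
      rw [interior_Icc] at hs
      exact (hC.hasDeriv_PP hσ hσt hw hwt hs.1 hs.2).differentiableAt.differentiableWithinAt)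
    (C := 0)
    (fun s hs => by
      rw [interior_Icc] at hs
      rw [(hC.hasDeriv_PP hσ hσt hw hwt hs.1 hs.2).deriv]
      have hts : 0 < t - s := by linarith [hs.2]
      have := I_nonneg (mul_nonneg (hC.P_nonneg hs.1.le hσ h0) (hC.nonneg _ (hC.P_mem hts hw)))
      linarith) 0 (Set.left_mem_Icc.2 (hs.trans hst)) s ⟨hs, hst⟩ hs
  simp only [sub_zero] at hmv
  rw [hC.P_zero_time hσ] at hmv
  linarith

section

variable {K N T L : ℝ} {f σ σ' : M →ₘ[m] ℝ}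

/-- the differential inequality, integrated -/
theorem lap_weak (hC : IsGamma C) (hN : 0 < N) (hB : C.BE K N) (hT : 0 < T) (hf : f ∈ C.TestI)
    (hL : ∀ᵐ x ∂m, |f x| ≤ L) (h0 : 0 ≤ σ) (hσ : C.IsLap σ σ') (h1 : MemLp σ 1 m)
    (ht : MemLp σ ∞ m) (ht' : MemLp σ' ∞ m) :
    I (σ * C.P T (C.lap f) ^ 2) ≤ 2 * N * Real.exp (2 * |K| * T) * L ^ 2 / T ^ 2 * I σ := by
  have hD := hC.toIsDir
  have hBi := hC.bei hN hB
  have hlap := hC.test_isLap hf.1
  set f' := C.lap f with hf'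
  have hf2 : MemLp f 2 m := hD.memLp _ hlap.1
  have hft : MemLp f ∞ m := mem_top_iff.2 ⟨L, hL⟩
  have hw2 : MemLp f' 2 m := hlap.2.1
  have hwt : MemLp f' ∞ m := hf.2
  have hσ2 : MemLp σ 2 m := hD.memLp _ hσ.1
  have hσ'2 : MemLp σ' 2 m := hσ.2.1
  set A := I (σ * C.P T f' ^ 2) with hA
  have hA0 : 0 ≤ A := I_nonneg (mul_nonneg h0 (sq_nonneg' _))
  set H : ℝ → ℝ := fun s => I (C.P s σ * C.Γ (C.P (T - s) f) (C.P (T - s) f)) with hH
  -- formula for `H`
  have hHeq : ∀ s, 0 < s → s < T → H s = 2⁻¹ * I (C.P s σ' * (C.P (T - s) f * C.P (T - s) f))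
      - I (C.P s σ * (C.P (T - s) f * C.P (T - s) f')) := by
    intro s hs hst
    have hts : 0 < T - s := by linarith
    have e := hD.lap_sq_identity (a := C.P s σ) (u := C.P (T - s) f)
      ⟨hD.P_mem hs hσ2, hD.P_memTop hs.le hσ2 ht⟩ ⟨hD.P_mem hts hf2, hD.P_memTop hts.le hf2 hft⟩
      (hD.P_isLap_of s hσ) (hD.P_isLap_of (T - s) hlap)
    rw [sq, mul_assoc (C.P s σ)] at e
    show I (C.P s σ * C.Γ (C.P (T - s) f) (C.P (T - s) f)) = _
    linarith
  have hHder : ∀ s, 0 < s → s < T → HasDerivAt H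
      (I (C.P s σ' * C.Γ (C.P (T - s) f) (C.P (T - s) f))
        - 2 * I (C.P s σ * C.Γ (C.P (T - s) f) (C.P (T - s) f'))) s := by
    intro s hs hst
    have d1 := (hasDeriv_PP2 hD hσ'2 ht' hf2 hft hf2 hft hs hst).const_mul (2 : ℝ)⁻¹
    have d2 := hasDeriv_PP2 hD hσ2 ht hf2 hft hw2 hwt hs hst
    have d3 := d1.sub d2
    have e : I (C.P s σ' * C.Γ (C.P (T - s) f) (C.P (T - s) f))
        - 2 * I (C.P s σ * C.Γ (C.P (T - s) f) (C.P (T - s) f'))
        = 2⁻¹ * (2 * I (C.P s σ' * C.Γ (C.P (T - s) f) (C.P (T - s) f)))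
          - 2 * I (C.P s σ * C.Γ (C.P (T - s) f) (C.P (T - s) f')) := by ring
    rw [e]
    refine d3.congr_of_eventuallyEq ?_
    filter_upwards [(lt_mem_nhds hs).and (gt_mem_nhds hst)] with r hr
    exact hHeq r hr.1 hr.2
  have hH0 : ∀ s, 0 < s → s < T → 0 ≤ H s := fun s hs hst =>
    I_nonneg (mul_nonneg (hD.P_nonneg hs.le hσ2 h0) (hC.nonneg _ (hD.P_mem (by linarith) hf2)))
  -- the differential inequality
  have hineq : ∀ s, 0 < s → s < T → -(2 * |K|) * H s + 2 / N * A ≤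
      I (C.P s σ' * C.Γ (C.P (T - s) f) (C.P (T - s) f))
        - 2 * I (C.P s σ * C.Γ (C.P (T - s) f) (C.P (T - s) f')) := by
    intro s hs hst
    have hts : 0 < T - s := by linarith
    have hu := hD.P_mem hts hf2
    have hw := hD.P_mem hts hw2
    have hgt := hD.P_memTop hs.le hσ2 ht
    have hwt' := hD.P_memTop hts.le hw2 hwt
    have b := hB (C.P (T - s) f) (C.P (T - s) f') (C.P s σ) (C.P s σ')
      (hD.P_isLap_of _ hlap) hw (hD.P_isLap_of s hσ) (hD.P_nonneg hs.le hσ2 h0) hgt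
      (hD.P_memTop hs.le hσ'2 ht')
    have i1 : MemLp (C.P s σ * C.Γ (C.P (T - s) f) (C.P (T - s) f')) 1 m :=
      mem_mul_top hgt (hD.Γ_mem1 hu hw)
    have i2 : MemLp (C.P s σ * C.Γ (C.P (T - s) f) (C.P (T - s) f)) 1 m :=
      mem_mul_top hgt (hD.Γ_mem1 hu hu)
    have i3 : MemLp (C.P s σ * C.P (T - s) f' ^ 2 : M →ₘ[m] ℝ) 1 m :=
      mem_mul_top hgt (mem_sq (hD.P_mem2 _ hw2))
    have e1 : C.P s σ * (C.Γ (C.P (T - s) f) (C.P (T - s) f')
        + K • C.Γ (C.P (T - s) f) (C.P (T - s) f) + N⁻¹ • C.P (T - s) f' ^ 2)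
        = C.P s σ * C.Γ (C.P (T - s) f) (C.P (T - s) f')
          + K • (C.P s σ * C.Γ (C.P (T - s) f) (C.P (T - s) f))
          + N⁻¹ • (C.P s σ * C.P (T - s) f' ^ 2) := by
      rw [mul_add, mul_add, mul_smul_comm, mul_smul_comm]
    have b' : I (C.P s σ * C.Γ (C.P (T - s) f) (C.P (T - s) f')) + K * H s
        + N⁻¹ * I (C.P s σ * C.P (T - s) f' ^ 2)
        ≤ 2⁻¹ * I (C.P s σ' * C.Γ (C.P (T - s) f) (C.P (T - s) f)) := by
      have b1 : I (C.P s σ * (C.Γ (C.P (T - s) f) (C.P (T - s) f')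
        + K • C.Γ (C.P (T - s) f) (C.P (T - s) f) + N⁻¹ • C.P (T - s) f' ^ 2))
        ≤ I ((2 : ℝ)⁻¹ • (C.Γ (C.P (T - s) f) (C.P (T - s) f) * C.P s σ')) := b
      rw [e1, I_add (mem_add i1 (mem_smul _ i2)) (mem_smul _ i3), I_add i1 (mem_smul _ i2),
        I_smul, I_smul, I_smul, mul_comm (C.Γ (C.P (T - s) f) (C.P (T - s) f))] at b1
      exact b1
    have j : A ≤ I (C.P s σ * C.P (T - s) f' ^ 2) := mono_PP hD h0 hσ2 ht hw2 hwt hs.le hst.le
    have j' : N⁻¹ * A ≤ N⁻¹ * I (C.P s σ * C.P (T - s) f' ^ 2) :=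
      mul_le_mul_of_nonneg_left j (inv_nonneg.2 hN.le)
    have k1 : -|K| * H s ≤ K * H s := mul_le_mul_of_nonneg_right (neg_abs_le K) (hH0 s hs hst)
    have e2 : 2 / N * A = 2 * (N⁻¹ * A) := by rw [div_eq_mul_inv]; ring
    rw [e2]
    linarith
  -- integration on `[T/4, T/2]`
  have hexp : ∀ s : ℝ, HasDerivAt (fun s => Real.exp (2 * |K| * s))
      (Real.exp (2 * |K| * s) * (2 * |K|)) s := fun s => by
    have h := ((hasDerivAt_id s).const_mul (2 * |K|)).exp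
    simpa using h
  have hmv := Convex.mul_sub_le_image_sub_of_le_deriv (convex_Icc (T / 4) (T / 2))
    (f := fun s => Real.exp (2 * |K| * s) * H s)
    (fun s hs => ((hexp s).mul (hHder s (by linarith [hs.1]) (by
      linarith [hs.2]))).continuousAt.continuousWithinAt)
    (fun s hs => by
      rw [interior_Icc] at hs
      exact ((hexp s).mul (hHder s (by linarith [hs.1]) (by
        linarith [hs.2]))).differentiableAt.differentiableWithinAt)
    (C := 2 / N * A)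
    (fun s hs => by
      rw [interior_Icc] at hs
      have s1 : 0 < s := by linarith [hs.1]
      have s2 : s < T := by linarith [hs.2]
      have hd := ((hexp s).mul (hHder s s1 s2)).deriv
      have e : (fun s => Real.exp (2 * |K| * s) * H s)
        = (fun s => Real.exp (2 * |K| * s)) * H := rfl
      rw [e, hd]
      have k := hineq s s1 s2
      have he : 1 ≤ Real.exp (2 * |K| * s) := Real.one_le_exp (by positivity)
      have hA2 : 0 ≤ 2 / N * A := by positivity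
      set X := Real.exp (2 * |K| * s)
      set Y := I (C.P s σ' * C.Γ (C.P (T - s) f) (C.P (T - s) f))
        - 2 * I (C.P s σ * C.Γ (C.P (T - s) f) (C.P (T - s) f'))
      have hX : 0 ≤ X := by linarith
      calc 2 / N * A ≤ X * (2 / N * A) := le_mul_of_one_le_left hA2 he
        _ ≤ X * (2 * |K| * H s + Y) := mul_le_mul_of_nonneg_left (by linarith) hX
        _ = X * (2 * |K|) * H s + X * Y := by ring)
    (T / 4) (Set.left_mem_Icc.2 (by linarith)) (T / 2) (Set.right_mem_Icc.2 (by linarith))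
    (by linarith)
  have hq : 0 ≤ Real.exp (2 * |K| * (T / 4)) * H (T / 4) :=
    mul_nonneg (Real.exp_pos _).le (hH0 _ (by linarith) (by linarith))
  -- bound of `H (T/2)`
  have hT2 : 0 < T / 2 := by linarith
  have hgr := IsGamma.P_gradB hC hBi hT2 hf2 hL
  have e3 : Real.exp (2 * |K| * (T / 2)) * L ^ 2 / (2 * (T / 2))
      = Real.exp (|K| * T) * L ^ 2 / T := by
    have : 2 * |K| * (T / 2) = |K| * T := by ring
    rw [this]
    congr 1
    ring
  rw [e3] at hgr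
  have hP1 := hD.P_L1_nonneg hT2.le hσ2 h1 h0
  have hP0 := hD.P_nonneg hT2.le hσ2 h0
  have hHT : H (T / 2) ≤ Real.exp (|K| * T) * L ^ 2 / T * I σ := by
    have e4 : T - T / 2 = T / 2 := by ring
    have h5 : H (T / 2) = I (C.P (T / 2) σ * C.Γ (C.P (T / 2) f) (C.P (T / 2) f)) := by
      show I (C.P (T / 2) σ * C.Γ (C.P (T - T / 2) f) (C.P (T - T / 2) f)) = _
      rw [e4]
    rw [h5]
    have hu := hD.P_mem hT2 hf2
    calc I (C.P (T / 2) σ * C.Γ (C.P (T / 2) f) (C.P (T / 2) f))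
        ≤ I ((Real.exp (|K| * T) * L ^ 2 / T) • C.P (T / 2) σ) := by
          refine I_mono (mem_mul_top (hD.P_memTop hT2.le hσ2 ht) (hD.Γ_mem1 hu hu))
            (mem_smul _ hP1.1) ?_
          rw [le_iff_ae]
          rw [nonneg_iff_ae] at hP0
          filter_upwards [hgr, mul_ae (C.P (T / 2) σ) (C.Γ (C.P (T / 2) f) (C.P (T / 2) f)),
            smul_ae (C.P (T / 2) σ) (Real.exp (|K| * T) * L ^ 2 / T), hP0] with x a b c d
          rw [b, c, mul_comm]
          exact mul_le_mul_of_nonneg_right a d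
      _ = Real.exp (|K| * T) * L ^ 2 / T * I (C.P (T / 2) σ) := I_smul _
      _ ≤ Real.exp (|K| * T) * L ^ 2 / T * I σ :=
          mul_le_mul_of_nonneg_left hP1.2 (by positivity)
  have e5 : 2 * |K| * (T / 2) = |K| * T := by ring
  rw [e5] at hmv
  have h6 : 2 / N * A * (T / 4) ≤ Real.exp (|K| * T) * (Real.exp (|K| * T) * L ^ 2 / T * I σ) := by
    have h7 : T / 2 - T / 4 = T / 4 := by ring
    rw [h7] at hmv
    have h8 := mul_le_mul_of_nonneg_left hHT (Real.exp_pos (|K| * T)).le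
    linarith
  have e6 : Real.exp (2 * |K| * T) = Real.exp (|K| * T) * Real.exp (|K| * T) := by
    rw [← Real.exp_add]; congr 1; ring
  rw [e6]
  have e7 : A = 2 * N / T * (2 / N * A * (T / 4)) := by
    field_simp
    ring
  rw [e7]
  calc 2 * N / T * (2 / N * A * (T / 4))
      ≤ 2 * N / T * (Real.exp (|K| * T) * (Real.exp (|K| * T) * L ^ 2 / T * I σ)) :=
        mul_le_mul_of_nonneg_left h6 (by positivity)
    _ = _ := by field_simp

/-- the bound for test functions -/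
theorem lap_bdd_test (hC : IsGamma C) (hN : 0 < N) (hB : C.BE K N) (hT : 0 < T)
    (hf : f ∈ C.TestI) (hL : ∀ᵐ x ∂m, |f x| ≤ L) :
    ∀ᵐ x ∂m, C.lap (C.P T f) x ^ 2 ≤ 2 * N * Real.exp (2 * |K| * T) * L ^ 2 / T ^ 2 := by
  have hD := hC.toIsDir
  have hlap := hC.test_isLap hf.1
  have hw2 : MemLp (C.lap f) 2 m := hlap.2.1
  have hwt : MemLp (C.lap f) ∞ m := hf.2
  have hP2 := hD.P_mem2 T hw2
  have hPt := hD.P_memTop hT.le hw2 hwt
  rw [hD.P_lap_of T hlap]
  have hF2 : MemLp (C.P T (C.lap f) ^ 2 : M →ₘ[m] ℝ) 2 m := by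
    rw [sq]; exact mem_mul_top hPt hP2
  have key := le_const_of_forall2 hF2 (K := 2 * N * Real.exp (2 * |K| * T) * L ^ 2 / T ^ 2)
    (by positivity) (fun ψ h0 h2 h1 htop => ?_)
  · filter_upwards [key, sq_ae (C.P T (C.lap f))] with x a b
    rwa [b] at a
  have hlim : Tendsto (fun n : ℕ => I (C.P T (C.lap f) ^ 2 * C.J ((n : ℝ) + 1)⁻¹ ψ)) atTop
      (𝓝 (I (C.P T (C.lap f) ^ 2 * ψ))) := by
    have hl : ∀ n : ℕ, (0 : ℝ) < ((n : ℝ) + 1)⁻¹ := fun n => by positivity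
    refine tendsto_I_mul (fun n => hF2) hF2 (fun n => hD.J_mem2 (hl n) h2) h2 ?_
      (hD.J_tendsto_L2 h2)
    simp only [sub_self, ne_eq, OfNat.ofNat_ne_zero, not_false_eq_true, zero_pow, I_zero]
    exact tendsto_const_nhds
  refine le_of_tendsto hlim (Filter.Eventually.of_forall fun n => ?_)
  have hl : (0 : ℝ) < ((n : ℝ) + 1)⁻¹ := by positivity
  obtain ⟨B, hBd⟩ := mem_top_iff.1 htop
  have hJb := mem_top_iff.2 ⟨B, hD.J_bdd hl h2 hBd⟩
  have hJ1 := hD.J_L1 hl h2 h1 h0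
  have h := lap_weak hC hN hB hT hf hL (hD.J_nonneg hl h2 h0) (hD.J_isLap hl h2) hJ1.1 hJb
    (mem_smul _ (mem_sub hJb htop))
  rw [mul_comm (C.P T (C.lap f) ^ 2)]
  exact h.trans (mul_le_mul_of_nonneg_left hJ1.2 (by positivity))

/-- the bound in general -/
theorem lap_bdd (hC : IsGamma C) [SigmaFinite m] (hN : 0 < N) (hB : C.BE K N) (hT : 0 < T)
    (hf : MemLp f 2 m) (hL : ∀ᵐ x ∂m, |f x| ≤ L) :
    ∀ᵐ x ∂m, |C.lap (C.P T f) x| ≤ √(2 * N * Real.exp (2 * |K| * T) * L ^ 2 / T ^ 2) := by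
  have hD := hC.toIsDir
  have hBi := hC.bei hN hB
  have hft : MemLp f ∞ m := mem_top_iff.2 ⟨L, hL⟩
  set c := 2 * N * Real.exp (2 * |K| * T) * L ^ 2 / T ^ 2 with hc
  have hc0 : 0 ≤ c := by positivity
  set r : ℕ → ℝ := fun n => ((n : ℝ) + 1)⁻¹ with hr
  have hrp : ∀ n, 0 < r n := fun n => by rw [hr]; positivity
  set v : ℕ → M →ₘ[m] ℝ := fun n => C.J (r n) (C.J (r n) f) with hv
  have hv2 : ∀ n, MemLp (v n) 2 m := fun n => hD.J_mem2 (hrp n) (hD.J_mem2 (hrp n) hf)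
  have hvL : ∀ n, ∀ᵐ x ∂m, |v n x| ≤ L := fun n =>
    hD.J_bdd (hrp n) (hD.J_mem2 (hrp n) hf) (hD.J_bdd (hrp n) hf hL)
  -- convergence `v n → f`
  have hv0 : Tendsto (fun n => I ((v n - f) ^ 2)) atTop (𝓝 0) := by
    have h1 := (hD.J_tendsto_L2 hf).const_mul 4
    rw [mul_zero] at h1
    refine squeeze_zero (fun n => I_sq_nonneg _) (fun n => ?_) h1
    have hJ := hD.J_mem2 (hrp n) hf
    have hs := mem_sub hJ hf
    have e1 : v n - f = C.J (r n) (C.J (r n) f - f) + (C.J (r n) f - f) := by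
      rw [hD.J_sub (hrp n) hJ hf]
      show C.J (r n) (C.J (r n) f) - f = _
      abel
    have hJJ := hD.J_mem2 (hrp n) hs
    calc I ((v n - f) ^ 2) ≤ I ((2 : ℝ) • C.J (r n) (C.J (r n) f - f) ^ 2
          + (2 : ℝ) • (C.J (r n) f - f) ^ 2) := by
          rw [e1]
          refine I_mono (mem_sq (mem_add hJJ hs)) (mem_add (mem_smul _ (mem_sq hJJ))
            (mem_smul _ (mem_sq hs))) ?_
          rw [le_iff_ae]
          filter_upwards [sq_ae (C.J (r n) (C.J (r n) f - f) + (C.J (r n) f - f)),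
            add_ae (C.J (r n) (C.J (r n) f - f)) (C.J (r n) f - f),
            add_ae ((2 : ℝ) • C.J (r n) (C.J (r n) f - f) ^ 2)
              ((2 : ℝ) • (C.J (r n) f - f) ^ 2),
            smul_ae (C.J (r n) (C.J (r n) f - f) ^ 2) (2 : ℝ),
            smul_ae ((C.J (r n) f - f) ^ 2) (2 : ℝ), sq_ae (C.J (r n) (C.J (r n) f - f)),
            sq_ae (C.J (r n) f - f)] with x a1 a2 a3 a4 a5 a6 a7
          rw [a1, a2, a3, a4, a5, a6, a7]
          nlinarith [sq_nonneg (C.J (r n) (C.J (r n) f - f) x - (C.J (r n) f - f) x)]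
      _ = 2 * I (C.J (r n) (C.J (r n) f - f) ^ 2) + 2 * I ((C.J (r n) f - f) ^ 2) := by
          rw [I_add (mem_smul _ (mem_sq hJJ)) (mem_smul _ (mem_sq hs)), I_smul, I_smul]
      _ ≤ 4 * I ((C.J (r n) f - f) ^ 2) := by
          have := hD.J_sq_le (hrp n) hs
          linarith
  -- convergence of the Laplacians
  have hlv : ∀ n, C.IsLap (C.P T (v n)) (C.lap (C.P T (v n))) := fun n => hD.P_isLap hT (hv2 n)
  have hlf : C.IsLap (C.P T f) (C.lap (C.P T f)) := hD.P_isLap hT hf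
  have hlap : Tendsto (fun n => I ((C.lap (C.P T (v n)) - C.lap (C.P T f)) ^ 2)) atTop (𝓝 0) := by
    have h1 := hv0.const_mul (2 * T ^ 2)⁻¹
    rw [mul_zero] at h1
    refine squeeze_zero (fun n => I_sq_nonneg _) (fun n => ?_) h1
    have h2 := hD.P_lap_sq_le hT (mem_sub (hv2 n) hf)
    have e1 : C.lap (C.P T (v n - f)) = C.lap (C.P T (v n)) - C.lap (C.P T f) := by
      have h3 := hD.isLap_add (hlv n) (hD.isLap_smul (-1) hlf)
      have e2 : C.P T (v n) + (-1 : ℝ) • C.P T f = C.P T (v n) - C.P T f := by module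
      have e3 : C.lap (C.P T (v n)) + (-1 : ℝ) • C.lap (C.P T f)
        = C.lap (C.P T (v n)) - C.lap (C.P T f) := by module
      rw [e2, e3] at h3
      rw [hD.P_sub _ (hv2 n) hf]
      exact hD.lap_eq h3
    rw [e1] at h2
    rw [inv_mul_eq_div, le_div_iff₀ (by positivity)]
    linarith
  -- the bound for large `n`
  have hbd : ∀ᶠ n in atTop, ∀ᵐ x ∂m, |C.lap (C.P T (v n)) x| ≤ √c := by
    have h1 : Tendsto (fun n : ℕ => 4 * |K| * r n) atTop (𝓝 (4 * |K| * 0)) := by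
      refine Tendsto.const_mul _ ?_
      have := tendsto_one_div_add_atTop_nhds_zero_nat (𝕜 := ℝ)
      simpa [one_div, hr] using this
    rw [mul_zero] at h1
    filter_upwards [h1.eventually (gt_mem_nhds zero_lt_one)] with n hn
    have h2 := lap_bdd_test hC hN hB hT
      (IsGamma.testI_JJ hC hBi (hrp n) hn.le hf hft) (hvL n)
    filter_upwards [h2] with x hx
    exact Real.abs_le_sqrt hx
  have hF2 : MemLp (C.lap (C.P T f)) 2 m := hlf.2.1
  have hweak : ∀ ψ : M →ₘ[m] ℝ, MemLp ψ 2 m →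
      Tendsto (fun n => I (C.lap (C.P T (v n)) * ψ)) atTop (𝓝 (I (C.lap (C.P T f) * ψ))) := by
    intro ψ h2
    refine tendsto_I_mul (fun n => (hlv n).2.1) hF2 (fun n => h2) h2 hlap ?_
    simp only [sub_self, ne_eq, OfNat.ofNat_ne_zero, not_false_eq_true, zero_pow, I_zero]
    exact tendsto_const_nhds
  have hle : ∀ (ψ : M →ₘ[m] ℝ), 0 ≤ ψ → MemLp ψ 2 m → MemLp ψ 1 m → ∀ᶠ n in atTop,
      |I (C.lap (C.P T (v n)) * ψ)| ≤ √c * I ψ := by
    intro ψ h0 h2 h1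
    filter_upwards [hbd] with n hn
    rw [nonneg_iff_ae] at h0
    rw [abs_le]
    constructor
    · have : I ((-√c) • ψ) ≤ I (C.lap (C.P T (v n)) * ψ) := by
        refine I_mono (mem_smul _ h1) (mem_mul_22 (hlv n).2.1 h2) ?_
        rw [le_iff_ae]
        filter_upwards [hn, mul_ae (C.lap (C.P T (v n))) ψ, smul_ae ψ (-√c), h0] with x a b d e
        rw [b, d]
        exact mul_le_mul_of_nonneg_right (abs_le.1 a).1 e
      rw [I_smul] at this
      linarith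
    · have : I (C.lap (C.P T (v n)) * ψ) ≤ I (√c • ψ) := by
        refine I_mono (mem_mul_22 (hlv n).2.1 h2) (mem_smul _ h1) ?_
        rw [le_iff_ae]
        filter_upwards [hn, mul_ae (C.lap (C.P T (v n))) ψ, smul_ae ψ (√c), h0] with x a b d e
        rw [b, d]
        exact mul_le_mul_of_nonneg_right (abs_le.1 a).2 e
      rw [I_smul] at this
      exact this
  have k1 := le_const_of_forall2 hF2 (K := √c) (Real.sqrt_nonneg _) (fun ψ h0 h2 h1 htop => by
    refine le_of_tendsto (hweak ψ h2) ?_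
    filter_upwards [hle ψ h0 h2 h1] with n hn using (abs_le.1 hn).2)
  have k2 := le_const_of_forall2 (mem_neg hF2) (K := √c) (Real.sqrt_nonneg _)
    (fun ψ h0 h2 h1 htop => by
      rw [neg_mul, I_neg]
      have h3 := ge_of_tendsto (hweak ψ h2) (b := -(√c * I ψ)) (by
        filter_upwards [hle ψ h0 h2 h1] with n hn using (abs_le.1 hn).1)
      linarith)
  filter_upwards [k1, k2, neg_ae (C.lap (C.P T f))] with x a b d
  rw [d] at b
  exact abs_le.2 ⟨by linarith, a⟩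

/-- **`P_t f ∈ TestI` for `f ∈ L² ∩ L^∞`** -/
theorem P_testI_pos (hC : IsGamma C) [SigmaFinite m] (hN : 0 < N) (hB : C.BE K N) (hT : 0 < T)
    (hf : MemLp f 2 m) (hft : MemLp f ∞ m) : C.P T f ∈ C.TestI := by
  obtain ⟨L, hL⟩ := mem_top_iff.1 hft
  exact ⟨IsGamma.P_test_pos hC (hC.bei hN hB) hT hf hft,
    mem_top_iff.2 ⟨_, lap_bdd hC hN hB hT hf hL⟩⟩

/-- **existence of the heat semigroup** -/
theorem heat_exists (hC : IsGamma C) [SigmaFinite m] (hN : 0 < N) (hB : C.BE K N) :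
    Heat C K C.P :=
  heat_of hC (hC.bei hN hB) fun _ ht _ hf hft => P_testI_pos hC hN hB ht hf hft

end

end Vale.Agent.P233.H715
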